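import Vale.Agent.P240.R2.H387.Six
import Vale.Agent.P240.R2.AS.Defs

/-! `StmtM2a`: the frames of `K ^ n` form a good system (P240, AS). -/

set_option autoImplicit false
set_option linter.unusedSectionVars false

open scoped BigOperators Classical
open Matrix

namespace Vale.Agent.P240.R2.H387

universe u

noncomputable section

variable {K : Type u} [Field K] [Fintype K] [StarRing K] {n : ℕ}

/-- from the letters of `AS` to mine -/
def toL (P : AS.Ln K n) : Ln ({1} : Set K) (Fin n) := ⟨P.1, isLn_one_iff.2 P.2⟩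

/-- and back -/
def ofL (P : Ln ({1} : Set K) (Fin n)) : AS.Ln K n := ⟨P.1, isLn_one_iff.1 P.2⟩

@[simp] theorem toL_ofL (P : Ln ({1} : Set K) (Fin n)) : toL (ofL P) = P := rfl

@[simp] theorem ofL_toL (P : AS.Ln K n) : ofL (toL P) = P := rfl

@[simp] theorem toL_val (P : AS.Ln K n) : (toL P).1 = P.1 := rfl

theorem orth_iff {w : List (AS.Ln K n)} : AS.Orth w ↔ OW (w.map toL) := by
  unfold AS.Orth OW
  rw [List.pairwise_map]
  rfl

theorem sm_toL (w : List (AS.Ln K n)) : sm (w.map toL) = AS.sm w := by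
  unfold sm AS.sm
  rw [List.map_map]
  rfl

theorem mem_Fr_iff {w : List (AS.Ln K n)} : w ∈ AS.Fr K n ↔ IsFr (w.map toL) := by
  rw [AS.mem_Fr, orth_iff, IsFr, List.length_map, Fintype.card_fin]
  exact and_comm

theorem sm_eq_one {w : List (AS.Ln K n)} (h : w ∈ AS.Fr K n) : AS.sm w = 1 := by
  rw [← sm_toL]
  exact (isFr_iff_sm.1 (mem_Fr_iff.1 h)).2

theorem mem_Fr_iff_sm {w : List (AS.Ln K n)} : w ∈ AS.Fr K n ↔ AS.Orth w ∧ AS.sm w = 1 := by
  rw [mem_Fr_iff, isFr_iff_sm, orth_iff, sm_toL]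

theorem map_ofL_toL (w : List (AS.Ln K n)) : (w.map toL).map ofL = w := by
  rw [List.map_map]
  exact List.map_id w

theorem map_toL_ofL (w : List (Ln ({1} : Set K) (Fin n))) : (w.map ofL).map toL = w := by
  rw [List.map_map]
  exact List.map_id w

/-- the hypothesis on the planes, any star -/
def Six (K : Type u) [Field K] [Fintype K] [StarRing K] (n : ℕ) : Prop :=
  ∀ a b : AS.Ln K n, a.1 * b.1 = 0 →
    6 ≤ (Finset.univ.filter (fun x : AS.Ln K n × AS.Ln K n =>
      x.1.1 * x.2.1 = 0 ∧ x.1.1 + x.2.1 = a.1 + b.1)).card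

theorem good_of_Six (h6 : Six K n) : AS.Good (AS.Fr K n) n where
  len w hw := ((AS.mem_Fr K).1 hw).1
  nodup w hw := List.Nodup.of_map _ (mem_Fr_iff.1 hw).1.nodup
  perm w hw w' hp := mem_Fr_iff.2 ((mem_Fr_iff.1 hw).perm (hp.map _))
  rect u u' g g' _ h1 h2 h3 := by
    rw [mem_Fr_iff, List.map_append] at h1 h2 h3 ⊢
    exact IsFr.rect h1 h2 h3
  six u a b h := by
    have h1 := mem_Fr_iff.1 h
    rw [List.map_append] at h1
    have h2 := (OW.append.1 h1.1).2.1
    have h3 : a.1 * b.1 = 0 := (OW.cons.1 h2).1 (toL b) (by simp)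
    refine (h6 a b h3).trans (Finset.card_le_card ?_)
    intro p hp
    obtain ⟨hp1, hp2⟩ := (Finset.mem_filter.1 hp).2
    simp only [Finset.mem_filter, Finset.mem_univ, true_and]
    rw [mem_Fr_iff, List.map_append]
    refine h1.replace ?_ ?_
    · exact OW.cons.2 ⟨fun Q hQ => by rw [List.mem_singleton.1 hQ]; exact hp1,
        OW.cons.2 ⟨fun Q hQ => by simp at hQ, List.Pairwise.nil⟩⟩
    · simpa using hp2

theorem AS_Fr_nonempty : (AS.Fr K n).Nonempty := by
  obtain ⟨w, hw⟩ := Fr_nonempty (K := K) (ι := Fin n) (T := ({1} : Set K)) rfl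
  refine ⟨w.map ofL, mem_Fr_iff.2 ?_⟩
  rw [map_toL_ofL]
  exact mem_Fr.1 hw

theorem Six_herm {q : ℕ} (hq : 3 ≤ q) (hK : Nat.card K = q ^ 2) (hs : ∀ x : K, star x = x ^ q) :
    Six K n := by
  intro a b hab
  refine (six_herm (by rw [← hK, Nat.card_eq_fintype_card]) hs hq (toL a) (toL b) hab).trans ?_
  refine Finset.card_le_card_of_injOn (fun p => (ofL p.1, ofL p.2)) ?_ ?_
  · intro p hp
    obtain ⟨hp1, hp2⟩ := mem_pairs.1 (Finset.mem_coe.1 hp)
    exact Finset.mem_coe.2 (Finset.mem_filter.2 ⟨Finset.mem_univ _, hp1, hp2⟩)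
  · intro p _ p' _ h
    have h1 := congrArg (fun x : AS.Ln K n × AS.Ln K n => (toL x.1, toL x.2)) h
    exact h1

/-- M2a -/
theorem stmtM2a : AS.StmtM2a.{u} := by
  intro K _ _ _ q hq hK hs n
  exact ⟨good_of_Six (Six_herm hq hK hs), AS_Fr_nonempty⟩

/-- the class of a word in `Fr K N` : all orthogonal words with the same sum -/
theorem mem_cls_iff {N : ℕ} {g g' : List (AS.Ln K N)} (hne : ∃ w, w ++ g ∈ AS.Fr K N) :
    g' ∈ AS.cls (AS.Fr K N) g ↔ g'.length = g.length ∧ AS.Orth g' ∧ AS.sm g' = AS.sm g := by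
  rw [AS.mem_cls]
  obtain ⟨w, hw⟩ := hne
  have hw1 := mem_Fr_iff.1 hw
  rw [List.map_append] at hw1
  constructor
  · rintro ⟨h1, h2⟩
    refine ⟨h1, ?_⟩
    have h3 := mem_Fr_iff.1 ((h2 w).2 hw)
    rw [List.map_append] at h3
    rw [orth_iff, ← sm_toL, ← sm_toL]
    exact ⟨(OW.append.1 h3.1).2.1, hw1.sm_eq h3⟩
  · rintro ⟨h1, h2, h3⟩
    refine ⟨h1, fun v => ?_⟩
    rw [mem_Fr_iff, mem_Fr_iff, List.map_append, List.map_append]
    rw [← sm_toL, ← sm_toL] at h3
    constructor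
    · intro h4
      exact h4.replace (OW.append.1 hw1.1).2.1 h3.symm
    · intro h4
      exact h4.replace (orth_iff.1 h2) h3

end

end Vale.Agent.P240.R2.H387
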