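import Vale.Agent.P240.R2.H401.DDefs
import Vale.Agent.P240.R2.H281.EL

/-!
`StmtDL`: the frames of the quadratic space `diag(1, .., 1, d)`, `d` not a square, whose last line is
the only one of value `d`: at least four pairs in the inner planes, at least two in the last one.
-/

set_option autoImplicit false
set_option linter.all false

namespace Vale.Agent.P240.R2.H387DL

open Finset Matrix
open Vale.Agent.P240.R2.AS (Ln Fr Orth mem_Fr)
open Vale.Agent.P240.R2.H387 (hf pr hf_def hf_star hf_add_right hf_add_left hf_smul_right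
  hf_smul_left pr_apply pr_mulVec pr_mul_eq_zero pr_smul hf_symm_zero)
open Vale.Agent.P240.R2.H401 (LG)
open Vale.Agent.P240.R2.H401.D
open Vale.Agent.P240.R2.H145.EO (B B_comm B_add_left B_add_right B_smul_left B_smul_right B_single)
open Vale.Agent.P240.R2.H281EL (cN mem_cN card_cN cN_one fr_replace sm_append sm_two orth_two fr_two)
open Vale.Agent.P240.R2.H281 (circ eight two_ne_of_odd)
open scoped Classical

universe u

noncomputable section

section vec
variable {K : Type u} [Field K] {K' : Type u} [Field K'] [StarRing K'] {m : ℕ} {d : K}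
  {j : K →+* K'} {δ : K'}

lemma vd_add (x y : Fin (m + 1) → K) : vd j δ (x + y) = vd j δ x + vd j δ y := by
  funext i
  simp only [vd, Pi.add_apply, map_add]
  by_cases h : i = Fin.last m
  · rw [if_pos h, if_pos h, if_pos h]
    ring
  · rw [if_neg h, if_neg h, if_neg h]

lemma vd_smul (c : K) (x : Fin (m + 1) → K) : vd j δ (c • x) = j c • vd j δ x := by
  funext i
  simp only [vd, Pi.smul_apply, smul_eq_mul, map_mul]
  by_cases h : i = Fin.last m
  · rw [if_pos h, if_pos h]
    ring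
  · rw [if_neg h, if_neg h]

lemma star_vd (hs : ∀ x : K', star x = x) (x : Fin (m + 1) → K') : star x = x := by
  funext i
  exact hs _

lemma hf_vd (hs : ∀ x : K', star x = x) (hδ : δ ^ 2 = j d) (x y : Fin (m + 1) → K) :
    hf (vd j δ x) (vd j δ y) = j (B (fd m d) x y) := by
  rw [hf_def, B, map_sum]
  refine Finset.sum_congr rfl fun i _ => ?_
  rw [hs]
  simp only [vd, fd]
  by_cases h : i = Fin.last m
  · rw [if_pos h, if_pos h, if_pos h, map_mul, map_mul, ← hδ]
    ring
  · rw [if_neg h, if_neg h, if_neg h, map_mul, map_mul, map_one, one_mul]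

lemma pr_vd (hs : ∀ x : K', star x = x) (hδ : δ ^ 2 = j d) (x : Fin (m + 1) → K) :
    pr (vd j δ x) = (j (B (fd m d) x x))⁻¹ • vecMulVec (vd j δ x) (vd j δ x) := by
  rw [pr, hf_vd hs hδ, star_vd hs]

lemma LS_iff (hs : ∀ x : K', star x = x) (hδ : δ ^ 2 = j d) {P : Ln K' (m + 1)} :
    LS j d δ P ↔ ∃ y : Fin (m + 1) → K, B (fd m d) y y = 1 ∧ P.1 = pr (vd j δ y) := by
  constructor
  · rintro ⟨y, h1, h2⟩
    exact ⟨y, h1, by rw [pr_vd hs hδ, h1, map_one, inv_one, one_smul]; exact h2⟩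
  · rintro ⟨y, h1, h2⟩
    exact ⟨y, h1, by rw [h2, pr_vd hs hδ, h1, map_one, inv_one, one_smul]⟩

lemma LN_iff (hs : ∀ x : K', star x = x) (hδ : δ ^ 2 = j d) {P : Ln K' (m + 1)} :
    LN j d δ P ↔ ∃ y : Fin (m + 1) → K, B (fd m d) y y = d ∧ P.1 = pr (vd j δ y) := by
  constructor
  · rintro ⟨y, h1, h2⟩
    exact ⟨y, h1, by rw [pr_vd hs hδ, h1]; exact h2⟩
  · rintro ⟨y, h1, h2⟩
    exact ⟨y, h1, by rw [h2, pr_vd hs hδ, h1]⟩

/-- letters from vectors of value `1` -/
lemma letter_one (hs : ∀ x : K', star x = x) (hδ : δ ^ 2 = j d) {z : Fin (m + 1) → K}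
    (h : B (fd m d) z z = 1) : ∃ P : Ln K' (m + 1), P.1 = pr (vd j δ z) := by
  have h1 : hf (vd j δ z) (vd j δ z) = 1 := by rw [hf_vd hs hδ, h, map_one]
  refine ⟨⟨pr (vd j δ z), vd j δ z, h1, ?_⟩, rfl⟩
  rw [pr, h1, inv_one, one_smul]

/-- letters from vectors of value `d` -/
lemma letter_d (hs : ∀ x : K', star x = x) (hδ : δ ^ 2 = j d) (hd : d ≠ 0)
    {z : Fin (m + 1) → K} (h : B (fd m d) z z = d) : ∃ P : Ln K' (m + 1), P.1 = pr (vd j δ z) := by
  have hδ0 : δ ≠ 0 := by
    rintro rfl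
    apply hd
    apply j.injective
    rw [map_zero, ← hδ]
    ring
  have h1 : hf (δ⁻¹ • vd j δ z) (δ⁻¹ • vd j δ z) = 1 := by
    rw [hf_smul_right, hf_smul_left, hs, hf_vd hs hδ, h, ← hδ]
    field_simp
  refine ⟨⟨pr (vd j δ z), δ⁻¹ • vd j δ z, h1, ?_⟩, rfl⟩
  rw [← pr_smul (inv_ne_zero hδ0) (vd j δ z), pr, h1, inv_one, one_smul]

/-- a line of value `1` does not have value `d` -/
lemma not_LN (hs : ∀ x : K', star x = x) (hδ : δ ^ 2 = j d) (hd : ¬ IsSquare d)
    {P : Ln K' (m + 1)} (h : LS j d δ P) : ¬ LN j d δ P := by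
  intro h'
  obtain ⟨y, h1, h2⟩ := (LS_iff hs hδ).1 h
  obtain ⟨z, h3, h4⟩ := (LN_iff hs hδ).1 h'
  have hd0 : d ≠ 0 := by
    rintro rfl
    exact hd ⟨0, by simp⟩
  have hjd : j d ≠ 0 := fun h => hd0 (j.injective (by rw [h, map_zero]))
  have h5 : pr (vd j δ z) *ᵥ vd j δ z = vd j δ z := by
    rw [pr_mulVec, hf_vd hs hδ, h3, inv_mul_cancel₀ hjd, one_smul]
  rw [← h4, h2, pr_mulVec, hf_vd hs hδ, hf_vd hs hδ, h1, map_one, inv_one, one_mul] at h5
  have h6 := hf_vd (m := m) hs hδ z z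
  rw [h3, ← h5, hf_smul_right, hf_smul_left, hs, hf_vd hs hδ, h1, map_one, mul_one,
    ← map_mul] at h6
  exact hd ⟨_, (j.injective h6).symm⟩

end vec

section planes
variable {K : Type u} [Field K] {K' : Type u} [Field K'] [StarRing K'] {m : ℕ} {d : K}
  {j : K →+* K'} {δ : K'}

/-- the first vector -/
def z1 (a b : Fin (m + 1) → K) (p : K × K) : Fin (m + 1) → K := p.1 • a + p.2 • b

/-- the second vector -/
def z2 (N : K) (a b : Fin (m + 1) → K) (p : K × K) : Fin (m + 1) → K :=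
  (-(N * p.2)) • a + p.1 • b

variable {a b : Fin (m + 1) → K} {N : K}

lemma z_facts [Fintype K] (haa : B (fd m d) a a = 1) (hbb : B (fd m d) b b = N)
    (hab : B (fd m d) a b = 0) {p : K × K} (hp : p ∈ cN N) :
    B (fd m d) (z1 a b p) (z1 a b p) = 1 ∧ B (fd m d) (z2 N a b p) (z2 N a b p) = N ∧
      B (fd m d) (z1 a b p) (z2 N a b p) = 0 := by
  have hba : B (fd m d) b a = 0 := by rw [B_comm]; exact hab
  have e4 := mem_cN.1 hp
  refine ⟨?_, ?_, ?_⟩
  · simp only [z1, B_add_right, B_add_left, B_smul_right, B_smul_left, haa, hbb, hab, hba]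
    linear_combination e4
  · simp only [z2, B_add_right, B_add_left, B_smul_right, B_smul_left, haa, hbb, hab, hba]
    linear_combination N * e4
  · simp only [z1, z2, B_add_right, B_add_left, B_smul_right, B_smul_left, haa, hbb, hab, hba]
    ring

lemma z_sum [Fintype K] (hs : ∀ x : K', star x = x) (hδ : δ ^ 2 = j d) (hN : N ≠ 0)
    (haa : B (fd m d) a a = 1) (hbb : B (fd m d) b b = N)
    (hab : B (fd m d) a b = 0) {p : K × K} (hp : p ∈ cN N) :
    pr (vd j δ (z1 a b p)) + pr (vd j δ (z2 N a b p)) = pr (vd j δ a) + pr (vd j δ b) := by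
  obtain ⟨h1, h2, -⟩ := z_facts haa hbb hab hp
  have hN0 : j N ≠ 0 := fun h => hN (j.injective (by rw [h, map_zero]))
  have e4 : (j p.1) ^ 2 + j N * (j p.2) ^ 2 = 1 := by
    have := congrArg j (mem_cN.1 hp)
    simpa using this
  ext i k
  rw [Matrix.add_apply, Matrix.add_apply, pr_apply, pr_apply, pr_apply, pr_apply,
    hf_vd hs hδ, hf_vd hs hδ, hf_vd hs hδ, hf_vd hs hδ, h1, h2, haa, hbb, hs, hs, hs, hs]
  simp only [z1, z2, vd_add, vd_smul, Pi.add_apply, Pi.smul_apply, smul_eq_mul, map_neg, map_mul,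
    map_one]
  field_simp
  linear_combination (j N * vd j δ a i * vd j δ a k + vd j δ b i * vd j δ b k) * e4

/-- the point is determined by the line up to sign -/
lemma z_inj [Fintype K] (hs : ∀ x : K', star x = x) (hδ : δ ^ 2 = j d) (hN : N ≠ 0)
    (haa : B (fd m d) a a = 1) (hbb : B (fd m d) b b = N) (hab : B (fd m d) a b = 0)
    {p r : K × K} (hp : p ∈ cN N) (hr : r ∈ cN N)
    (h : pr (vd j δ (z1 a b p)) = pr (vd j δ (z1 a b r))) :
    r = p ∨ r = -p := by
  have hba : B (fd m d) b a = 0 := by rw [B_comm]; exact hab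
  have hN0 : j N ≠ 0 := fun h => hN (j.injective (by rw [h, map_zero]))
  have key : ∀ p : K × K, p ∈ cN N →
      hf (vd j δ a) (pr (vd j δ (z1 a b p)) *ᵥ vd j δ a) = j (p.1 ^ 2) ∧
      hf (vd j δ b) (pr (vd j δ (z1 a b p)) *ᵥ vd j δ a) = j (N * (p.1 * p.2)) ∧
      hf (vd j δ b) (pr (vd j δ (z1 a b p)) *ᵥ vd j δ b) = j (N * N * p.2 ^ 2) := by
    intro p hp
    obtain ⟨h1, -, -⟩ := z_facts haa hbb hab hp
    rw [pr_mulVec, pr_mulVec, hf_vd hs hδ (z1 a b p) (z1 a b p), h1, map_one, inv_one, one_mul,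
      one_mul, hf_smul_right, hf_smul_right, hf_smul_right, hf_vd hs hδ, hf_vd hs hδ, hf_vd hs hδ,
      hf_vd hs hδ, ← map_mul, ← map_mul, ← map_mul]
    simp only [z1, B_add_right, B_add_left, B_smul_right, B_smul_left, haa, hbb, hab, hba]
    refine ⟨congrArg j (by ring), congrArg j (by ring), congrArg j (by ring)⟩
  obtain ⟨a1, a2, a3⟩ := key p hp
  obtain ⟨b1, b2, b3⟩ := key r hr
  rw [h] at a1 a2 a3
  rw [a1] at b1
  rw [a2] at b2
  rw [a3] at b3
  have c1 : p.1 ^ 2 = r.1 ^ 2 := j.injective b1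
  have c2 : p.1 * p.2 = r.1 * r.2 := mul_left_cancel₀ hN (j.injective b2)
  have c3 : p.2 ^ 2 = r.2 ^ 2 := mul_left_cancel₀ (mul_ne_zero hN hN) (j.injective b3)
  obtain ⟨p1, p2⟩ := p
  obtain ⟨r1, r2⟩ := r
  simp only at c1 c2 c3
  simp only [Prod.mk.injEq, Prod.neg_mk]
  by_cases h0 : p1 = 0
  · subst h0
    have h1 : r1 = 0 := by
      have : r1 ^ 2 = 0 := by rw [← c1]; ring
      exact pow_eq_zero_iff (two_ne_zero) |>.mp this
    subst h1
    have h2 : (r2 - p2) * (r2 + p2) = 0 := by linear_combination -c3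
    rcases mul_eq_zero.mp h2 with h2 | h2
    · left; exact ⟨rfl, sub_eq_zero.mp h2⟩
    · right; exact ⟨by simp, eq_neg_of_add_eq_zero_left h2⟩
  · have h2 : (r1 - p1) * (r1 + p1) = 0 := by linear_combination -c1
    rcases mul_eq_zero.mp h2 with h2 | h2
    · left
      have h3 : r1 = p1 := sub_eq_zero.mp h2
      subst h3
      exact ⟨rfl, (mul_left_cancel₀ h0 c2).symm⟩
    · right
      have h3 : r1 = -p1 := eq_neg_of_add_eq_zero_left h2
      subst h3
      refine ⟨rfl, ?_⟩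
      apply mul_left_cancel₀ h0
      linear_combination c2

/-- the pairs of lines -/
def pN [Fintype K] (j : K →+* K') (δ : K') (N : K) (a b : Fin (m + 1) → K) :
    Finset (Matrix (Fin (m + 1)) (Fin (m + 1)) K' × Matrix (Fin (m + 1)) (Fin (m + 1)) K') :=
  (cN N).image fun p => (pr (vd j δ (z1 a b p)), pr (vd j δ (z2 N a b p)))

lemma card_pN [Fintype K] (hs : ∀ x : K', star x = x) (hδ : δ ^ 2 = j d) (hN : N ≠ 0)
    (haa : B (fd m d) a a = 1) (hbb : B (fd m d) b b = N) (hab : B (fd m d) a b = 0) :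
    (cN N).card ≤ 2 * (pN j δ N a b).card := by
  refine Finset.card_le_mul_card_image _ 2 ?_
  intro x hx
  obtain ⟨p, hp, rfl⟩ := Finset.mem_image.mp hx
  refine (Finset.card_le_card (t := {p, -p}) ?_).trans Finset.card_le_two
  intro r hr
  simp only [mem_filter, Prod.mk.injEq] at hr
  simp only [mem_insert, mem_singleton]
  exact z_inj hs hδ hN haa hbb hab hp hr.1 hr.2.1.symm

end planes

section frames
variable {K : Type u} [Field K] [Fintype K] {K' : Type u} [Field K'] [Fintype K'] [StarRing K']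
  {m : ℕ} {d : K} {j : K →+* K'} {δ : K'}

/-- splitting off the last letter -/
lemma mem_FB {v : List (Ln K' (m + 1))} {P : Ln K' (m + 1)} : v ++ [P] ∈ FB (m := m) j d δ ↔
    v ++ [P] ∈ Fr K' (m + 1) ∧ LN j d δ P ∧ (∀ Q ∈ v, LS j d δ Q) := by
  unfold FB
  rw [Finset.mem_filter]
  constructor
  · rintro ⟨h1, v', P', h2, h3, h4⟩
    obtain ⟨rfl, h6⟩ := List.append_inj' h2 rfl
    have h7 : P = P' := by simpa using h6
    subst h7
    exact ⟨h1, h3, h4⟩
  · rintro ⟨h1, h2, h3⟩
    exact ⟨h1, v, P, rfl, h2, h3⟩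

/-- the pairs in a plane -/
lemma plane_le (hs : ∀ x : K', star x = x) (hδ : δ ^ 2 = j d)
    {u v : List (Ln K' (m + 1))} {x y : Ln K' (m + 1)} {G : Finset (List (Ln K' (m + 1)))}
    (h : u ++ x :: y :: v ∈ Fr K' (m + 1)) {a b : Fin (m + 1) → K} {N : K} (hN : N ≠ 0)
    (hL : ∀ z : Fin (m + 1) → K, B (fd m d) z z = N → ∃ P : Ln K' (m + 1), P.1 = pr (vd j δ z))
    (haa : B (fd m d) a a = 1) (hbb : B (fd m d) b b = N)
    (hxa : x.1 = pr (vd j δ a)) (hyb : y.1 = pr (vd j δ b))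
    (hG : ∀ p ∈ cN N, B (fd m d) a b = 0 → ∀ P Q : Ln K' (m + 1), P.1 = pr (vd j δ (z1 a b p)) →
      Q.1 = pr (vd j δ (z2 N a b p)) →
      u ++ P :: Q :: v ∈ Fr K' (m + 1) → u ++ P :: Q :: v ∈ G) :
    (cN N).card ≤ 2 * (univ.filter (fun z : Ln K' (m + 1) × Ln K' (m + 1) =>
      u ++ z.1 :: z.2 :: v ∈ G)).card := by
  have hN0 : j N ≠ 0 := fun h => hN (j.injective (by rw [h, map_zero]))
  have k1 : hf (vd j δ a) (vd j δ a) ≠ 0 := by
    rw [hf_vd hs hδ, haa, map_one]; exact one_ne_zero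
  have k2 : hf (vd j δ b) (vd j δ b) ≠ 0 := by
    rw [hf_vd hs hδ, hbb]; exact hN0
  have hab : B (fd m d) a b = 0 := by
    have h1 : hf (vd j δ a) (vd j δ b) = 0 := by
      refine (pr_mul_eq_zero k1 k2).1 ?_
      rw [← hxa, ← hyb]
      exact fr_two h
    rw [hf_vd hs hδ] at h1
    exact j.injective (by rw [h1, map_zero])
  refine (card_pN hs hδ hN haa hbb hab).trans (Nat.mul_le_mul_left 2 ?_)
  refine (Finset.card_le_card (t := (univ.filter (fun z : Ln K' (m + 1) × Ln K' (m + 1) =>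
    u ++ z.1 :: z.2 :: v ∈ G)).image fun z => (z.1.1, z.2.1)) ?_).trans Finset.card_image_le
  intro M hM
  obtain ⟨p, hp, rfl⟩ := Finset.mem_image.1 hM
  obtain ⟨f1, f2, f3⟩ := z_facts haa hbb hab hp
  obtain ⟨P, hP⟩ := letter_one (m := m) hs hδ f1
  obtain ⟨Q, hQ⟩ := hL _ f2
  rw [Finset.mem_image]
  refine ⟨(P, Q), ?_, by rw [hP, hQ]⟩
  rw [Finset.mem_filter]
  refine ⟨Finset.mem_univ _, hG p hp hab P Q hP hQ ?_⟩
  have h1 : u ++ ([x, y] ++ v) ∈ Fr K' (m + 1) := h
  refine fr_replace (g' := [P, Q]) h1 (orth_two.2 ?_) ?_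
  · rw [hP, hQ]
    refine (pr_mul_eq_zero ?_ ?_).2 ?_
    · rw [hf_vd hs hδ, f1, map_one]; exact one_ne_zero
    · rw [hf_vd hs hδ, f2]; exact hN0
    · rw [hf_vd hs hδ, f3, map_zero]
  · rw [sm_two, sm_two, hP, hQ, hxa, hyb]
    exact z_sum hs hδ hN haa hbb hab hp

end frames

/-- DL -/
theorem stmtDL : StmtDL.{u} := by
  intro K _ _ m d hN K' _ _ _ j δ hs hδ
  have h2 : (2 : K) ≠ 0 := two_ne_of_odd hN.odd
  have hd0 : d ≠ 0 := by
    rintro rfl
    exact hN.ns ⟨0, by simp⟩
  have hcard : 7 ≤ Fintype.card K := by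
    rw [← Nat.card_eq_fintype_card]
    exact hN.card
  refine ⟨fun P h => not_LN hs hδ hN.ns h, ?_, ⟨?_, ?_, ?_, ?_⟩⟩
  · refine ⟨H38.w0 K' (m + 1), ?_⟩
    have h3 : H38.w0 K' (m + 1) = List.ofFn (fun i : Fin m =>
        (H38.E1 i.castSucc : Ln K' (m + 1))) ++ [H38.E1 (Fin.last m)] := by
      unfold H38.w0
      rw [List.ofFn_succ_last]
    have h4 := H38.w0_mem (K := K') (n := m + 1)
    rw [h3] at h4 ⊢
    have hE : ∀ i : Fin (m + 1), (H38.E1 i : Ln K' (m + 1)).1 = pr (Pi.single i (1 : K')) := by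
      intro i
      have h5 : hf (Pi.single i (1 : K')) (Pi.single i (1 : K')) = 1 := by simp [hf]
      rw [pr, h5, inv_one, one_smul, H38.vec_e1]
      rfl
    refine mem_FB.2 ⟨h4, ?_, ?_⟩
    · rw [LN_iff hs hδ]
      refine ⟨Pi.single (Fin.last m) 1, ?_, ?_⟩
      · rw [B_single]
        simp [fd]
      · have h5 : vd j δ (Pi.single (Fin.last m) (1 : K)) = δ • Pi.single (Fin.last m) (1 : K') := by
          funext i
          simp only [vd, Pi.smul_apply, smul_eq_mul]
          by_cases hi : i = Fin.last m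
          · subst hi
            simp
          · rw [if_neg hi, Pi.single_eq_of_ne hi, Pi.single_eq_of_ne hi, map_zero, mul_zero]
        have hδ0 : δ ≠ 0 := by
          rintro rfl
          apply hd0
          apply j.injective
          rw [map_zero, ← hδ]
          ring
        rw [hE, h5, pr_smul hδ0]
    · intro Q hQ
      obtain ⟨i, rfl⟩ := List.mem_ofFn.1 hQ
      rw [LS_iff hs hδ]
      have hi : i.castSucc ≠ Fin.last m := (Fin.castSucc_lt_last i).ne
      refine ⟨Pi.single i.castSucc 1, ?_, ?_⟩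
      · rw [B_single]
        simp [fd, hi]
      · have h5 : vd j δ (Pi.single i.castSucc (1 : K)) = Pi.single i.castSucc (1 : K') := by
          funext k
          simp only [vd]
          by_cases hk : k = i.castSucc
          · subst hk
            rw [if_neg hi]
            simp
          · rw [Pi.single_eq_of_ne hk, Pi.single_eq_of_ne hk, map_zero, mul_zero, ite_self]
        rw [hE, h5]
  · intro w hw
    unfold FB at hw
    rw [Finset.mem_filter] at hw
    exact ((mem_Fr K').1 hw.1).1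
  · intro u a b c e v v' h1 h3 h4
    have hlen : ∀ w ∈ FB (m := m) j d δ, w.length = m + 1 := by
      intro w hw
      unfold FB at hw
      rw [Finset.mem_filter] at hw
      exact ((mem_Fr K').1 hw.1).1
    have l1 := hlen _ h1
    have l2 := hlen _ h4
    simp only [List.length_append, List.length_cons] at l1 l2
    rcases v.eq_nil_or_concat' with rfl | ⟨v0, P, rfl⟩
    · have hv' : v' = [] := by
        rw [← List.length_eq_zero_iff]
        simp only [List.length_nil] at l1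
        omega
      rw [hv']
      exact h3
    · rcases v'.eq_nil_or_concat' with rfl | ⟨v0', P', rfl⟩
      · simp only [List.length_append, List.length_nil, List.length_cons] at l1 l2
        omega
      · have ea : ∀ (x y : Ln K' (m + 1)) (v0 : List (Ln K' (m + 1))) (P : Ln K' (m + 1)),
            u ++ x :: y :: (v0 ++ [P]) = (u ++ x :: y :: v0) ++ [P] := by
          intro x y v0 P
          simp
        rw [ea] at h1 h3 h4 ⊢
        obtain ⟨a1, a2, a3⟩ := mem_FB.1 h1
        obtain ⟨b1, b2, b3⟩ := mem_FB.1 h3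
        obtain ⟨c1, c2, c3⟩ := mem_FB.1 h4
        refine mem_FB.2 ⟨?_, c2, ?_⟩
        · rw [← ea] at a1 b1 c1 ⊢
          have s1 := H387.sm_eq_one a1
          have s2 := H387.sm_eq_one b1
          have t1 : AS.sm [c, e] = AS.sm [a, b] := by
            have t2 : ∀ x y : Ln K' (m + 1), AS.sm (u ++ x :: y :: (v0 ++ [P])) =
                AS.sm u + AS.sm [x, y] + AS.sm (v0 ++ [P]) := by
              intro x y
              rw [show u ++ x :: y :: (v0 ++ [P]) = (u ++ [x, y]) ++ (v0 ++ [P]) by simp,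
                sm_append, sm_append]
            rw [t2] at s1 s2
            have t3 := s2.trans s1.symm
            exact add_left_cancel (add_right_cancel t3)
          have h5 : u ++ ([a, b] ++ (v0' ++ [P'])) ∈ Fr K' (m + 1) := c1
          exact fr_replace (g' := [c, e]) h5 (orth_two.2 (fr_two b1)) t1
        · intro Q hQ
          rw [List.mem_append, List.mem_cons, List.mem_cons] at hQ
          rcases hQ with hQ | rfl | rfl | hQ
          · exact c3 Q (by simp [hQ])
          · exact b3 _ (by simp)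
          · exact b3 _ (by simp)
          · exact c3 Q (by simp [hQ])
  · intro u x y v hv h
    obtain ⟨v0, P, rfl⟩ := (v.eq_nil_or_concat').resolve_left hv
    have ea : ∀ (x y : Ln K' (m + 1)), u ++ x :: y :: (v0 ++ [P]) =
        (u ++ x :: y :: v0) ++ [P] := by
      intro x y
      simp
    rw [ea] at h
    obtain ⟨a1, a2, a3⟩ := mem_FB.1 h
    obtain ⟨a, haa, hxa⟩ := (LS_iff hs hδ).1 (a3 x (by simp))
    obtain ⟨b, hbb, hyb⟩ := (LS_iff hs hδ).1 (a3 y (by simp))
    rw [← ea] at a1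
    have h3 := plane_le hs hδ (G := FB (m := m) j d δ) a1 (N := 1) one_ne_zero
      (fun z hz => letter_one hs hδ hz) haa hbb hxa hyb
      (by
        intro p hp hab P1 Q1 hP hQ hfr
        rw [ea] at hfr ⊢
        refine mem_FB.2 ⟨hfr, a2, ?_⟩
        obtain ⟨f1, f2, -⟩ := z_facts haa hbb hab hp
        intro Q hQ'
        rw [List.mem_append, List.mem_cons, List.mem_cons] at hQ'
        rcases hQ' with hQ' | rfl | rfl | hQ'
        · exact a3 Q (by simp [hQ'])
        · exact (LS_iff hs hδ).2 ⟨_, f1, hP⟩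
        · exact (LS_iff hs hδ).2 ⟨_, f2, hQ⟩
        · exact a3 Q (by simp [hQ']))
    rw [cN_one] at h3
    have h4 := eight (K := K) h2 hN.card
    omega
  · intro u x y h
    have ea : ∀ (x y : Ln K' (m + 1)), u ++ [x, y] = (u ++ [x]) ++ [y] := by
      intro x y
      simp
    have h' := h
    rw [ea] at h'
    obtain ⟨a1, a2, a3⟩ := mem_FB.1 h'
    obtain ⟨a, haa, hxa⟩ := (LS_iff hs hδ).1 (a3 x (by simp))
    obtain ⟨b, hbb, hyb⟩ := (LN_iff hs hδ).1 a2
    rw [← ea] at a1
    have h3 := plane_le hs hδ (G := FB (m := m) j d δ) (v := []) a1 (N := d) hd0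
      (fun z hz => letter_d hs hδ hd0 hz) haa hbb hxa hyb
      (by
        intro p hp hab P1 Q1 hP hQ hfr
        obtain ⟨f1, f2, -⟩ := z_facts haa hbb hab hp
        have hfr' : (u ++ [P1]) ++ [Q1] ∈ Fr K' (m + 1) := by
          rw [← ea]; exact hfr
        change u ++ [P1, Q1] ∈ FB (m := m) j d δ
        rw [ea]
        refine mem_FB.2 ⟨hfr', (LN_iff hs hδ).2 ⟨_, f2, hQ⟩, ?_⟩
        intro Q hQ'
        rw [List.mem_append, List.mem_singleton] at hQ'
        rcases hQ' with hQ' | rfl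
        · exact a3 Q (by simp [hQ'])
        · exact (LS_iff hs hδ).2 ⟨_, f1, hP⟩)
    have h4 := card_cN h2 hd0
    have h5 : 2 ≤ (univ.filter (fun z : Ln K' (m + 1) × Ln K' (m + 1) =>
        u ++ z.1 :: z.2 :: [] ∈ FB (m := m) j d δ)).card := by
      omega
    exact h5

end

end Vale.Agent.P240.R2.H387DL
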