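import Vale.Agent.P240.R2.H387.Fh
import Vale.Agent.P240.R2.H38.V5
import Vale.Agent.P240.R2.H986.StarSU
import Vale.Agent.P240.R2.H687.NL6

/-!
The count for `p = 2` and `σ = star`, `n` odd, `q ≥ 7` (row (e2) of helper38).
-/

set_option autoImplicit false
set_option linter.unusedSectionVars false

open scoped Classical
open Matrix

namespace Vale.Agent.P240.R2.H387

open Vale.Agent.P240.R2.H986.St Vale.Agent.P240.R2.H687

universe u

noncomputable section

/-- the numbers -/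
theorem num_seven {n q : ℕ} (hn : 3 ≤ n) (hno : Odd n) (hq : 7 ≤ q) (hqo : Odd q) :
    (q + 1) * Nat.gcd n (q + 1) * (3 * 4 ^ n) ≤ 2 * (2 * (q + 1) ^ n) := by
  have key : Nat.gcd n (q + 1) * (3 * 4 ^ n) ≤ 4 * (q + 1) ^ (n - 1) := by
    rcases Nat.lt_or_ge n 5 with h5 | h5
    · have h3 : n = 3 := by
        obtain ⟨k, hk⟩ := hno
        omega
      subst h3
      rcases (Nat.dvd_prime Nat.prime_three).1 (Nat.gcd_dvd_left 3 (q + 1)) with h | h
      · rw [h]
        have h2 : 8 ^ 2 ≤ (q + 1) ^ 2 := Nat.pow_le_pow_left (by omega) 2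
        norm_num at h2 ⊢
        omega
      · have h2 : 3 ∣ q + 1 := h ▸ Nat.gcd_dvd_right 3 (q + 1)
        have h11 : 11 ≤ q := by
          obtain ⟨k, hk⟩ := hqo
          omega
        rw [h]
        have h2 : 12 ^ 2 ≤ (q + 1) ^ 2 := Nat.pow_le_pow_left (by omega) 2
        norm_num at h2 ⊢
        omega
    · have h1 : Nat.gcd n (q + 1) ≤ n := Nat.gcd_le_left _ (by omega)
      refine (Nat.mul_le_mul_right _ h1).trans ?_
      obtain ⟨m, rfl⟩ : ∃ m, n = m + 5 := ⟨n - 5, by omega⟩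
      have e : m + 5 - 1 = m + 4 := by omega
      rw [e]
      clear h1 hno e h5 hn
      induction m with
      | zero =>
        have h1 : 8 ^ 4 ≤ (q + 1) ^ 4 := Nat.pow_le_pow_left (by omega) 4
        norm_num at h1 ⊢
        omega
      | succ m ih =>
        calc (m + 1 + 5) * (3 * 4 ^ (m + 1 + 5)) = ((m + 6) * 4) * (3 * 4 ^ (m + 5)) := by ring
          _ ≤ ((m + 5) * 8) * (3 * 4 ^ (m + 5)) := Nat.mul_le_mul_right _ (by omega)
          _ = ((m + 5) * (3 * 4 ^ (m + 5))) * 8 := by ring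
          _ ≤ (4 * (q + 1) ^ (m + 4)) * (q + 1) := Nat.mul_le_mul ih (by omega)
          _ = 4 * (q + 1) ^ (m + 1 + 4) := by ring
  have h3 : (q + 1) ^ n = (q + 1) ^ (n - 1) * (q + 1) := by
    rw [← pow_succ]
    congr 1
    omega
  calc (q + 1) * Nat.gcd n (q + 1) * (3 * 4 ^ n) = (q + 1) * (Nat.gcd n (q + 1) * (3 * 4 ^ n)) := by
        ring
    _ ≤ (q + 1) * (4 * (q + 1) ^ (n - 1)) := Nat.mul_le_mul_left _ key
    _ = 2 * (2 * (q + 1) ^ n) := by rw [h3]; ring

variable {K : Type u} [Field K] [Fintype K] [StarRing K] {n q : ℕ}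

/-- the frames of `F_q ^ n` of lines of square value are fixed frames -/
theorem card_Fr0_le {σ : K ≃+* K} (hσ : ∀ x : K, σ x = star x) :
    (AS.Fr (F0 K) n).card ≤ (Fs σ n).card := by
  have h1 : (H687.Fg (toK K) (toK_star K) (1 : AS.GU K n)).card = (AS.Fr (F0 K) n).card := by
    unfold H687.Fg H687.mapW
    rw [Finset.card_map]
  rw [← h1]
  refine Finset.card_le_card fun w hw => mem_Fs.2 ⟨H687.Fg_sub _ _ _ hw, ?_⟩
  obtain ⟨w₀, h₀, rfl⟩ := H687.mem_mapW.1 hw
  intro P hP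
  obtain ⟨Q, hQ, rfl⟩ := List.mem_map.1 hP
  rw [H687.lam_coe]
  have e1 : H687.conjM (toK K) (1 : AS.GU K n) Q.1 = Q.1.map (toK K) := by
    unfold H687.conjM
    show (1 : Matrix (Fin n) (Fin n) K) * Q.1.map (toK K) * star (1 : Matrix (Fin n) (Fin n) K) = _
    rw [star_one, Matrix.one_mul, Matrix.mul_one]
  rw [e1]
  ext i j
  rw [Matrix.map_apply, Matrix.map_apply, hσ]
  rw [← toK_star, star_F0]

/-- the number of `h ∈ SU` with `h ^ σ = a h` -/
theorem card_scal_SU (hn : 0 < n) (hs : ∀ x : K, star x = x ^ q) {σ : K ≃+* K}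
    (hσ : ∀ x : K, σ x = star x) :
    Nat.card {h : H38.SU K n // ∃ a : K, (H38.mx h).map σ = a • H38.mx h} ≤
      Nat.gcd n (q + 1) * Nat.card (SUg (F0 K) n) := by
  have : Finite (Matrix (Fin n) (Fin n) K) := inferInstanceAs (Finite (Fin n → Fin n → K))
  have : Finite (unitaryGroup (Fin n) K) := Subtype.finite
  have h1 := card_scal_gen (K₀ := F0 K) (starRingEnd K) star_comm (toK K) (toK_star K)
    (fun x hx => exists_toK hx) (SUg K n)
    ({c : K | c ^ (Nat.gcd n (q + 1)) = 1}) (fun g hg c hc => ?_)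
  · rw [comap_SUg] at h1
    have h2 : Nat.card {h : H38.SU K n // ∃ a : K, (H38.mx h).map σ = a • H38.mx h} ≤
        Nat.card {g : unitaryGroup (Fin n) K // g ∈ SUg K n ∧
          ∃ c : K, (g : Matrix (Fin n) (Fin n) K).map (starRingEnd K) =
            c • (g : Matrix (Fin n) (Fin n) K)} := by
      refine Nat.card_le_card_of_injective (fun h => ⟨h.1.1, mem_SUg.2 h.1.2, ?_⟩) ?_
      · obtain ⟨a, ha⟩ := h.2
        refine ⟨a, ?_⟩
        rw [← show H38.mx h.1 = h.1.1.1 from rfl, ← ha]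
        ext i j
        rw [Matrix.map_apply, Matrix.map_apply, hσ]
        rfl
      · intro h h' e
        have e1 := congrArg (fun y : {g : unitaryGroup (Fin n) K // g ∈ SUg K n ∧
          ∃ c : K, (g : Matrix (Fin n) (Fin n) K).map (starRingEnd K) =
            c • (g : Matrix (Fin n) (Fin n) K)} => y.1) e
        exact Subtype.ext (Subtype.ext e1)
    refine h2.trans (h1.trans (Nat.mul_le_mul_right _ ?_))
    exact card_roots_le (Nat.gcd_pos_of_pos_left _ hn)
  · have e1 : c ^ n = 1 := scal_det _ (mem_SUg.1 hg) hc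
    have e2 : c * star c = 1 := scal_norm hn (starRingEnd K) star_comm hc
    have e3 : c ^ (q + 1) = 1 := by
      rw [pow_succ, ← hs, mul_comm]; exact e2
    show c ^ (Nat.gcd n (q + 1)) = 1
    exact pow_gcd_eq_one.2 ⟨e1, e3⟩

/-- **(e2)** -/
theorem scnt_two (hqo : Odd q) (hq : 7 ≤ q) (hK : Nat.card K = q ^ 2)
    (hs : ∀ x : K, star x = x ^ q) (hn : 3 ≤ n) (hno : Odd n) {σ : K ≃+* K}
    (hσ : ∀ x : K, σ x = star x) : H38.SCnt (H38.SU K n) σ := by
  have hfin1 : Finite (Matrix (Fin n) (Fin n) K) := inferInstanceAs (Finite (Fin n → Fin n → K))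
  have hfin2 : Finite (unitaryGroup (Fin n) K) := Subtype.finite
  have hgood := good_Fs_herm hK hs hσ n
  refine ⟨Fs σ n, Fs_subset, fun w hw w' hp => hgood.perm w w' hp hw,
    fun w hw => (mem_Fs.1 hw).2, ?_⟩
  have ht := t_Fs_herm hqo hq hK hs hσ hno (by omega)
  have hA := card_scal_SU (n := n) (by omega) hs hσ
  have hU := H715.card_unitary_pow (K := K) (by omega) hK hs n
  have hU₀ := H715.card_unitary_trivial (K := F0 K) (two_ne hqo hK hs) (star_F0 K) n
  have e1 := card_U_SU (K := K) (n := n) (by omega)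
  have e2 := card_U_SU (K := F0 K) (n := n) (by omega)
  rw [card_unitary_N1, H715.card_N1_of_pow (by omega) hK hs, hU] at e1
  rw [card_unitary_N1, H715.card_N1_of_trivial (two_ne hqo hK hs) (star_F0 K), hU₀] at e2
  have hF0 := card_Fr0_le (K := K) (n := n) hσ
  have hnum := num_seven hn hno hq hqo
  rw [← H687.SU_eq (K := K) (n := n)] at e1
  set A := Nat.card {h : H38.SU K n // ∃ a : K, (H38.mx h).map σ = a • H38.mx h} with hAdef
  set F := (AS.Fr K n).card with hF
  set F0' := (AS.Fr (F0 K) n).card with hF0'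
  set U := Nat.card (H38.SU K n) with hUdef
  set t := AS.t (Fs σ n) with htdef
  set S0 := Nat.card (SUg (F0 K) n) with hS0
  set G := Nat.gcd n (q + 1) with hG
  have hUpos : 0 < U := Nat.card_pos
  have hFpos : 0 < F := by
    rcases Nat.eq_zero_or_pos F with h | h
    · rw [h, zero_mul] at e1
      have : 0 < (q + 1) * U := Nat.mul_pos (by omega) hUpos
      omega
    · exact h
  have hGpos : 0 < G := Nat.gcd_pos_of_pos_left _ (by omega)
  have hlt : F0' < 3 * 2 ^ n * t := lt_of_le_of_lt hF0 ht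
  have e4 : (4 : ℕ) ^ n = 2 ^ n * 2 ^ n := by rw [← mul_pow]; norm_num
  refine lt_of_mul_lt_mul_left (a := 2 * (q + 1)) ?_ (Nat.zero_le _)
  calc 2 * (q + 1) * (F * A) ≤ 2 * (q + 1) * (F * (G * S0)) :=
        Nat.mul_le_mul_left _ (Nat.mul_le_mul_left _ hA)
    _ = (q + 1) * F * G * (2 * S0) := by ring
    _ = (q + 1) * F * G * (F0' * 2 ^ n) := by rw [e2]
    _ < (q + 1) * F * G * ((3 * 2 ^ n * t) * 2 ^ n) :=
        Nat.mul_lt_mul_of_pos_left (Nat.mul_lt_mul_of_pos_right hlt (Nat.pow_pos (by norm_num)))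
          (Nat.mul_pos (Nat.mul_pos (by omega) hFpos) hGpos)
    _ = F * t * ((q + 1) * G * (3 * 4 ^ n)) := by rw [e4]; ring
    _ ≤ F * t * (2 * (2 * (q + 1) ^ n)) := Nat.mul_le_mul_left _ hnum
    _ = 4 * t * (F * (q + 1) ^ n) := by ring
    _ = 4 * t * ((q + 1) * U) := by rw [e1]
    _ = 2 * (q + 1) * (2 * (U * t)) := by ring

end

end Vale.Agent.P240.R2.H387
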