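import Vale.Agent.P240.R2.H38.W2
import Vale.Agent.P240.R2.H387.Scnt

/-!
`LocTopF` for `PSU_n(q)`: the case `p = 2`, `n` odd, with `q ≥ 7`.
-/

set_option autoImplicit false
set_option linter.all false

namespace Vale.Agent.P240.R2.H387

open Matrix Vale.Agent.P240.R2.AS Vale.Agent.P240.R2.H487 Vale.Agent.P240.R2.H38
open scoped Classical

universe u v w

noncomputable section

variable {K : Type u} [Field K] [Fintype K] [StarRing K] {n q : ℕ} {p : ℕ}
variable {G : Type v} [Group G]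

/-- **`LocTopF` for `PSU_n(q)`**, `p ∣ q + 1`, `n ≥ 3`, the `p`-part of `n` smaller than that of
`q + 1`; for `p = 2`: `n` odd and `q ≥ 7`. -/
theorem locTopF_PSU7 [Finite G] [Fact p.Prime] (𝕜 : Type w) [Field 𝕜] (hn : 3 ≤ n) (hq : 3 ≤ q)
    (hK : Nat.card K = q ^ 2) (hs : ∀ x : K, star x = x ^ q) (hpn : p * n.gcd (q + 1) ∣ q + 1)
    (h38 : ¬ (p = 3 ∧ q = 8)) (h2 : p = 2 → Odd n ∧ 7 ≤ q) {L : Subgroup G}
    (e : Nonempty (L ≃* AS.PSU K n)) : LocTopF 𝕜 p L := by
  by_cases hp2 : p = 2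
  · have hp : p.Prime := Fact.out
    obtain ⟨ζ, c, hζ, h1, hz, hc, hcn⟩ := exists_nums (by omega) hK hs hp hpn
    obtain ⟨e⟩ := e
    let ε : H38.SU K n →* G := L.subtype.comp (e.symm.toMonoidHom.comp (toP K n))
    have hr : ε.range = L := by
      ext y
      constructor
      · rintro ⟨g, rfl⟩
        exact (e.symm (toP K n g)).2
      · intro hy
        obtain ⟨g, hg⟩ := toP_surj (e ⟨y, hy⟩)
        refine ⟨g, ?_⟩
        show ((e.symm (toP K n g) : L) : G) = y
        rw [hg, MulEquiv.symm_apply_apply]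
    have hker : ∀ g : H38.SU K n, ε g = 1 ↔ ∃ a : K, mx g = a • (1 : Matrix (Fin n) (Fin n) K) := by
      intro g
      rw [← toP_ker h1 hz g]
      show ((e.symm (toP K n g) : L) : G) = 1 ↔ _
      rw [OneMemClass.coe_eq_one, EmbeddingLike.map_eq_one_iff]
    have hpq : p ∣ q + 1 := (Dvd.intro _ rfl : p ∣ p * n.gcd (q + 1)).trans hpn
    have hG := sgood_SU (p := p) hn hq hK hs hζ h1 hz hc hcn
    have hP := phom_SU (p := p) hn hq hK hs h1 hz hc hcn hr hker
    subst hp2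
    obtain ⟨hno, hq7⟩ := h2 rfl
    have hqo : Odd q := by
      obtain ⟨m, hm⟩ := hpq
      exact ⟨m - 1, by omega⟩
    refine locTopF_of_PHom 𝕜 hG (H38.h90_two hK hs hqo hno) hP (H38.t_pos (by omega) hq hK hs) ?_
    intro σ s1 s2 s3 _
    exact H387.scnt_two hqo hq7 hK hs hn hno (H401.aut_eq_star hK hs σ s2 s3)
  · exact locTopF_PSU 𝕜 hn hq hK hs hpn h38 (fun h => absurd h hp2) e

end

end Vale.Agent.P240.R2.H387
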