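import Vale.Agent.P240.R2.H387.M2a
import Vale.Agent.P240.R2.H472.M2b
import Vale.Agent.P240.R2.H775.GS5

/-! Theorem 1 for hermitian spaces over finite fields: `StmtM2` (P240, AS). -/

set_option autoImplicit false

namespace Vale.Agent.P240.R2.H387

universe u

/-- Theorem 1 (hermitian spaces, `q ≥ 3`) -/
theorem stmtM2 : AS.StmtM2.{u} :=
  AS.stmtM2 H775.stmtM1 stmtM2a H472.stmtM2b

end Vale.Agent.P240.R2.H387
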