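import Vale.Agent.P240.R2.H387.Good

/-! Hermitian spaces over a finite field: six pairs per plane, norms, existence of frames. -/

open scoped BigOperators
open Matrix
open Vale.Agent.P240.R2.H775 (Good quot cls mem_quot mem_cls quot_quot)

namespace Vale.Agent.P240.R2.H387

section norm
variable {K : Type*} [Field K] [Fintype K]

/-- the norm map is onto the fixed field -/
theorem exists_norm {q : ℕ} (hK : Fintype.card K = q ^ 2) {e : K} (he : e ≠ 0)
    (hs : e ^ q = e) : ∃ a : K, a ^ (q + 1) = e := by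
  classical
  obtain ⟨g, hg⟩ := IsCyclic.exists_generator (α := Kˣ)
  have ho : orderOf g = q ^ 2 - 1 := by
    rw [orderOf_eq_card_of_forall_mem_zpowers hg, Nat.card_eq_fintype_card,
      Fintype.card_units, hK]
  have hq : 2 ≤ q := by
    have h1 := Fintype.one_lt_card (α := K)
    rw [hK] at h1
    by_contra h2
    have h3 : q = 0 ∨ q = 1 := by omega
    rcases h3 with rfl | rfl <;> simp at h1
  have hfin : IsOfFinOrder g := isOfFinOrder_of_finite g
  obtain ⟨k, hk⟩ := (hfin.mem_powers_iff_mem_zpowers).2 (hg (Units.mk0 e he))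
  have hk' : g ^ k = Units.mk0 e he := hk
  have h1 : (Units.mk0 e he) ^ (q - 1) = 1 := by
    apply Units.ext
    rw [Units.val_pow_eq_pow_val, Units.val_mk0, Units.val_one]
    have h2 : e ^ (q - 1) * e = 1 * e := by
      rw [← pow_succ, Nat.sub_add_cancel (by omega), hs, one_mul]
    exact mul_right_cancel₀ he h2
  rw [← hk', ← pow_mul] at h1
  have h2 := orderOf_dvd_of_pow_eq_one h1
  rw [ho] at h2
  have h3 : q ^ 2 - 1 = (q + 1) * (q - 1) := by
    obtain ⟨r, rfl⟩ : ∃ r, q = r + 1 := ⟨q - 1, by omega⟩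
    have : (r + 1) ^ 2 = (r + 1 + 1) * r + 1 := by ring
    rw [this]
    simp
  rw [h3] at h2
  obtain ⟨m, hm⟩ := Nat.dvd_of_mul_dvd_mul_right (by omega) h2
  refine ⟨((g ^ m : Kˣ) : K), ?_⟩
  rw [← Units.val_pow_eq_pow_val, ← pow_mul, mul_comm m, ← hm, hk', Units.val_mk0]

/-- at most `q + 1` elements of a given norm -/
theorem card_norm_le (q : ℕ) (d : K) [DecidableEq K] :
    (Finset.univ.filter (fun c : K => c ^ (q + 1) = d)).card ≤ q + 1 := by
  refine le_trans (Finset.card_le_card ?_) ((Multiset.toFinset_card_le _).trans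
    (Polynomial.card_nthRoots (q + 1) d))
  intro c hc
  rw [Multiset.mem_toFinset, Polynomial.mem_nthRoots (Nat.succ_pos q)]
  exact (Finset.mem_filter.1 hc).2

end norm

variable {K : Type*} [Field K] [StarRing K] [Fintype K] [DecidableEq K]
  {ι : Type*} [Fintype ι] [DecidableEq ι]

/-- six pairs in every plane: hermitian case, `q ≥ 3` -/
theorem six_herm {q : ℕ} (hK : Fintype.card K = q ^ 2) (hs : ∀ x : K, star x = x ^ q)
    (hq : 3 ≤ q) (a b : Ln ({1} : Set K) ι) (hab : a.1 * b.1 = 0) : 6 ≤ (pairs a b).card := by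
  obtain ⟨a, x, hx1, hx, rfl⟩ := a
  obtain ⟨b, y, hy1, hy, rfl⟩ := b
  change pr x * pr y = 0 at hab
  have hxy := (pr_mul_eq_zero hx hy).1 hab
  rw [Set.mem_singleton_iff] at hx1 hy1
  have hsc : ∀ c : K, star c * c = c ^ (q + 1) := fun c => by rw [hs, pow_succ]
  have hfix : ∀ e : K, star e = e → e ≠ 0 → ∃ a : K, a ≠ 0 ∧ star a * a * e = 1 := by
    intro e he he0
    obtain ⟨a, ha⟩ := exists_norm hK (inv_ne_zero he0) (by rw [← hs, star_inv₀, he])
    refine ⟨a, ?_, ?_⟩
    · rintro rfl
      rw [zero_pow (Nat.succ_ne_zero q)] at ha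
      exact inv_ne_zero he0 ha.symm
    · rw [hsc, ha, inv_mul_cancel₀ he0]
  have hln : ∀ v : ι → K, hf v v ≠ 0 → IsLn ({1} : Set K) (pr v) := by
    intro v hv
    obtain ⟨a, ha, ha'⟩ := hfix _ (hf_self_star v) hv
    exact isLn_pr hv (by rw [Set.mem_singleton_iff]; exact ha') ha
  have h := card_pairs (T := ({1} : Set K)) hx hy hxy (hln x hx) (hln y hy)
    (Finset.univ.filter (fun c : K => ¬ c ^ (q + 1) = -1)) (by
      intro c hc
      have hc := (Finset.mem_filter.1 hc).2
      have he : hf x x + star c * c * hf y y ≠ 0 := by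
        rw [hx1, hy1, hsc, mul_one]
        intro h
        exact hc (eq_neg_of_add_eq_zero_right h)
      have hp := pair_facts hxy c
      refine ⟨he, hln _ (by rw [hp.1]; exact he), hln _ ?_⟩
      rw [hp.2.1]
      exact mul_ne_zero (mul_ne_zero hx hy) he)
  refine le_trans ?_ h
  have h1 := card_norm_le q (-1 : K)
  have h2 := Finset.card_filter_add_card_filter_not (s := (Finset.univ : Finset K))
    (fun c : K => c ^ (q + 1) = -1)
  rw [Finset.card_univ, hK] at h2
  nlinarith

/-- unit vectors in nondegenerate lines -/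
theorem isLn_one_pr {q : ℕ} (hK : Fintype.card K = q ^ 2) (hs : ∀ x : K, star x = x ^ q)
    {v : ι → K} (hv : hf v v ≠ 0) : IsLn ({1} : Set K) (pr v) := by
  have hsc : ∀ c : K, star c * c = c ^ (q + 1) := fun c => by rw [hs, pow_succ]
  obtain ⟨a, ha⟩ := exists_norm hK (inv_ne_zero hv) (by rw [← hs, star_inv₀, hf_self_star])
  refine isLn_pr hv (a := a) ?_ ?_
  · rw [hsc, ha, inv_mul_cancel₀ hv, Set.mem_singleton_iff]
  · rintro rfl
    rw [zero_pow (Nat.succ_ne_zero q)] at ha
    exact inv_ne_zero hv ha.symm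

theorem good_herm {q : ℕ} (hK : Fintype.card K = q ^ 2) (hs : ∀ x : K, star x = x ^ q)
    (hq : 3 ≤ q) : Good (Fintype.card ι) (Fr ({1} : Set K) ι) :=
  good_of_six (six_herm hK hs hq)

omit [Fintype K] [DecidableEq K] in
theorem hf_single (i j : ι) :
    hf (Pi.single i (1 : K)) (Pi.single j 1) = if i = j then 1 else 0 := by
  rw [hf, dotProduct_single, mul_one, Pi.star_apply]
  by_cases h : i = j
  · subst h; simp
  · rw [if_neg h, Pi.single_eq_of_ne (Ne.symm h), star_zero]

/-- the standard frame -/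
theorem Fr_nonempty {T : Set K} (h1 : (1 : K) ∈ T) : (Fr T ι).Nonempty := by
  have hl : ∀ i : ι, IsLn T (pr (Pi.single i (1 : K))) := fun i =>
    ⟨_, by rw [hf_single, if_pos rfl]; exact h1, by rw [hf_single, if_pos rfl]; exact one_ne_zero,
      rfl⟩
  refine ⟨(Finset.univ : Finset ι).toList.map fun i => ⟨_, hl i⟩, mem_Fr.2 ⟨?_, ?_⟩⟩
  · unfold OW
    rw [List.pairwise_map]
    refine (Finset.nodup_toList (Finset.univ : Finset ι)).imp ?_
    intro i j hij
    have h2 : hf (Pi.single i (1 : K)) (Pi.single i 1) ≠ 0 := by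
      rw [hf_single, if_pos rfl]; exact one_ne_zero
    have h3 : hf (Pi.single j (1 : K)) (Pi.single j 1) ≠ 0 := by
      rw [hf_single, if_pos rfl]; exact one_ne_zero
    exact (pr_mul_eq_zero h2 h3).2 (by rw [hf_single, if_neg hij])
  · rw [List.length_map, Finset.length_toList, Finset.card_univ]

end Vale.Agent.P240.R2.H387
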