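import Vale.Agent.P240.R2.H986.X.Stm
import Vale.Agent.P240.R2.H195.RigB
import Vale.Agent.P240.R2.H775.RG2

/-!
Rigidity of the BN-pairs of the groups given by Chevalley's relations (`StmtX5` from `StmtX3`).
-/

set_option autoImplicit false
set_option linter.all false

namespace Vale.Agent.P240.R2.H387.X5

open Subgroup Vale.Agent.P240.H195 Vale.Agent.P240.R2.H986.X
open Vale.Agent.P240.R2.H775.RG (lin_fix)

universe u

section
variable {ι : Type*} {F : Type*} [Field F] {L : Type*} [Group L] {C : RC ι} {x : ι → F → L}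

lemma x_zero (h : CS C x) (i : ι) : x i 0 = 1 := by
  have h1 := h.add i 0 0
  rw [add_zero] at h1
  have h2 : x i 0 * x i 0 = x i 0 * 1 := by rw [← h1, mul_one]
  exact mul_left_cancel h2

lemma x_neg (h : CS C x) (i : ι) (t : F) : x i (-t) = (x i t)⁻¹ := by
  rw [eq_inv_iff_mul_eq_one, ← h.add, neg_add_cancel, x_zero h]

lemma x_inj (h : CS C x) (i : ι) : Function.Injective (x i) := by
  intro a b hab
  have h1 : x i (a - b) = 1 := by
    rw [sub_eq_add_neg, h.add, x_neg h, hab, mul_inv_cancel]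
  exact sub_eq_zero.1 (h.inj i _ h1)

lemma pa (w : Equiv.Perm ι) (j : ι) : w (w⁻¹ j) = j := w.apply_symm_apply j

lemma pb (w : Equiv.Perm ι) (j : ι) : w⁻¹ (w j) = j := w.symm_apply_apply j

/-- `n` permutes the root groups by `w` -/
structure Act (C : RC ι) (x : ι → F → L) (n : L) (w : Equiv.Perm ι) : Prop where
  act : ∀ j, ∃ c : F, c ≠ 0 ∧ ∀ u, n * x j u * n⁻¹ = x (w j) (c * u)
  neg : ∀ j, w (C.neg j) = C.neg (w j)
  s : ∀ i j, w (C.s i j) = C.s (w i) (w j)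

lemma Act.one : Act C x (1 : L) 1 where
  act j := ⟨1, one_ne_zero, fun u => by simp⟩
  neg j := rfl
  s i j := rfl

lemma Act.mul {n m : L} {v w : Equiv.Perm ι} (h1 : Act C x n v) (h2 : Act C x m w) :
    Act C x (n * m) (v * w) where
  act j := by
    obtain ⟨c, hc, hcu⟩ := h2.act j
    obtain ⟨d, hd, hdu⟩ := h1.act (w j)
    refine ⟨d * c, mul_ne_zero hd hc, fun u => ?_⟩
    have e : n * m * x j u * (n * m)⁻¹ = n * (m * x j u * m⁻¹) * n⁻¹ := by group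
    rw [e, hcu, hdu, mul_assoc, Equiv.Perm.mul_apply]
  neg j := by rw [Equiv.Perm.mul_apply, Equiv.Perm.mul_apply, h2.neg, h1.neg]
  s i j := by simp only [Equiv.Perm.mul_apply, h2.s, h1.s]

lemma Act.inv {n : L} {w : Equiv.Perm ι} (h : Act C x n w) : Act C x n⁻¹ w⁻¹ where
  act j := by
    obtain ⟨c, hc, hcu⟩ := h.act (w⁻¹ j)
    refine ⟨c⁻¹, inv_ne_zero hc, fun u => ?_⟩
    have e := hcu (c⁻¹ * u)
    rw [mul_inv_cancel_left₀ hc, pa] at e
    rw [← e]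
    group
  neg j := by
    apply w.injective
    rw [pa, h.neg, pa]
  s i j := by
    apply w.injective
    rw [pa, h.s, pa, pa]

/-- the reflection `s i` as a permutation -/
def sp (C : RC ι) (i : ι) : Equiv.Perm ι where
  toFun := C.s i
  invFun := C.s i
  left_inv := C.s_s i
  right_inv := C.s_s i

lemma sp_apply (i j : ι) : sp C i j = C.s i j := rfl

lemma sp_inv_apply (i j : ι) : (sp C i)⁻¹ j = C.s i j := rfl

lemma nn_act (h : CS C x) (i : ι) {t : F} (ht : t ≠ 0) : Act C x (nn C.neg x i t) (sp C i) where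
  act j := by
    obtain ⟨c, hc, hcu⟩ := h.refl i j
    refine ⟨c * t ^ (-C.pr j i), mul_ne_zero (left_ne_zero_of_mul_eq_one hc)
      (zpow_ne_zero _ ht), fun u => ?_⟩
    exact (hcu t u ht).1
  neg j := C.s_neg i j
  s a b := by
    rw [sp_apply, sp_apply, sp_apply, C.s_conj, C.s_s]

/-- the subgroup of elements that permute the root groups -/
def AN (C : RC ι) (x : ι → F → L) : Subgroup L where
  carrier := {n | ∃ w, Act C x n w}
  mul_mem' := fun ⟨v, hv⟩ ⟨w, hw⟩ => ⟨_, hv.mul hw⟩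
  one_mem' := ⟨1, Act.one⟩
  inv_mem' := fun ⟨w, hw⟩ => ⟨_, hw.inv⟩

lemma NN_act (h : CS C x) {n : L} (hn : n ∈ NN C x) : ∃ w, Act C x n w := by
  have h1 : NN C x ≤ AN C x := by
    refine sup_le ((closure_le _).2 ?_) ((closure_le _).2 ?_)
    · rintro g ⟨i, hi, rfl⟩
      exact ⟨_, nn_act h i one_ne_zero⟩
    · rintro g ⟨i, t, ht, rfl⟩
      exact ⟨_, (nn_act h i ht).mul (nn_act h i one_ne_zero).inv⟩
  exact h1 hn

lemma mem_UU {i : ι} (hi : 0 < C.ht i) (t : F) : x i t ∈ UU C x := subset_closure ⟨i, t, hi, rfl⟩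

lemma pos_of_mem (h : CS C x) {j : ι} {u : F} (hu : u ≠ 0) (hm : x j u ∈ UU C x) :
    0 < C.ht j := by
  by_contra hcon
  have h1 : C.ht j < 0 := lt_of_le_of_ne (not_lt.1 hcon) (C.ht_ne j)
  have h2 : x j u ∈ UU C x ⊓ UM C x := ⟨hm, subset_closure ⟨j, u, h1, rfl⟩⟩
  rw [show UU C x ⊓ UM C x = ⊥ from h.opp, mem_bot] at h2
  exact hu (h.inj j u h2)

lemma opp_neg (h : CS C x) {n : L} {w : Equiv.Perm ι} (hw : Act C x n w)
    (hopp : ∀ y ∈ UU C x, n * y * n⁻¹ ∈ UU C x → y = 1) {j : ι} (hj : 0 < C.ht j) :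
    C.ht (w j) < 0 := by
  by_contra hcon
  have h1 : 0 < C.ht (w j) := lt_of_le_of_ne (not_lt.1 hcon) (C.ht_ne _).symm
  obtain ⟨c, hc, hcu⟩ := hw.act j
  have h2 := hopp (x j 1) (mem_UU hj 1) (by rw [hcu]; exact mem_UU h1 _)
  exact one_ne_zero (h.inj j 1 h2)

lemma opp_pos (h : CS C x) {n : L} {w : Equiv.Perm ι} (hw : Act C x n w)
    (hopp : ∀ y ∈ UU C x, n * y * n⁻¹ ∈ UU C x → y = 1) {i : ι} (hi : 0 < C.ht i) :
    0 < C.ht (w⁻¹ (C.neg i)) := by
  by_contra hcon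
  have h1 : C.ht (w⁻¹ (C.neg i)) < 0 := lt_of_le_of_ne (not_lt.1 hcon) (C.ht_ne _)
  have h2 : 0 < C.ht (C.neg (w⁻¹ (C.neg i))) := by rw [C.ht_neg]; omega
  have h3 := opp_neg h hw hopp h2
  rw [hw.neg, pa, C.neg_neg] at h3
  omega

/-- the subgroup generated by the positive root groups other than `i` -/
abbrev UI (C : RC ι) (x : ι → F → L) (i : ι) : Subgroup L := gr x (fun j => 0 < C.ht j ∧ j ≠ i)

lemma gr_mono {p q : ι → Prop} (hpq : ∀ i, p i → q i) : gr x p ≤ gr x q :=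
  closure_mono (by rintro g ⟨i, t, hi, rfl⟩; exact ⟨i, t, hpq i hi, rfl⟩)

lemma UI_le {i : ι} : UI C x i ≤ UU C x := gr_mono fun _ h => h.1

lemma xi_norm (h : CS C x) {i : ι} (hi : C.simp i) (t : F) {y : L} (hy : y ∈ UI C x i) :
    x i t * y * (x i t)⁻¹ ∈ UI C x i := by
  refine closure_induction (p := fun y _ => x i t * y * (x i t)⁻¹ ∈ UI C x i) ?_ ?_ ?_ ?_ hy
  · rintro y ⟨j, u, ⟨hj, hji⟩, rfl⟩
    have hip := C.simp_pos i hi
    have h1 := h.comm i j hji.symm (by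
      intro h0
      have h1 := C.ht_neg j
      rw [← h0] at h1
      omega) t u
    have h2 : gr x (C.cone i j) ≤ UI C x i := gr_mono fun k hk =>
      ⟨hip.trans (C.cone_ht i j k hk hip hj).1, C.cone_simp i j k hi hj hji hk⟩
    have e : x i t * x j u * (x i t)⁻¹ = (x i t * x j u * (x i t)⁻¹ * (x j u)⁻¹) * x j u := by
      group
    rw [e]
    exact mul_mem (h2 h1) (subset_closure ⟨j, u, ⟨hj, hji⟩, rfl⟩)
  · rw [mul_one, mul_inv_cancel]
    exact one_mem _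
  · intro a b _ _ ha hb
    have e : x i t * (a * b) * (x i t)⁻¹ =
        (x i t * a * (x i t)⁻¹) * (x i t * b * (x i t)⁻¹) := by group
    rw [e]
    exact mul_mem ha hb
  · intro a _ ha
    have e : x i t * a⁻¹ * (x i t)⁻¹ = (x i t * a * (x i t)⁻¹)⁻¹ := by group
    rw [e]
    exact inv_mem ha

lemma gr_conj {n : L} {w : Equiv.Perm ι} (hw : Act C x n w) {p q : ι → Prop}
    (hpq : ∀ j, p j → q (w j)) {y : L} (hy : y ∈ gr x p) : n * y * n⁻¹ ∈ gr x q := by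
  refine closure_induction (p := fun y _ => n * y * n⁻¹ ∈ gr x q) ?_ ?_ ?_ ?_ hy
  · rintro y ⟨j, u, hj, rfl⟩
    obtain ⟨c, hc, hcu⟩ := hw.act j
    rw [hcu]
    exact subset_closure ⟨_, _, hpq j hj, rfl⟩
  · rw [mul_one, mul_inv_cancel]
    exact one_mem _
  · intro a b _ _ ha hb
    have e : n * (a * b) * n⁻¹ = (n * a * n⁻¹) * (n * b * n⁻¹) := by group
    rw [e]
    exact mul_mem ha hb
  · intro a _ ha
    have e : n * a⁻¹ * n⁻¹ = (n * a * n⁻¹)⁻¹ := by group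
    rw [e]
    exact inv_mem ha

/-- `U = X_i U_i` -/
lemma UU_form (h : CS C x) {i : ι} (hi : C.simp i) {y : L} (hy : y ∈ UU C x) :
    ∃ t, ∃ v ∈ UI C x i, y = x i t * v := by
  refine closure_induction (p := fun y _ => ∃ t, ∃ v ∈ UI C x i, y = x i t * v) ?_ ?_ ?_ ?_ hy
  · rintro y ⟨j, u, hj, rfl⟩
    by_cases hji : j = i
    · subst hji
      exact ⟨u, 1, one_mem _, by rw [mul_one]⟩
    · exact ⟨0, x j u, subset_closure ⟨j, u, ⟨hj, hji⟩, rfl⟩, by rw [x_zero h, one_mul]⟩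
  · exact ⟨0, 1, one_mem _, by rw [x_zero h, one_mul]⟩
  · rintro a b _ _ ⟨t, v, hv, rfl⟩ ⟨t', v', hv', rfl⟩
    have h1 := xi_norm h hi (-t') hv
    rw [x_neg h, inv_inv] at h1
    refine ⟨t + t', _, mul_mem h1 hv', ?_⟩
    rw [h.add]
    group
  · rintro a _ ⟨t, v, hv, rfl⟩
    refine ⟨-t, _, xi_norm h hi t (inv_mem hv), ?_⟩
    rw [x_neg h]
    group

/-- the simple reflection normalizes `U_i` -/
lemma s_UI (h : CS C x) {i : ι} (hi : C.simp i) {y : L} (hy : y ∈ UI C x i) :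
    (nn C.neg x i 1)⁻¹ * y * nn C.neg x i 1 ∈ UI C x i := by
  have h1 := gr_conj (nn_act h i (one_ne_zero (α := F))).inv
    (p := fun j => 0 < C.ht j ∧ j ≠ i) (q := fun j => 0 < C.ht j ∧ j ≠ i) ?_ hy
  · rwa [inv_inv] at h1
  · rintro j ⟨hj, hji⟩
    rw [sp_inv_apply]
    refine ⟨C.s_pos i j hi hj hji, fun h2 => ?_⟩
    have h3 := C.s_s i j
    rw [h2, C.s_self] at h3
    have h4 := C.ht_neg i
    have h5 := C.simp_pos i hi
    rw [h3] at h4
    omega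

lemma TT_le_B : TT C x ≤ BB C x := le_sup_right

lemma TT_le_N : TT C x ≤ NN C x := le_sup_right

lemma hh_mem (i : ι) {t : F} (ht : t ≠ 0) :
    nn C.neg x i t * (nn C.neg x i 1)⁻¹ ∈ TT C x := subset_closure ⟨i, t, ht, rfl⟩

variable {r : ℕ}

section
variable [Finite L]

omit [Field F] in
lemma eq_one_of_B {B N U : Subgroup L} {S : Set L} (h : SB r B N U S) (hr : r.Prime) {n y : L}
    (hopp : ∀ x ∈ U, n * x * n⁻¹ ∈ U → x = 1) (hy : y ∈ B) (hn : n⁻¹ * y * n ∈ U) : y = 1 := by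
  have e : n * (n⁻¹ * y * n) * n⁻¹ = y := by group
  have h1 := h.conj_U hr hn (by rw [e]; exact hy)
  have h2 := hopp _ hn h1
  rw [h2, mul_one, mul_inv_cancel] at e
  exact e.symm

/-- the opposite root group is contained in the parabolic subgroup -/
lemma X_par (h : CS C x) (i : ι) (hip : 0 < C.ht i) (c : F) :
    x (C.neg i) c ∈ Par (BB C x) (nn C.neg x i 1) := by
  obtain ⟨c0, hc0, hcu⟩ := (nn_act h i (one_ne_zero (α := F))).act i
  have h1 := hcu (c0⁻¹ * c)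
  rw [mul_inv_cancel_left₀ hc0, sp_apply, C.s_self] at h1
  rw [← h1]
  exact mul_mem (mul_mem self_mem_Par (le_Par (le_sup_left (a := UU C x) (mem_UU hip _))))
    (inv_mem self_mem_Par)

lemma X_opp (h : CS C x) {n : L} (hn : n ∈ NN C x)
    (hopp : ∀ y ∈ UU C x, n * y * n⁻¹ ∈ UU C x → y = 1) {i : ι} (hip : 0 < C.ht i) (c : F) :
    n⁻¹ * x (C.neg i) c * n ∈ UU C x := by
  obtain ⟨w, hw⟩ := NN_act h hn
  obtain ⟨d, hd, hdu⟩ := hw.inv.act (C.neg i)
  have h1 := hdu c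
  rw [inv_inv] at h1
  rw [h1]
  exact mem_UU (opp_pos h hw hopp hip) _

/-- the elements of `n U n⁻¹ ∩ P_s` -/
lemma X_form (h : CS C x) (hB : SB r (BB C x) (NN C x) (UU C x) (SS C x)) (hr : r.Prime)
    {n : L} (hn : n ∈ NN C x) (hopp : ∀ y ∈ UU C x, n * y * n⁻¹ ∈ UU C x → y = 1)
    {i : ι} (hi : C.simp i) {y : L} (hyP : y ∈ Par (BB C x) (nn C.neg x i 1))
    (hyU : n⁻¹ * y * n ∈ UU C x) : ∃ c, y = x (C.neg i) c := by
  have hip := C.simp_pos i hi
  have hs : nn C.neg x i 1 ∈ SS C x := ⟨i, hi, rfl⟩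
  have hsN := hB.sub _ hs
  by_cases hyB : y ∈ BB C x
  · exact ⟨0, by rw [x_zero h, eq_one_of_B hB hr hopp hyB hyU]⟩
  obtain ⟨u, hu, b, hb, hy⟩ := hB.coset_form hs hyP hyB
  obtain ⟨a, v, hv, rfl⟩ := UU_form h hi hu
  set s := nn C.neg x i 1 with hsd
  have hv' := s_UI h hi hv
  rw [← hsd] at hv'
  have hb' : (s⁻¹ * v * s) * b ∈ BB C x :=
    mul_mem (le_sup_left (a := UU C x) (UI_le hv')) hb
  have hy' : y = x i a * s * ((s⁻¹ * v * s) * b) := by rw [hy]; group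
  by_cases ha : a = 0
  · exfalso
    rw [ha, x_zero h, one_mul] at hy'
    have h1 : DC (BB C x) n⁻¹ (n⁻¹ * s) := by
      refine ⟨n⁻¹ * y * n, hB.le hyU, ((s⁻¹ * v * s) * b)⁻¹, inv_mem hb', ?_⟩
      rw [hy']
      group
    have h2 := hB.inj (inv_mem hn) (mul_mem (inv_mem hn) hsN) h1
    have e : n⁻¹⁻¹ * (n⁻¹ * s) = s := by group
    rw [e] at h2
    exact hB.not_mem hs h2
  · have ha' : -a ≠ 0 := neg_ne_zero.2 ha
    have h1 := hB.norm' hsN (TT_le_B (hh_mem (C := C) (x := x) i ha'))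
      (TT_le_N (hh_mem (C := C) (x := x) i ha'))
    rw [← hsd] at h1
    have h2 : x (C.neg i) a⁻¹ = x i a * nn C.neg x i (-a) * x i a := by
      rw [nn, x_neg h, inv_neg, neg_neg]
      group
    have h3 : x (C.neg i) a⁻¹ =
        x i a * s * ((s⁻¹ * (nn C.neg x i (-a) * s⁻¹) * s) * x i a) := by
      rw [h2]
      group
    have h4 : (s⁻¹ * (nn C.neg x i (-a) * s⁻¹) * s) * x i a ∈ BB C x :=
      mul_mem h1 (le_sup_left (a := UU C x) (mem_UU hip _))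
    have h5 : (x (C.neg i) a⁻¹)⁻¹ * y ∈ BB C x := by
      rw [h3, hy']
      have e : (x i a * s * ((s⁻¹ * (nn C.neg x i (-a) * s⁻¹) * s) * x i a))⁻¹ *
          (x i a * s * ((s⁻¹ * v * s) * b)) =
          ((s⁻¹ * (nn C.neg x i (-a) * s⁻¹) * s) * x i a)⁻¹ * ((s⁻¹ * v * s) * b) := by
        group
      rw [e]
      exact mul_mem (inv_mem h4) hb'
    have h6 : n⁻¹ * ((x (C.neg i) a⁻¹)⁻¹ * y) * n ∈ UU C x := by
      have e : n⁻¹ * ((x (C.neg i) a⁻¹)⁻¹ * y) * n =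
          (n⁻¹ * x (C.neg i) a⁻¹ * n)⁻¹ * (n⁻¹ * y * n) := by group
      rw [e]
      exact mul_mem (inv_mem (X_opp h hn hopp hip _)) hyU
    have h7 := eq_one_of_B hB hr hopp h5 h6
    exact ⟨a⁻¹, (inv_mul_eq_one.1 h7).symm⟩

end

/-- the torus acts by squares -/
lemma T_sq (h : CS C x) (i : ι) {a : F} (ha : a ≠ 0) : ∃ t ∈ TT C x,
    ∀ c, t * x (C.neg i) c * t⁻¹ = x (C.neg i) (a ^ 2 * c) := by
  obtain ⟨c0, hc0, hcu⟩ := h.refl i i
  have ha' : a⁻¹ ≠ 0 := inv_ne_zero ha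
  refine ⟨_, hh_mem i ha', fun c => ?_⟩
  have h1 := (hcu 1 (c0 * c) one_ne_zero).1
  rw [one_zpow, mul_one, ← mul_assoc, hc0, one_mul, C.s_self] at h1
  have h2 := (hcu a⁻¹ (c0 * c) ha').1
  rw [C.pr_self, C.s_self] at h2
  rw [← h1]
  have e : nn C.neg x i a⁻¹ * (nn C.neg x i 1)⁻¹ *
      (nn C.neg x i 1 * x i (c0 * c) * (nn C.neg x i 1)⁻¹) *
      (nn C.neg x i a⁻¹ * (nn C.neg x i 1)⁻¹)⁻¹ =
      nn C.neg x i a⁻¹ * x i (c0 * c) * (nn C.neg x i a⁻¹)⁻¹ := by group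
  rw [e, h2]
  congr 1
  have e2 : (a⁻¹ : F) ^ (-2 : ℤ) = a ^ 2 := by
    rw [inv_zpow, zpow_neg, inv_inv]
    exact zpow_ofNat a 2
  rw [e2]
  calc c0 * a ^ 2 * (c0 * c) = (c0 * c0) * (a ^ 2 * c) := by ring
    _ = a ^ 2 * c := by rw [hc0, one_mul]

/-- elements of `B` preserve the positive roots -/
lemma act_pos (h : CS C x) (hB : SB r (BB C x) (NN C x) (UU C x) (SS C x)) {g : L}
    (hg : g ∈ BB C x) {w : Equiv.Perm ι} (hw : Act C x g w) {j : ι} (hj : 0 < C.ht j) :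
    0 < C.ht (w j) := by
  obtain ⟨c, hc, hcu⟩ := hw.act j
  have h1 := hB.normal g hg _ (mem_UU (x := x) hj 1)
  rw [hcu, mul_one] at h1
  exact pos_of_mem h hc h1

/-- `B ∩ N` acts trivially on the roots -/
lemma act_one (h : CS C x) (hB : SB r (BB C x) (NN C x) (UU C x) (SS C x)) {t : L}
    (htB : t ∈ BB C x) (htN : t ∈ NN C x) {w : Equiv.Perm ι} (hw : Act C x t w) : ∀ j, w j = j := by
  have key : ∀ i, C.simp i → w i = i := by
    intro i hi
    by_contra hne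
    have hs : nn C.neg x i 1 ∈ SS C x := ⟨i, hi, rfl⟩
    have hsa := nn_act h i (one_ne_zero (α := F))
    have hip := C.simp_pos i hi
    have h1 := act_pos h hB htB hw hip
    have h2 := C.s_pos i (w i) hi h1 hne
    have h3 := mul_mem htB (hB.norm _ (hB.sub _ hs) t⁻¹ (inv_mem htB) (inv_mem htN))
    have h4 := act_pos h hB h3 (hw.mul ((hsa.mul hw.inv).mul hsa.inv)) h2
    rw [Equiv.Perm.mul_apply, Equiv.Perm.mul_apply, Equiv.Perm.mul_apply, sp_inv_apply, C.s_s,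
      pb, sp_apply, C.s_self, hw.neg, C.ht_neg] at h4
    omega
  exact C.gen _ key fun i j hi hj => by rw [hw.s, key i hi, hj]

/-- `B ∩ N` is abelian -/
lemma T_comm (h : CS C x) (hB : SB r (BB C x) (NN C x) (UU C x) (SS C x))
    (hc : ∀ g : L, (∀ y, g * y = y * g) → g = 1) :
    ∀ a ∈ BB C x, a ∈ NN C x → ∀ b ∈ BB C x, b ∈ NN C x → a * b = b * a := by
  intro a haB haN b hbB hbN
  obtain ⟨v, hv⟩ := NN_act h haN
  obtain ⟨w, hw⟩ := NN_act h hbN
  have hv1 := act_one h hB haB haN hv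
  have hw1 := act_one h hB hbB hbN hw
  have h1 : ∀ j u, (a * b) * x j u * (a * b)⁻¹ = (b * a) * x j u * (b * a)⁻¹ := by
    intro j u
    obtain ⟨c, -, hcu⟩ := hv.act j
    obtain ⟨d, -, hdu⟩ := hw.act j
    rw [hv1] at hcu
    rw [hw1] at hdu
    have e1 : (a * b) * x j u * (a * b)⁻¹ = a * (b * x j u * b⁻¹) * a⁻¹ := by group
    have e2 : (b * a) * x j u * (b * a)⁻¹ = b * (a * x j u * a⁻¹) * b⁻¹ := by group
    rw [e1, e2, hcu, hdu, hcu, hdu, ← mul_assoc, ← mul_assoc, mul_comm c d]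
  have h2 : gr x (fun _ => True) ≤ centralizer {(b * a)⁻¹ * (a * b)} := by
    refine (closure_le _).2 ?_
    rintro g ⟨j, u, -, rfl⟩
    rw [SetLike.mem_coe, mem_centralizer_singleton_iff]
    have h3 := h1 j u
    have e3 : (b * a)⁻¹ * ((a * b) * x j u * (a * b)⁻¹) * (a * b) =
      (b * a)⁻¹ * ((b * a) * x j u * (b * a)⁻¹) * (a * b) := by rw [h3]
    have e4 : (b * a)⁻¹ * ((a * b) * x j u * (a * b)⁻¹) * (a * b) =
      (b * a)⁻¹ * (a * b) * x j u := by group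
    have e5 : (b * a)⁻¹ * ((b * a) * x j u * (b * a)⁻¹) * (a * b) =
      x j u * ((b * a)⁻¹ * (a * b)) := by group
    rw [← e5, ← e3, e4]
  have h3 := hc ((b * a)⁻¹ * (a * b)) fun y => by
    have h4 : y ∈ centralizer {(b * a)⁻¹ * (a * b)} := h2 (by rw [h.gen]; exact mem_top y)
    rw [mem_centralizer_singleton_iff] at h4
    exact h4.symm
  exact (inv_mul_eq_one.1 h3).symm

theorem rigidBN [Finite F] [Finite L] [hr : Fact r.Prime] [CharP F r] (h : CS C x)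
    (hB : SB r (BB C x) (NN C x) (UU C x) (SS C x)) (hs : IsSimpleGroup L)
    (hc : ∀ g : L, (∀ y, g * y = y * g) → g = 1) :
    RigidBN r (BB C x) (NN C x) (UU C x) (SS C x) := by
  refine hB.rigid_of_roots hs hr.out (T_comm h hB hc) ?_
  rintro n hn hopp f hf hT s ⟨i, hi, rfl⟩ hpres y hyP hyU
  have hip := C.simp_pos i hi
  obtain ⟨c, rfl⟩ := X_form h hB hr.out hn hopp hi hyP hyU
  refine lin_fix (x (C.neg i)) (x_inj h _) (h.add _) hf ?_ ?_ c
  · intro d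
    have h1 := hpres _ (X_par h i hip d) (X_opp h hn hopp hip d)
    exact X_form h hB hr.out hn hopp hi h1.1 h1.2
  · intro a ha
    obtain ⟨t, ht, htc⟩ := T_sq h i ha
    exact ⟨t, hT t (TT_le_B ht) (TT_le_N ht), htc⟩

end

/-- **X5** from **X3**. -/
theorem stmtX5_of (h3 : StmtX3.{u}) : StmtX5.{u} := by
  intro ι _ F _ _ L _ _ r _ _ C x h hs hc
  exact ⟨hs, hc, _, _, _, _, rigidBN h (h3 ι F L r C x h hs hc).toSB hs hc⟩

end Vale.Agent.P240.R2.H387.X5
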