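import Vale.Agent.P240.R2.H684.X3
import Vale.Agent.P240.R2.H387.X5

/-!
`StmtX5`: groups given by Chevalley's relations have rigid split BN-pairs.
-/

set_option autoImplicit false

namespace Vale.Agent.P240.R2.H387.X5

open Vale.Agent.P240.R2.H986.X

universe u

/-- **X5** -/
theorem stmtX5 : StmtX5.{u} := stmtX5_of Vale.Agent.P240.R2.H684.XB.stmtX3

end Vale.Agent.P240.R2.H387.X5
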