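import Vale.Agent.P240.R2.H387.E7d
import Vale.Agent.P240.R2.H986.E7TF

/-! `TopFac` for `PSU_n(q)`, `n ≥ 6` even (or `n = 4`, `8 ∣ q + 1`), all odd `q ≥ 7`, `p = 2`. -/

set_option autoImplicit false

namespace Vale.Agent.P240.R2.H387E7

open Vale.Agent.P240.R2
open Vale.Agent.P240.R2.H487 (LocTopF TopFac)

universe u v w

theorem topFac_PSU_even (𝕜 : Type v) [Field 𝕜] {L : Type u} [Group L] (h : H986.PSUFacE7 L) :
    TopFac 𝕜 2 L := h.topFac_of stmtE7 stmtE9 𝕜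

theorem locTopF_PSU_even {K : Type} [Field K] [Fintype K] [StarRing K] {n q : ℕ}
    {G : Type v} [Group G] [Finite G] (𝕜 : Type w) [Field 𝕜] (hn : Even n)
    (hn4 : 6 ≤ n ∨ (n = 4 ∧ 8 ∣ q + 1)) (hqo : Odd q) (hq : 7 ≤ q) (hK : Nat.card K = q ^ 2)
    (hs : ∀ x : K, star x = x ^ q) {L : Subgroup G} (e : L ≃* AS.PSU K n) : LocTopF 𝕜 2 L :=
  H986.E.locTopF_PSU_even7 (evCnt ⟨hqo, hK, hs⟩ hq) 𝕜 hn hn4 hqo hq hK hs e

end Vale.Agent.P240.R2.H387E7
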