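import Vale.Agent.P240.R2.H387.TBig
import Vale.Agent.P240.R2.H296.StmtsB

/-! `StmtB1`: Theorem 1 for the symmetric form (P240, AS, `p = 2`). -/

set_option autoImplicit false

namespace Vale.Agent.P240.R2.H387

universe u

theorem stmtB1 : AS.StmtB1.{u} := by
  intro K _ _ _ hs hodd hq n hn
  refine t_big_triv hs ?_ hq hn
  intro h2
  have h3 : ringChar K = 2 := CharP.ringChar_of_prime_eq_zero Nat.prime_two (by exact_mod_cast h2)
  have h4 : CharP K 2 := ringChar.of_eq h3
  have h5 : 2 ∣ Nat.card K := by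
    rw [Nat.card_eq_fintype_card]
    obtain ⟨n, hp, hc⟩ := FiniteField.card K 2
    rw [hc]
    exact dvd_pow_self 2 n.ne_zero
  exact (Nat.not_even_iff_odd.2 hodd) (even_iff_two_dvd.2 h5)

end Vale.Agent.P240.R2.H387
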