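import Vale.Agent.P240.R2.H387.Scnt
import Vale.Agent.P240.R2.H986.P2F

/-!
`StmtB7` and `StmtB8` (`p = 2`, `n` odd) for `q ≥ 7`: frames of star-fixed lines of both types.
-/

set_option autoImplicit false
set_option linter.unusedSectionVars false

namespace Vale.Agent.P240.R2.H387B8

open Finset Matrix Vale.Agent.P240 Vale.Agent.P240.K Vale.Agent.P240.R2.AS Vale.Agent.P240.R2.H687
open Vale.Agent.P240.R2.H986.St Vale.Agent.P240.R2.H164 Vale.Agent.P240.R2.H945
open Vale.Agent.P240.R2.H275 (QuillenDim quillenDim_sub Tp_map quillenDim_of_rat)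
open Vale.Agent.P240.R2.H63.As
open Vale.Agent.P240.R2.H387 (Fs mem_Fs Fs_subset good_Fs_herm card_Fr0_le t_Fs_herm num_seven)
open Vale.Agent.P240.R2.H986.B7 (eW_rev stmtM6 stmtB6)
open scoped Classical

universe u v w

noncomputable section

/-- B7 for `q ≥ 7` -/
def StmtB7s : Prop :=
  ∀ (K : Type u) [Field K] [Fintype K] [StarRing K] (q : ℕ), Odd q → 7 ≤ q →
    Nat.card K = q ^ 2 → (∀ x : K, star x = x ^ q) → ∀ n : ℕ, Odd n → 3 ≤ n →
    ∀ σ : SA K, (∀ y : K, σ.1 y = star y) →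
    ∀ H : Subgroup (PGamU K n), PSU' K n ≤ H → SemidirectProduct.inr σ ∈ H →
    ∃ c : List (Ap 2 H) →₀ ℚ, IsChain n c ∧ bd c = 0 ∧ c ≠ 0

/-- B8 for `q ≥ 7` -/
def StmtB8s : Prop :=
  ∀ (K : Type u) [Field K] [Fintype K] [StarRing K] (q : ℕ), Odd q → 7 ≤ q →
    Nat.card K = q ^ 2 → (∀ x : K, star x = x ^ q) → ∀ n : ℕ, Odd n → 3 ≤ n →
    ∀ E : Subgroup (PGamU K n), (∀ x ∈ E, ∀ y ∈ E, x * y = y * x) → (∀ x ∈ E, x ^ 2 = 1) →
    ∀ (𝕜 : Type v) [Field 𝕜], QuillenDim 𝕜 2 ↥(PSU' K n ⊔ E)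

section fam
variable {K : Type u} {Γ : Type w} [Field K] [StarRing K] [Fintype K] [Group Γ] {n : ℕ}

/-- the identity as a map of star fields -/
lemma idf : ∀ x : K, (RingHom.id K) (star x) = star ((RingHom.id K) x) := fun _ => rfl

/-- the words of `F₀` moved by `g` -/
def Fm (F₀ : Finset (List (Ln K n))) (g : GU K n) : Finset (List (Ln K n)) :=
  mapW (lam (RingHom.id K) idf g) (lam_injective (RingHom.id K) idf g) F₀

lemma Fm_sub {F₀ : Finset (List (Ln K n))} (h : F₀ ⊆ Fr K n) (g : GU K n) :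
    Fm F₀ g ⊆ Fr K n := by
  intro w hw
  obtain ⟨w₀, h₀, rfl⟩ := mem_mapW.1 hw
  have h₁ := h h₀
  rw [mem_Fr] at h₁ ⊢
  exact ⟨by rw [List.length_map, h₁.1], orth_map _ _ g h₁.2⟩

lemma t_Fm (F₀ : Finset (List (Ln K n))) (g : GU K n) : t (Fm F₀ g) = t F₀ := t_map _ _

/-- the common assembly with a set `F₀` of frames -/
theorem semi_chain₃ [Finite Γ] {p : ℕ} [Fact p.Prime] (hn : 2 ≤ n) (F₀ : Finset (List (Ln K n)))
    (hF₀ : F₀ ⊆ Fr K n) (hperm : ∀ w ∈ F₀, ∀ w', w.Perm w' → w' ∈ F₀)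
    (e : GU K n →* Γ) (x : Γ) (S : Subgroup (GU K n)) (ew : List (Ln K n) → Γ)
    (hC : Comb p n (Fr K n) ew)
    (hrev : ∀ u v : List (Ln K n), u ++ v ∈ Fr K n →
      Subgroup.zpowers (ew v.reverse) = Subgroup.zpowers (ew u)) (N X : Subgroup Γ)
    (hN : ∀ w, Orth w → ew w ∈ N) (hX : ∀ w, Orth w → ew w ∈ X)
    (heN : ∀ g ∈ S, e g ∈ N) (heX : ∀ g ∈ S, e g ∈ X) (hxX : x ∈ X) (hxN : x ∉ N)
    (hNx' : ∀ y ∈ N, x⁻¹ * y * x ∈ N) (hxp : x ^ p = 1)
    (hcomm : ∀ g ∈ S, ∀ u v : List (Ln K n), u ++ v ∈ F₀ →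
      ew (u.map (lam (RingHom.id K) idf g)) * (e g * x * (e g)⁻¹) =
        (e g * x * (e g)⁻¹) * ew (u.map (lam (RingHom.id K) idf g)))
    (hcount : (Fr K n).card < 2 * (Nat.card (conjs e S x) * t F₀)) :
    ∃ c : List (Ap p X) →₀ ℚ, IsChain n c ∧ bd c = 0 ∧ c ≠ 0 := by
  classical
  set Y : Finset Γ := (conjs_finite e S x).toFinset with hY
  have h1 : ∀ y, y ∈ Y ↔ y ∈ conjs e S x := fun y => Set.Finite.mem_toFinset _
  have hr : ∀ y : Γ, ∃ g : GU K n, y ∈ Y → g ∈ S ∧ e g * x * (e g)⁻¹ = y := by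
    intro y
    by_cases h : y ∈ Y
    · obtain ⟨g, hg', hg⟩ := (h1 y).1 h
      exact ⟨g, fun _ => ⟨hg', hg⟩⟩
    · exact ⟨1, fun h' => absurd h' h⟩
  choose r hr using hr
  set Fy : Γ → Finset (List (Ln K n)) := fun y => Fm F₀ (r y) with hFy
  have h2 : ∀ y ∈ Y, ∀ u v, u ++ v ∈ Fy y → ew u * y = y * ew u := by
    intro y hy u v huv
    obtain ⟨w₀, h₀, e₀⟩ := mem_mapW.1 huv
    obtain ⟨u₀, v₀, rfl, rfl, rfl⟩ := List.map_eq_append_iff.1 e₀
    have h := hcomm (r y) (hr y hy).1 u₀ v₀ h₀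
    rwa [(hr y hy).2] at h
  have h3 : ∑ y ∈ Y, t (Fy y) = Nat.card (conjs e S x) * t F₀ := by
    simp only [hFy, t_Fm]
    rw [Finset.sum_const, smul_eq_mul]
    have hc : Nat.card (conjs e S x) = Y.card := by
      rw [hY, Nat.card_coe_set_eq, Set.ncard_eq_toFinset_card _ (conjs_finite e S x)]
    rw [hc]
  have hpre : ∀ u v : List (Ln K n), u ++ v ∈ Fr K n → Orth u := by
    intro u v h
    exact (List.pairwise_append.1 ((mem_Fr K).1 h).2).1
  have hYX : ∀ y ∈ Y, y ∈ X := by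
    intro y hy
    obtain ⟨g, hg, rfl⟩ := (h1 y).1 hy
    exact X.mul_mem (X.mul_mem (heX g hg) hxX) (X.inv_mem (heX g hg))
  have hd : SemiData p (Fr K n) ew (N ⊓ X) X Y Fy := by
    refine ⟨fun u v h => ⟨hN u (hpre u v h), hX u (hpre u v h)⟩, inf_le_right, ?_, hYX, ?_, ?_,
      fun y _ => Fm_sub hF₀ _, fun y _ => mapW_perm hperm, fun y hy => h2 y hy⟩
    · intro y hy
      obtain ⟨g, hg, rfl⟩ := (h1 y).1 hy
      rw [conj_pow, hxp, mul_one, mul_inv_cancel]
    · intro y hy h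
      obtain ⟨g, hg, rfl⟩ := (h1 y).1 hy
      apply hxN
      have := N.mul_mem (N.mul_mem (N.inv_mem (heN g hg)) h.1) (heN g hg)
      have h4 : (e g)⁻¹ * (e g * x * (e g)⁻¹) * e g = x := by group
      rwa [h4] at this
    · intro y hy y' hy'
      refine ⟨?_, X.mul_mem (X.inv_mem (hYX y hy)) (hYX y' hy')⟩
      obtain ⟨g, hg, rfl⟩ := (h1 y).1 hy
      obtain ⟨g', hg', rfl⟩ := (h1 y').1 hy'
      have h4 : (e g * x * (e g)⁻¹)⁻¹ * (e g' * x * (e g')⁻¹) =
          e g * (x⁻¹ * ((e g)⁻¹ * e g') * x) * (e g')⁻¹ := by group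
      rw [h4]
      exact N.mul_mem (N.mul_mem (heN g hg)
        (hNx' _ (N.mul_mem (N.inv_mem (heN g hg)) (heN g' hg')))) (N.inv_mem (heN g' hg'))
  exact semi_Ap₂ hn hC hrev hd (by rw [h3]; exact hcount)

/-- `ew` commutes with the conjugates of `x` on the words moved from fixed words -/
theorem Fm_comm {φ : K →+* K} (hφs : ∀ x, φ (star x) = star (φ x)) (e : GU K n →* Γ) (x : Γ)
    (hx : ∀ g, x * e g * x⁻¹ = e (uMap n φ hφs g)) {ζ : K} (hζ : ζ * star ζ = 1) (hφ : φ ζ = ζ)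
    (g : GU K n) {u : List (Ln K n)} (hO : Orth u) (hfix : ∀ P ∈ u, P.1.map φ = P.1) :
    e (eU ζ (sm (u.map (lam (RingHom.id K) idf g)))) * (e g * x * (e g)⁻¹) =
      (e g * x * (e g)⁻¹) * e (eU ζ (sm (u.map (lam (RingHom.id K) idf g)))) := by
  have hid : uMap n (RingHom.id K) idf (eU ζ (sm u)) = eU ζ (sm u) := by
    apply Subtype.ext
    rw [uMap_coe]
    ext i j
    rfl
  have e0 : eU ζ (sm (u.map (lam (RingHom.id K) idf g))) = g * eU ζ (sm u) * g⁻¹ := by
    have h := eU_conjM (f := RingHom.id K) idf g (isPr_sm hO) hζ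
    rw [hid] at h
    rw [H687.sm_map]
    exact h
  have hsm : (sm u).map φ = sm u := by
    have : ∀ v : List (Ln K n), (∀ P ∈ v, P.1.map φ = P.1) → (sm v).map φ = sm v := by
      intro v
      induction v with
      | nil =>
        intro _
        ext i j
        simp [sm]
      | cons P v ih =>
        intro h
        have h2 : sm (P :: v) = P.1 + sm v := by simp [sm]
        rw [h2]
        have h3 : (P.1 + sm v).map φ = P.1.map φ + (sm v).map φ := by
          ext i j; simp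
        rw [h3, h P (by simp), ih fun Q hQ => h Q (by simp [hQ])]
    exact this u hfix
  have h2 : uMap n φ hφs (eU ζ (sm u)) = eU ζ (sm u) := by
    apply Subtype.ext
    rw [uMap_coe, eU_val (isPr_sm hO) hζ]
    have h4 : (1 + (ζ - 1) • sm u).map φ = 1 + (φ ζ - 1) • (sm u).map φ := by
      ext i j
      by_cases hij : i = j
      · subst hij; simp
      · simp [hij]
    rw [h4, hφ, hsm]
  have h3 := hx (eU ζ (sm u))
  rw [h2] at h3
  have h4 : x * e (eU ζ (sm u)) = e (eU ζ (sm u)) * x := by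
    rw [← mul_inv_eq_iff_eq_mul]
    exact h3
  rw [e0, map_mul, map_mul, map_inv]
  calc e g * e (eU ζ (sm u)) * (e g)⁻¹ * (e g * x * (e g)⁻¹)
      = e g * (e (eU ζ (sm u)) * x) * (e g)⁻¹ := by group
    _ = e g * (x * e (eU ζ (sm u))) * (e g)⁻¹ := by rw [h4]
    _ = e g * x * (e g)⁻¹ * (e g * e (eU ζ (sm u)) * (e g)⁻¹) := by group

/-- the count with an arbitrary number `t` -/
theorem star_count_T {q r t : ℕ} (hq : 2 ≤ q)
    (hK : Nat.card K = q ^ 2) (h2 : (2 : F0 K) ≠ 0)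
    (hs : ∀ x : K, star x = x ^ q) (hn : 0 < n) (e : GU K n →* Γ)
    (he : ∀ g, e g = 1 → ∃ c : K, (g : Matrix (Fin n) (Fin n) K) = c • (1 : Matrix (Fin n) (Fin n) K))
    (x : Γ) (hx : ∀ g, x * e g * x⁻¹ = e (uMap n (starRingEnd K) star_comm g))
    (ht : (Fr (F0 K) n).card < 3 * 2 ^ n * t)
    (hnum : (q + 1) * Nat.gcd n (q + 1) * (3 * 4 ^ n) ≤ r * (2 * (q + 1) ^ n)) :
    (Fr K n).card < r * (Nat.card (conjs e (SUg K n) x) * t) := by
  have : Finite (Matrix (Fin n) (Fin n) K) := inferInstanceAs (Finite (Fin n → Fin n → K))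
  have : Finite (unitaryGroup (Fin n) K) := Subtype.finite
  have h1 := card_conjs_star_S hn hs (SUg K n) (fun g hg => mem_SUg.1 hg) e he x hx
  rw [comap_SUg] at h1
  have hU := H715.card_unitary_pow (K := K) hq hK hs n
  have hU₀ := H715.card_unitary_trivial (K := F0 K) h2 (star_F0 K) n
  have e1 := card_U_SU (K := K) hn
  have e2 := card_U_SU (K := F0 K) hn
  rw [card_unitary_N1, H715.card_N1_of_pow hq hK hs] at e1
  rw [card_unitary_N1, H715.card_N1_of_trivial h2 (star_F0 K)] at e2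
  refine count_gen' (A := q + 1) (m := 2) (Z := (q + 1) * Nat.gcd n (q + 1)) (by omega)
    (by norm_num) hU hU₀ ?_ Nat.card_pos ht hnum
  rw [e1, e2]
  calc 2 * ((q + 1) * Nat.card (SUg K n))
      ≤ 2 * ((q + 1) * (Nat.card (conjs e (SUg K n) x) *
        (Nat.gcd n (q + 1) * Nat.card (SUg (F0 K) n)))) :=
        Nat.mul_le_mul_left _ (Nat.mul_le_mul_left _ h1)
    _ = _ := by ring

end fam

theorem stmtB7s : StmtB7s.{u} := by
  intro K _ _ _ q hq hq7 hK hs n hn hn3 σ hσ H hH hσH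
  have : Fact (Nat.Prime 2) := ⟨Nat.prime_two⟩
  have h2K : (2 : F0 K) ≠ 0 := two_ne hq hK hs
  have h2K' : (2 : K) ≠ 0 := by
    intro h
    apply h2K
    apply (toK K).injective
    rw [map_ofNat, map_zero, h]
  have hm1 : (-1 : K) ≠ 1 := by
    intro h
    apply h2K'
    have : (1 : K) + 1 = 0 := by
      nth_rewrite 1 [← h]
      ring
    rw [← one_add_one_eq_two]
    exact this
  have hnorm : (-1 : K) * star (-1 : K) = 1 := by
    rw [star_neg, star_one]
    ring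
  have hσ1 : σ ≠ 1 := by
    intro h
    have h1 : ∀ y : K, star y = y := by
      intro y
      rw [← hσ, h]
      rfl
    have hc := card_F0 hK hs
    have h2 : Function.Surjective (toK K) := fun x => exists_toK (h1 x)
    have h3 : Nat.card (F0 K) = Nat.card K :=
      Nat.card_congr (Equiv.ofBijective _ ⟨(toK K).injective, h2⟩)
    rw [hc, hK] at h3
    have : q * 1 < q * q := Nat.mul_lt_mul_of_pos_left (by omega) (by omega)
    rw [pow_two] at h3
    omega
  have hσ2 : σ ^ 2 = 1 := by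
    apply Subtype.ext
    ext y
    change σ.1 (σ.1 y) = y
    rw [hσ, hσ, star_star]
  have hCo := H275.stmtM4c K q (by omega) hK hs 2 (-1) (by norm_num) hm1 hnorm n (by omega)
  have hn2 : ¬ 2 ∣ n := by
    exact fun h => (Nat.not_even_iff_odd.2 hn) (even_iff_two_dvd.2 h)
  have hmemL : ∀ w : List (Ln K n), Orth w → SemidirectProduct.inl (eW (-1 : K) w) ∈ H := by
    intro w hw
    exact hH ⟨_, stmtB6 K 2 (-1) (by norm_num) hnorm n hn2 w hw, rfl⟩
  have hx : ∀ g, (SemidirectProduct.inr σ : PGamU K n) * e1 K n g *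
      (SemidirectProduct.inr σ)⁻¹ = e1 K n (uMap n (starRingEnd K) star_comm g) := by
    intro g
    rw [e1_apply, inr_conj, e1_apply]
    congr 2
    apply Subtype.ext
    rw [uMap_coe]
    ext i j
    exact hσ _
  have hker : ∀ g, e1 K n g = 1 → ∃ c : K, (g : Matrix (Fin n) (Fin n) K) = c • 1 := by
    intro g hg
    exact (H727.center_iff (by omega) hK hs (by omega) g).1 (e1_eq_one.1 hg)
  have hgood := good_Fs_herm (s := σ.1) hK hs hσ n
  have ht : (Fr (F0 K) n).card < 3 * 2 ^ n * t (Fs σ.1 n) :=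
    lt_of_le_of_lt (card_Fr0_le (K := K) (n := n) hσ)
      (t_Fs_herm hq hq7 hK hs hσ hn (by omega))
  have hcount := star_count_T (n := n) (r := 2) (by omega) hK h2K hs (by omega) (e1 K n) hker
    (SemidirectProduct.inr σ) hx ht (num_seven hn3 hn hq7 hq)
  have hcomm : ∀ g ∈ SUg K n, ∀ u v : List (Ln K n), u ++ v ∈ Fs σ.1 n →
      (SemidirectProduct.inl (eW (-1 : K) (u.map (lam (RingHom.id K) idf g))) : PGamU K n) *
        (e1 K n g * SemidirectProduct.inr σ * (e1 K n g)⁻¹) =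
      (e1 K n g * SemidirectProduct.inr σ * (e1 K n g)⁻¹) *
        SemidirectProduct.inl (eW (-1 : K) (u.map (lam (RingHom.id K) idf g))) := by
    intro g _ u v huv
    obtain ⟨h1, h2⟩ := mem_Fs.1 huv
    refine Fm_comm star_comm (e1 K n) (SemidirectProduct.inr σ) hx hnorm
      (by rw [map_neg, map_one]) g (List.pairwise_append.1 ((mem_Fr K).1 h1).2).1 fun P hP => ?_
    have h3 := h2 P (List.mem_append_left _ hP)
    have h4 : ∀ y : K, (starRingEnd K) y = σ.1 y := fun y => (hσ y).symm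
    ext i j
    rw [Matrix.map_apply, h4]
    exact congrFun (congrFun h3 i) j
  have hmemN : ∀ y : PGamU K n, y ∈ (SemidirectProduct.inl : PGU K n →* PGamU K n).range ↔
      y.right = 1 := fun y => mem_N
  refine semi_chain₃ (by omega) (Fs σ.1 n) Fs_subset (fun w hw w' hp => hgood.perm w w' hp hw)
    (e1 K n) (SemidirectProduct.inr σ) (SUg K n)
    (fun w => SemidirectProduct.inl (eW (-1 : K) w))
    (H164.Comb.map hCo SemidirectProduct.inl SemidirectProduct.inl_injective)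
    (fun u v huv => by
      show Subgroup.zpowers (SemidirectProduct.inl (eW (-1 : K) v.reverse)) = _
      rw [eW_rev n u v huv])
    (SemidirectProduct.inl : PGU K n →* PGamU K n).range H (fun w _ => ⟨_, rfl⟩) hmemL
    (fun g _ => ⟨_, rfl⟩) (fun g hg => hH (mk_mem_PSU (mem_SUg.1 hg))) hσH (fun h => hσ1 ?_)
    (fun y hy => ?_) (inr_pow hσ2) hcomm hcount
  · exact (hmemN _).1 h
  · rw [hmemN] at hy ⊢
    simp [hy]

theorem stmtB8s_of (hM4 : StmtM4.{u}) (hM6 : StmtM6.{u, 0}) (hB5 : StmtB5.{u}) (hB6 : StmtB6.{u})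
    (hB7 : StmtB7s.{u}) (hCYC : StmtCYC.{u}) : StmtB8s.{u, v} := by
  intro K _ _ _ q hq hq7 hK hs n hn hn3 E hEc hEp 𝕜 _
  apply quillenDim_of_rat
  have : Fact (Nat.Prime 2) := ⟨Nat.prime_two⟩
  have h2q : 2 ∣ q + 1 := by
    obtain ⟨r, rfl⟩ := hq
    exact ⟨r + 1, by ring⟩
  have hn24 : (2 : ℕ) ≠ 2 ∨ (n ≠ 2 ∧ n ≠ 4) := by
    right
    obtain ⟨r, rfl⟩ := hn
    omega
  have hn2 : ¬ 2 ∣ n := fun h => (Nat.not_even_iff_odd.2 hn) (even_iff_two_dvd.2 h)
  have hm1 : (-1 : K) ≠ 1 := by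
    intro h
    have h2 : (2 : K) = 0 := by
      rw [← one_add_one_eq_two]
      nth_rewrite 1 [← h]
      ring
    have h3 : ((q : ℕ) : K) = 0 := by
      have h4 : ((Fintype.card K : ℕ) : K) = 0 := by simp
      rw [← Nat.card_eq_fintype_card, hK] at h4
      push_cast at h4
      exact pow_eq_zero_iff (two_ne_zero) |>.1 h4
    obtain ⟨r, rfl⟩ := hq
    push_cast at h3
    rw [h2, zero_mul, zero_add] at h3
    exact one_ne_zero h3
  have hnorm : (-1 : K) * star (-1 : K) = 1 := by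
    rw [star_neg, star_one]
    ring
  have hall : ∀ w : List (Ln K n), Orth w → eW (-1 : K) w ∈ PSU K n := fun w hw =>
    hB6 K 2 (-1) (by norm_num) hnorm n hn2 w hw
  by_cases hE1 : ∀ x ∈ E, x.right = 1
  · have hE : E ≤ PSU' K n := by
      intro x hx
      have h1 := mem_range_il (hE1 x hx)
      refine ⟨x.left, mem_PSU_of_sq hn ?_, h1⟩
      apply il_inj
      rw [map_pow, h1, map_one, hEp x hx]
    rw [sup_eq_left.2 hE]
    have h1 : PSU' K n = (PSU K n).map (il K n) := rfl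
    rw [h1, qd_map il_inj]
    exact hM6 K q (by omega) hK hs 2 h2q n (by omega) hn24 (-1) (by norm_num) hm1 _ hall ℚ
  · push Not at hE1
    obtain ⟨x, hxE, hx1⟩ := hE1
    obtain ⟨hstar, h, hxh⟩ := hB5 K q hq (by omega) hK hs n hn x (hEp x hxE) hx1
    set σ := x.right with hσ
    set g : PGamU K n := SemidirectProduct.inl h with hg
    set E' := E.map (MulAut.conj g⁻¹).toMonoidHom with hE'
    have hE'c : ∀ x ∈ E', ∀ y ∈ E', x * y = y * x := by
      rintro _ ⟨a, ha, rfl⟩ _ ⟨b, hb, rfl⟩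
      rw [← map_mul, ← map_mul, hEc a ha b hb]
    have hinr : SemidirectProduct.inr σ ∈ E' := by
      refine ⟨x, hxE, ?_⟩
      change g⁻¹ * x * g⁻¹⁻¹ = _
      rw [hxh]
      group
    have hH : (PSU' K n ⊔ E).map (MulAut.conj g⁻¹).toMonoidHom = PSU' K n ⊔ E' := by
      rw [Subgroup.map_sup]
      congr 1
      apply le_antisymm
      · rintro _ ⟨a, ha, rfl⟩
        exact psu'_normal.conj_mem a ha g⁻¹
      · intro a ha
        refine ⟨g * a * g⁻¹, psu'_normal.conj_mem a ha g, ?_⟩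
        change g⁻¹ * (g * a * g⁻¹) * g⁻¹⁻¹ = a
        group
    rw [← qd_map (f := (MulAut.conj g⁻¹).toMonoidHom) (MulAut.conj g⁻¹).injective, hH]
    refine qd_of _ n ?_ (hB7 K q hq hq7 hK hs n hn hn3 σ hstar _ le_sup_left
      (Subgroup.mem_sup_right hinr))
    intro D _ hDc hDp
    refine (hCYC K 2 n D hDc hDp).trans ?_
    rw [card_inf_ker]
    have := hM4 K q (by omega) hK hs 2 h2q n (by omega) hn24 (D.comap (il K n))
      (comap_comm hDc) (comap_pow hDp)
    calc 2 * Nat.card (D.comap (il K n)) ≤ 2 * 2 ^ (n - 1) := Nat.mul_le_mul_left _ this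
      _ = 2 ^ n := by rw [← pow_succ']; congr 1; omega

/-- **All groups `PSU_n(q) E`**, `E` an elementary abelian `2`-subgroup of `PΓU_n(q)`, `n ≥ 3` odd,
`q ≥ 7` odd, have the Quillen dimension property at `2`. -/
theorem stmtB8s : StmtB8s.{u, v} :=
  stmtB8s_of H727.stmtM4 stmtM6 H613.stmtB5 stmtB6 stmtB7s H195.stmtCYC

end

end Vale.Agent.P240.R2.H387B8
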