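import Vale.Agent.P240.R2.H401.Lin5

/-!
Two marked letters: a lower bound for `AS.t` of a set of frames by the dimension `U` of the words whose
last two letters are marked, and the growth of `U` when the number of pairs in a plane depends on its
place.
-/

set_option autoImplicit false

namespace Vale.Agent.P240.R2.H387E7

open Finset
open Vale.Agent.P240.R2.H986 (ev ev_cons ev_single ev_nil)
open Vale.Agent.P240.R2.H401 (SL U sl sp cl cs mem_sl mem_sp U_ge classes_le U_short sum_card_sl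
  ev_end_zero)
open scoped Classical

universe u v

noncomputable section

variable {L : Type u}

/-- `ev` vanishes if `z` does on all the words with the given beginning -/
lemma ev_pre_zero {𝕜 : Type v} [Field 𝕜] (z : List L → 𝕜) (g : List L) : ∀ (u v : List L),
    (∀ u', z (u ++ u') = 0) → ev z g u v = 0 := by
  induction g with
  | nil => intro u v _; rw [ev_nil]
  | cons a g ih =>
    intro u v h
    rcases eq_or_ne g [] with rfl | hg
    · rw [ev_single]
      exact h _
    · rw [ev_cons z a hg, ih _ _ h, ih (u ++ [a]) v (fun u' => by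
        have := h (a :: u')
        simpa using this)]
      simp

/-- only the first word of the bracket has the right end -/
lemma ev_marked' {𝕜 : Type v} [Field 𝕜] (z : List L → 𝕜) (x : L) (v : List L) (w : List L) :
    ∀ u : List L, (∀ (u' : List L) (a : L), a ∈ w → z (u' ++ a :: v) = 0) →
      ev z (w ++ [x]) u v = z (u ++ (w ++ x :: v)) := by
  induction w with
  | nil => intro u _; rw [List.nil_append, ev_single, List.nil_append]
  | cons a w ih =>
    intro u h
    have hne : w ++ [x] ≠ [] := by simp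
    rw [List.cons_append, ev_cons z a hne, ih _ (fun u' y hy => h u' y (List.mem_cons_of_mem _ hy)),
      ev_end_zero z (w ++ [x]) u (a :: v) (fun u' => h u' a List.mem_cons_self) (by simp)]
    simp

/-- the bracket of `y`, `w`, `x` with `x`, `y` marked -/
lemma ev_two {𝕜 : Type v} [Field 𝕜] (z : List L → 𝕜) (x y : L) (w : List L)
    (h1 : ∀ u, z (y :: u) = 0) (h2 : ∀ (u' : List L) (a : L), a ∈ w → z (u' ++ [a, y]) = 0) :
    ev z (y :: (w ++ [x])) [] [] = (-1) ^ ((w ++ [x]).length + 1) * z (w ++ [x, y]) := by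
  have hne : w ++ [x] ≠ [] := by simp
  rw [ev_cons z y hne, ev_pre_zero z (w ++ [x]) _ _ (fun u' => by simpa using h1 u'), zero_add,
    ev_marked' z x [y] w [] (fun u' a ha => by simpa using h2 u' a ha)]
  simp

variable [Fintype L]

/-- **Two marked letters.** -/
theorem U_le_t {F F' : Finset (List L)} (hsub : F ⊆ F') (T : L → Prop)
    (hlen : ∀ w ∈ F, 3 ≤ w.length)
    (hT : ∀ (w : List L) (x y : L), w ++ [x, y] ∈ F → T x ∧ T y ∧ ∀ a ∈ w, ¬ T a) :
    U ℚ F ≤ AS.t F' := by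
  have hsplit : ∀ w ∈ F, ∃ w' x y, w = w' ++ [x, y] ∧ w' ≠ [] := by
    intro w hw
    have h3 := hlen w hw
    rcases w.eq_nil_or_concat' with rfl | ⟨w1, y, rfl⟩
    · simp at h3
    · rcases w1.eq_nil_or_concat' with rfl | ⟨w2, x, rfl⟩
      · simp at h3
      · refine ⟨w2, x, y, by simp, ?_⟩
        rintro rfl
        simp at h3
  have hval : ∀ z ∈ SL ℚ F, ∀ w ∈ F, AS.bm L z = 0 → z w = 0 := by
    intro z hz w hw hz0
    obtain ⟨w', x, y, rfl, hw'⟩ := hsplit w hw
    obtain ⟨hx, hy, ha⟩ := hT _ _ _ hw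
    have h0 : ev z (y :: (w' ++ [x])) [] [] = 0 := congrFun hz0 (y :: (w' ++ [x]))
    rw [ev_two z x y w' ?_ ?_] at h0
    · exact (mul_eq_zero.1 h0).resolve_left (pow_ne_zero _ (by norm_num))
    · intro u
      refine hz.1 _ fun h => ?_
      obtain ⟨w1, x1, y1, h1, h2⟩ := hsplit _ h
      obtain ⟨b, w2, rfl⟩ := List.exists_cons_of_ne_nil h2
      rw [List.cons_append, List.cons.injEq] at h1
      obtain ⟨rfl, rfl⟩ := h1
      exact (hT (y :: w2) x1 y1 h).2.2 y List.mem_cons_self hy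
    · intro u' a ha'
      refine hz.1 _ fun h => ?_
      exact ha a ha' (hT _ _ _ h).1
  let f : SL ℚ F →ₗ[ℚ] (AS.SOL F').map (AS.bm L) :=
    { toFun := fun z => ⟨AS.bm L z.1, Submodule.mem_map_of_mem
        ⟨fun w hw => z.2.1 w fun h => hw (hsub h), z.2.2⟩⟩
      map_add' := fun a b => Subtype.ext ((AS.bm L).map_add a.1 b.1)
      map_smul' := fun c a => Subtype.ext ((AS.bm L).map_smul c a.1) }
  have hinj : Function.Injective f := by
    rw [injective_iff_map_eq_zero]
    intro z hz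
    apply Subtype.ext
    funext w
    by_cases hw : w ∈ F
    · exact hval z.1 z.2 w hw (congrArg Subtype.val hz)
    · exact z.2.1 w hw
  have : Module.Finite ℚ ((AS.SOL F').map (AS.bm L)) := by
    have : Module.Finite ℚ (AS.SOL F') := by
      let g : AS.SOL F' →ₗ[ℚ] (F' → ℚ) :=
        { toFun := fun z w => z.1 w.1
          map_add' := fun _ _ => rfl
          map_smul' := fun _ _ => rfl }
      refine FiniteDimensional.of_injective g ?_
      rw [injective_iff_map_eq_zero]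
      intro z hz
      apply Subtype.ext
      funext w
      by_cases hw : w ∈ F'
      · exact congrFun hz ⟨w, hw⟩
      · exact z.2.1 w hw
    infer_instance
  exact LinearMap.finrank_le_finrank_of_injective hinj

/-- the number of pairs of a plane depends on the number of letters behind it -/
structure LGf (F : Finset (List L)) (n : ℕ) (b : ℕ → ℕ) : Prop where
  len : ∀ w ∈ F, w.length = n
  rect : ∀ (u : List L) (a b c d : L) (v v' : List L), u ++ a :: b :: v ∈ F →
    u ++ c :: d :: v ∈ F → u ++ a :: b :: v' ∈ F → u ++ c :: d :: v' ∈ F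
  pairs : ∀ (u : List L) (x y : L) (v : List L), u ++ x :: y :: v ∈ F →
    b v.length ≤ (univ.filter (fun z : L × L => u ++ z.1 :: z.2 :: v ∈ F)).card

lemma LGf.slice {F : Finset (List L)} {n : ℕ} {b : ℕ → ℕ} (h : LGf F (n + 1) b) (l : L) :
    LGf (sl F l) n b where
  len w hw := by
    have := h.len _ (mem_sl.1 hw)
    simpa using this
  rect u a b c d v v' h1 h2 h3 := by
    rw [mem_sl] at *
    exact h.rect (l :: u) a b c d v v' h1 h2 h3
  pairs u x y v h1 := by
    rw [mem_sl] at h1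
    have := h.pairs (l :: u) x y v h1
    simp_rw [mem_sl]
    exact this

lemma LGf.cl_card {F : Finset (List L)} {n : ℕ} {b : ℕ → ℕ} (h : LGf F n b) {x : L × L}
    {v : List L} (hv : v ∈ sp F x) :
    (univ.filter (fun y : L × L => y.1 :: y.2 :: v ∈ F)).card ≤ (cl F (sp F x)).card := by
  refine Finset.card_le_card fun y hy => ?_
  rw [Finset.mem_filter] at hy
  rw [mem_sp] at hv
  rw [cl, Finset.mem_filter]
  refine ⟨Finset.mem_univ _, ?_⟩
  ext v'
  rw [mem_sp, mem_sp]
  exact ⟨h.rect [] _ _ _ _ v v' hy.2 hv, h.rect [] _ _ _ _ v v' hv hy.2⟩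

/-- **Growth.** -/
theorem LGf.main {𝕜 : Type v} [Field 𝕜] {b : ℕ → ℕ} {α : ℕ → ℚ} (h0 : α 0 ≤ 1)
    (hα : ∀ k, 0 < α k) (hα1 : ∀ k, α k ≤ 1) (hb : ∀ k, 1 ≤ (1 - α (k + 1)) * (b k * α k)) (n : ℕ) :
    ∀ F : Finset (List L), LGf F (n + 1) b → α n * ∑ l : L, (U 𝕜 (sl F l) : ℚ) ≤ U 𝕜 F := by
  induction n with
  | zero =>
    intro F hF
    have h1 : U 𝕜 F = F.card := U_short fun w hw => (hF.len w hw).le
    have h2 : ∀ l : L, U 𝕜 (sl F l) = (sl F l).card := fun l =>
      U_short fun w hw => ((hF.slice l).len w hw).le.trans (by norm_num)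
    have h3 := sum_card_sl hF.len
    rw [Finset.sum_congr rfl fun l _ => by rw [h2 l], h1, ← h3]
    push_cast
    have h4 : (0 : ℚ) ≤ ∑ l : L, ((sl F l).card : ℚ) := Finset.sum_nonneg fun _ _ => by positivity
    nlinarith
  | succ n ih =>
    intro F hF
    have h1 := U_ge (𝕜 := 𝕜) (hF.rect [])
    have h1' : ∑ l : L, (U 𝕜 (sl F l) : ℚ) ≤ U 𝕜 F + ∑ P ∈ cs F, (U 𝕜 P : ℚ) := by
      exact_mod_cast h1
    have key : ∑ P ∈ cs F, (U 𝕜 P : ℚ) ≤ (1 - α (n + 1)) * ∑ l : L, (U 𝕜 (sl F l) : ℚ) := by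
      have h4 := classes_le (𝕜 := 𝕜) (F := F) (b := b n) (fun x hx => by
        obtain ⟨v, hv⟩ := hx
        have hv0 : v.length = n := by
          have := hF.len _ (mem_sp.1 hv)
          simpa using this
        have h5 := hF.pairs [] _ _ v (mem_sp.1 hv)
        rw [hv0] at h5
        exact h5.trans (hF.cl_card hv))
      have h4' : (b n : ℚ) * ∑ P ∈ cs F, (U 𝕜 P : ℚ) ≤
          ∑ a : L, ∑ c : L, (U 𝕜 (sl (sl F a) c) : ℚ) := by exact_mod_cast h4
      have h5 : α n * ∑ a : L, ∑ c : L, (U 𝕜 (sl (sl F a) c) : ℚ) ≤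
          ∑ a : L, (U 𝕜 (sl F a) : ℚ) := by
        rw [Finset.mul_sum]
        exact Finset.sum_le_sum fun a _ => ih _ (hF.slice a)
      have h7 : (0 : ℚ) ≤ ∑ P ∈ cs F, (U 𝕜 P : ℚ) := Finset.sum_nonneg fun _ _ => by positivity
      have h8 := hb n
      have h9 : 0 ≤ 1 - α (n + 1) := by linarith [hα1 (n + 1)]
      calc ∑ P ∈ cs F, (U 𝕜 P : ℚ)
          ≤ ((1 - α (n + 1)) * (b n * α n)) * ∑ P ∈ cs F, (U 𝕜 P : ℚ) := by nlinarith
        _ = (1 - α (n + 1)) * (α n * (b n * ∑ P ∈ cs F, (U 𝕜 P : ℚ))) := by ring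
        _ ≤ (1 - α (n + 1)) * (α n * ∑ a : L, ∑ c : L, (U 𝕜 (sl (sl F a) c) : ℚ)) :=
          mul_le_mul_of_nonneg_left (mul_le_mul_of_nonneg_left h4' (hα n).le) h9
        _ ≤ (1 - α (n + 1)) * ∑ l : L, (U 𝕜 (sl F l) : ℚ) := mul_le_mul_of_nonneg_left h5 h9
    linarith

/-- the number of words -/
theorem LGf.card_le {𝕜 : Type v} [Field 𝕜] {b : ℕ → ℕ} {α : ℕ → ℚ} {x : ℚ} (hx : 0 ≤ x)
    (hxα : ∀ k, x ≤ α k) (h0 : α 0 ≤ 1)
    (hα : ∀ k, 0 < α k) (hα1 : ∀ k, α k ≤ 1) (hb : ∀ k, 1 ≤ (1 - α (k + 1)) * (b k * α k)) (n : ℕ) :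
    ∀ F : Finset (List L), LGf F (n + 1) b → x ^ n * F.card ≤ U 𝕜 F := by
  induction n with
  | zero =>
    intro F hF
    rw [U_short fun w hw => (hF.len w hw).le, pow_zero, one_mul]
  | succ n ih =>
    intro F hF
    have h1 := LGf.main (𝕜 := 𝕜) h0 hα hα1 hb (n + 1) F hF
    have h2 : (0 : ℚ) ≤ ∑ l : L, (U 𝕜 (sl F l) : ℚ) := Finset.sum_nonneg fun _ _ => by positivity
    rw [← sum_card_sl hF.len, pow_succ']
    push_cast
    rw [mul_assoc, Finset.mul_sum]
    calc x * ∑ l : L, x ^ n * ((sl F l).card : ℚ) ≤ x * ∑ l : L, (U 𝕜 (sl F l) : ℚ) :=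
          mul_le_mul_of_nonneg_left (Finset.sum_le_sum fun l _ => ih _ (hF.slice l)) hx
      _ ≤ α (n + 1) * ∑ l : L, (U 𝕜 (sl F l) : ℚ) := mul_le_mul_of_nonneg_right (hxα _) h2
      _ ≤ _ := h1

/-- the numbers of pairs: four, three in the second plane, four in the last one -/
def bq : ℕ → ℕ := fun k => if k = 1 then 3 else 4

/-- the ratios -/
def aq : ℕ → ℚ := fun k => if k = 0 then 1 else if k = 1 then 3 / 4 else 1 / 2

theorem card_le {𝕜 : Type v} [Field 𝕜] {n : ℕ} {F : Finset (List L)} (hF : LGf F (n + 1) bq) :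
    F.card ≤ 2 ^ n * U 𝕜 F := by
  have h2 := LGf.card_le (𝕜 := 𝕜) (b := bq) (α := aq) (x := 1 / 2) (by norm_num)
    (by
      intro k
      unfold aq
      split_ifs <;> norm_num)
    (by norm_num [aq])
    (by
      intro k
      unfold aq
      split_ifs <;> norm_num)
    (by
      intro k
      unfold aq
      split_ifs <;> norm_num)
    (by
      intro k
      unfold aq bq
      rcases k with _ | _ | k
      · norm_num
      · norm_num
      · have e1 : k + 1 + 1 ≠ 0 := by omega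
        have e2 : k + 1 + 1 ≠ 1 := by omega
        have e3 : k + 1 + 1 + 1 ≠ 0 := by omega
        have e4 : k + 1 + 1 + 1 ≠ 1 := by omega
        rw [if_neg e1, if_neg e2, if_neg e3, if_neg e4, if_neg e2]
        norm_num) n F hF
  have h3 : (F.card : ℚ) ≤ 2 ^ n * U 𝕜 F := by
    have h4 : (2 : ℚ) ^ n * ((1 / 2) ^ n * F.card) ≤ 2 ^ n * U 𝕜 F :=
      mul_le_mul_of_nonneg_left h2 (by positivity)
    rw [← mul_assoc, ← mul_pow] at h4
    norm_num at h4
    exact h4
  exact_mod_cast h3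

/-- **the number of words against `t`** -/
theorem card_le_t {F F' : Finset (List L)} (hsub : F ⊆ F') (T : L → Prop) {n : ℕ} (hn : 2 ≤ n)
    (hF : LGf F (n + 1) bq)
    (hT : ∀ (w : List L) (x y : L), w ++ [x, y] ∈ F → T x ∧ T y ∧ ∀ a ∈ w, ¬ T a) :
    F.card ≤ 2 ^ n * AS.t F' :=
  (card_le (𝕜 := ℚ) hF).trans (Nat.mul_le_mul_left _ (U_le_t hsub T (fun w hw => by
    rw [hF.len w hw]; omega) hT))

end

end Vale.Agent.P240.R2.H387E7
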