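import Vale.Agent.P240.R2.H387.E7a
import Vale.Agent.P240.R2.H281.EL

/-!
The real frames of trivial discriminant whose last two lines have nonsquare value, the others have
square value: at least four pairs in the inner planes and in the last one, three in the mixed plane.
-/

set_option autoImplicit false
set_option linter.all false

namespace Vale.Agent.P240.R2.H387E7

open Finset Matrix
open Vale.Agent.P240.R2.AS (Ln Fr Orth mem_Fr)
open Vale.Agent.P240.R2.H387 (hf pr hf_def hf_star hf_add_right hf_add_left hf_smul_right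
  hf_smul_left pr_apply pr_mulVec pr_mul_eq_zero pr_smul hf_symm_zero)
open Vale.Agent.P240.R2.H986.E
open Vale.Agent.P240.R2.H281 (fx hilb star_ne circ mem_circ eight two_ne_of_odd)
open Vale.Agent.P240.R2.H281EL (cN mem_cN card_cN cN_one fr_replace sm_append sm_two orth_two fr_two
  Fx fx_iff exists_letter z1 z2)
open scoped Classical

universe u

noncomputable section

section planes
variable {K : Type u} [Field K] [Fintype K] [StarRing K] {n : ℕ} {q : ℕ}

/-- the value of a point -/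
def Dv (N : fx K) (p : fx K × fx K) : fx K := p.1 ^ 2 + N * p.2 ^ 2

variable {a b : Fin n → K} {M N : fx K}

lemma Dv_coe (N : fx K) (p : fx K × fx K) :
    (p.1 : K) ^ 2 + N * (p.2 : K) ^ 2 = (Dv N p : K) := by
  simp [Dv]

lemma z_facts (haa : hf a a = (M : K)) (hbb : hf b b = (M : K) * N) (hab : hf a b = 0)
    (p : fx K × fx K) : hf (z1 a b p) (z1 a b p) = (M : K) * Dv N p ∧
      hf (z2 N a b p) (z2 N a b p) = (M : K) * N * Dv N p ∧
      hf (z1 a b p) (z2 N a b p) = 0 := by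
  have hba := hf_symm_zero hab
  have e1 : star (p.1 : K) = p.1 := p.1.2
  have e2 : star (p.2 : K) = p.2 := p.2.2
  have e3 : star (N : K) = N := N.2
  have e4 := Dv_coe N p
  refine ⟨?_, ?_, ?_⟩
  · simp only [z1, hf_add_right, hf_add_left, hf_smul_right, hf_smul_left, haa, hbb, hab, hba, e1,
      e2]
    linear_combination (M : K) * e4
  · simp only [z2, hf_add_right, hf_add_left, hf_smul_right, hf_smul_left, haa, hbb, hab, hba, e1,
      e2, e3, star_neg, star_mul']
    linear_combination (M : K) * (N : K) * e4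
  · simp only [z1, z2, hf_add_right, hf_add_left, hf_smul_right, hf_smul_left, haa, hbb, hab, hba,
      e1, e2]
    ring

lemma z_sum (hM : M ≠ 0) (hN : N ≠ 0) (haa : hf a a = (M : K)) (hbb : hf b b = (M : K) * N)
    (hab : hf a b = 0) {p : fx K × fx K} (hp : Dv N p ≠ 0) :
    pr (z1 a b p) + pr (z2 N a b p) = pr a + pr b := by
  obtain ⟨h1, h2, -⟩ := z_facts haa hbb hab p
  have hN0 : (N : K) ≠ 0 := fun h => hN (Subtype.ext h)
  have hM0 : (M : K) ≠ 0 := fun h => hM (Subtype.ext h)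
  have hD0 : (Dv N p : K) ≠ 0 := fun h => hp (Subtype.ext h)
  have e1 : star (p.1 : K) = p.1 := p.1.2
  have e2 : star (p.2 : K) = p.2 := p.2.2
  have e3 : star (N : K) = N := N.2
  have e4 := Dv_coe N p
  ext i j
  rw [Matrix.add_apply, Matrix.add_apply, pr_apply, pr_apply, pr_apply, pr_apply, h1, h2, haa, hbb]
  simp only [z1, z2, Pi.add_apply, Pi.smul_apply, smul_eq_mul, star_add, star_mul', star_neg, e1,
    e2, e3]
  field_simp
  linear_combination (N * a i * star (a j) + b i * star (b j)) * e4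

/-- the point is determined by the line up to sign -/
lemma z_inj (hM : M ≠ 0) (hN : N ≠ 0) (haa : hf a a = (M : K)) (hbb : hf b b = (M : K) * N)
    (hab : hf a b = 0)
    {p r : fx K × fx K} (hp : p ∈ cN N) (hr : r ∈ cN N) (h : pr (z1 a b p) = pr (z1 a b r)) :
    r = p ∨ r = -p := by
  have hba := hf_symm_zero hab
  have hN0 : (N : K) ≠ 0 := fun h => hN (Subtype.ext h)
  have hM0 : (M : K) ≠ 0 := fun h => hM (Subtype.ext h)
  have key : ∀ p : fx K × fx K, p ∈ cN N → hf a (pr (z1 a b p) *ᵥ a) = M * (p.1 : K) ^ 2 ∧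
      hf b (pr (z1 a b p) *ᵥ a) = M * N * (p.1 * p.2) ∧
      hf b (pr (z1 a b p) *ᵥ b) = M * N * N * (p.2 : K) ^ 2 := by
    intro p hp
    have e1 : star (p.1 : K) = p.1 := p.1.2
    have e2 : star (p.2 : K) = p.2 := p.2.2
    have e5 : Dv N p = 1 := mem_cN.1 hp
    obtain ⟨h1, -, -⟩ := z_facts haa hbb hab p
    rw [e5, show ((1 : fx K) : K) = 1 from rfl, mul_one] at h1
    rw [pr_mulVec, pr_mulVec, h1]
    simp only [z1, hf_add_right, hf_add_left, hf_smul_right, hf_smul_left, haa, hbb, hab, hba, e1,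
      e2]
    refine ⟨by field_simp; ring, by field_simp; ring, by field_simp; ring⟩
  obtain ⟨a1, a2, a3⟩ := key p hp
  obtain ⟨b1, b2, b3⟩ := key r hr
  rw [h] at a1 a2 a3
  rw [a1] at b1
  rw [a2] at b2
  rw [a3] at b3
  have c1 : p.1 ^ 2 = r.1 ^ 2 := Subtype.ext (by
    have := mul_left_cancel₀ hM0 b1
    simpa using this)
  have c2 : p.1 * p.2 = r.1 * r.2 := Subtype.ext (by
    have := mul_left_cancel₀ (mul_ne_zero hM0 hN0) b2
    simpa using this)
  have c3 : p.2 ^ 2 = r.2 ^ 2 := Subtype.ext (by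
    have := mul_left_cancel₀ (mul_ne_zero (mul_ne_zero hM0 hN0) hN0) b3
    simpa using this)
  obtain ⟨p1, p2⟩ := p
  obtain ⟨r1, r2⟩ := r
  simp only at c1 c2 c3
  simp only [Prod.mk.injEq, Prod.neg_mk]
  by_cases h0 : p1 = 0
  · subst h0
    have h1 : r1 = 0 := by
      have : r1 ^ 2 = 0 := by rw [← c1]; ring
      exact pow_eq_zero_iff (two_ne_zero) |>.mp this
    subst h1
    have h2 : (r2 - p2) * (r2 + p2) = 0 := by linear_combination -c3
    rcases mul_eq_zero.mp h2 with h2 | h2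
    · left; exact ⟨rfl, sub_eq_zero.mp h2⟩
    · right; exact ⟨by simp, eq_neg_of_add_eq_zero_left h2⟩
  · have h2 : (r1 - p1) * (r1 + p1) = 0 := by linear_combination -c1
    rcases mul_eq_zero.mp h2 with h2 | h2
    · left
      have h3 : r1 = p1 := sub_eq_zero.mp h2
      subst h3
      exact ⟨rfl, (mul_left_cancel₀ h0 c2).symm⟩
    · right
      have h3 : r1 = -p1 := eq_neg_of_add_eq_zero_left h2
      subst h3
      refine ⟨rfl, ?_⟩
      apply mul_left_cancel₀ h0
      linear_combination c2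

/-- the pairs of lines -/
def pN (N : fx K) (a b : Fin n → K) :
    Finset (Matrix (Fin n) (Fin n) K × Matrix (Fin n) (Fin n) K) :=
  (cN N).image fun p => (pr (z1 a b p), pr (z2 N a b p))

lemma card_pN (hM : M ≠ 0) (hN : N ≠ 0) (haa : hf a a = (M : K)) (hbb : hf b b = (M : K) * N)
    (hab : hf a b = 0) : (cN N).card ≤ 2 * (pN N a b).card := by
  refine Finset.card_le_mul_card_image _ 2 ?_
  intro x hx
  obtain ⟨p, hp, rfl⟩ := Finset.mem_image.mp hx
  refine (Finset.card_le_card (t := {p, -p}) ?_).trans Finset.card_le_two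
  intro r hr
  simp only [mem_filter, Prod.mk.injEq] at hr
  simp only [mem_insert, mem_singleton]
  exact z_inj hM hN haa hbb hab hp hr.1 hr.2.1.symm

/-- the pairs in a plane -/
lemma plane_le (hF : Fld K q) {u v : List (Ln K n)} {x y : Ln K n} {G : Finset (List (Ln K n))}
    (h : u ++ x :: y :: v ∈ Fr K n) (hM : M ≠ 0) (hN : N ≠ 0)
    (haa : hf a a = (M : K)) (hbb : hf b b = (M : K) * N) (hxa : x.1 = pr a) (hyb : y.1 = pr b)
    (hG : hf a b = 0 → ∀ p ∈ cN N, ∀ P Q : Ln K n, P.1 = pr (z1 a b p) → Q.1 = pr (z2 N a b p) →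
      u ++ P :: Q :: v ∈ Fr K n → u ++ P :: Q :: v ∈ G) :
    (cN N).card ≤ 2 * (univ.filter (fun z : Ln K n × Ln K n => u ++ z.1 :: z.2 :: v ∈ G)).card := by
  have hN0 : (N : K) ≠ 0 := fun h => hN (Subtype.ext h)
  have hM0 : (M : K) ≠ 0 := fun h => hM (Subtype.ext h)
  have hab : hf a b = 0 := by
    refine (pr_mul_eq_zero (by rw [haa]; exact hM0) (by rw [hbb]; exact mul_ne_zero hM0 hN0)).1 ?_
    rw [← hxa, ← hyb]
    exact fr_two h
  refine (card_pN hM hN haa hbb hab).trans (Nat.mul_le_mul_left 2 ?_)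
  refine (Finset.card_le_card (t := (univ.filter (fun z : Ln K n × Ln K n =>
    u ++ z.1 :: z.2 :: v ∈ G)).image fun z => (z.1.1, z.2.1)) ?_).trans Finset.card_image_le
  intro m hm
  obtain ⟨p, hp, rfl⟩ := Finset.mem_image.1 hm
  have e5 : Dv N p = 1 := mem_cN.1 hp
  obtain ⟨f1, f2, f3⟩ := z_facts haa hbb hab p
  rw [e5, show ((1 : fx K) : K) = 1 from rfl, mul_one] at f1 f2
  obtain ⟨P, hP⟩ := exists_letter hF (z := z1 a b p) (by rw [f1]; exact hM0)
  obtain ⟨Q, hQ⟩ := exists_letter hF (z := z2 N a b p) (by rw [f2]; exact mul_ne_zero hM0 hN0)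
  rw [Finset.mem_image]
  refine ⟨(P, Q), ?_, by rw [hP, hQ]⟩
  rw [Finset.mem_filter]
  refine ⟨Finset.mem_univ _, hG hab p hp P Q hP hQ ?_⟩
  have h1 : u ++ ([x, y] ++ v) ∈ Fr K n := h
  refine fr_replace (g' := [P, Q]) h1 (orth_two.2 ?_) ?_
  · rw [hP, hQ]
    exact (pr_mul_eq_zero (by rw [f1]; exact hM0) (by rw [f2]; exact mul_ne_zero hM0 hN0)).2 f3
  · rw [sm_two, sm_two, hP, hQ, hxa, hyb]
    exact z_sum hM hN haa hbb hab (by rw [e5]; exact one_ne_zero)

end planes

section letters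
variable {K : Type u} [Field K] [Fintype K] [StarRing K] {n : ℕ} {q : ℕ}

/-- the real lines of nonsquare value -/
def Tl (P : Ln K n) : Prop := Lf 1 P ∧ ¬ L1 1 P

lemma one_norm : (1 : K) * star (1 : K) = 1 := by rw [star_one, mul_one]

/-- the vector of a real line of nonsquare value -/
lemma Tl.exists_vec (hF : Fld K q) {P : Ln K n} (h : Tl P) : ∃ (z : Fin n → K) (M : fx K),
    Fx 1 z ∧ hf z z = (M : K) ∧ M ≠ 0 ∧ ¬ IsSquare M ∧ P.1 = pr z := by
  obtain ⟨z, hz, hz0, hP⟩ := H281EL.Lf.exists_vec hF h.1 one_norm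
  have hzr := hz.real one_norm hz
  refine ⟨z, ⟨hf z z, hzr⟩, hz, rfl, fun h0 => hz0 (congrArg Subtype.val h0), ?_, hP⟩
  rintro ⟨r, hr⟩
  have hr' : hf z z = (r : K) * r := congrArg Subtype.val hr
  have hr0 : (r : K) ≠ 0 := by
    intro h0
    rw [h0, mul_zero] at hr'
    exact hz0 hr'
  exact H281EL.not_sq hz hP h.2 r.2 hr0 hr'.symm

/-- letters of nonsquare value -/
lemma Tl.of_vec {P : Ln K n} {z : Fin n → K} {M : fx K} (hz : Fx 1 z) (hM : hf z z = (M : K))
    (hns : ¬ IsSquare M) (hP : P.1 = pr z) : Tl P := by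
  refine ⟨?_, ?_⟩
  · unfold Lf
    rw [hP]
    exact hz.line one_norm
  · refine H281EL.not_L1 one_norm hz hP ?_
    intro r hr hrr
    apply hns
    refine ⟨⟨r, hr⟩, Subtype.ext ?_⟩
    show (M : K) = r * r
    rw [hrr, hM]

/-- combinations of real vectors -/
lemma Fx.z1 {a b : Fin n → K} (ha : Fx 1 a) (hb : Fx 1 b) (p : fx K × fx K) :
    Fx 1 (H281EL.z1 a b p) := (ha.smul p.1.2).add (hb.smul p.2.2)

lemma Fx.z2 {a b : Fin n → K} (ha : Fx 1 a) (hb : Fx 1 b) (N : fx K) (p : fx K × fx K) :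
    Fx 1 (H281EL.z2 N a b p) := by
  refine (ha.smul ?_).add (hb.smul p.1.2)
  have e3 : star (N : K) = N := N.2
  have e4 : star (p.2 : K) = p.2 := p.2.2
  rw [star_neg, star_mul', e3, e4]

end letters

end

end Vale.Agent.P240.R2.H387E7
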