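import Vale.Agent.P240.R2.H387.E7b
import Vale.Agent.P240.R2.H829.EO

/-!
The real frames of trivial discriminant whose last two lines have nonsquare value.
-/

set_option autoImplicit false
set_option linter.all false

namespace Vale.Agent.P240.R2.H387E7

open Finset Matrix
open Vale.Agent.P240.R2.AS (Ln Fr Orth mem_Fr)
open Vale.Agent.P240.R2.H387 (hf pr hf_def hf_star hf_add_right hf_add_left hf_smul_right
  hf_smul_left pr_apply pr_mulVec pr_mul_eq_zero pr_smul hf_symm_zero)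
open Vale.Agent.P240.R2.H986.E
open Vale.Agent.P240.R2.H281 (fx hilb star_ne circ mem_circ eight two_ne_of_odd)
open Vale.Agent.P240.R2.H281EL (cN mem_cN card_cN cN_one fr_replace sm_append sm_two orth_two fr_two
  Fx fx_iff exists_letter z1 z2)
open scoped Classical

universe u

noncomputable section

/-- the frames -/
def FT (K : Type u) [Field K] [Fintype K] [StarRing K] (n : ℕ) : Finset (List (Ln K n)) :=
  (Fr K n).filter fun w => ∃ (v : List (Ln K n)) (P Q : Ln K n), w = v ++ [P, Q] ∧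
    (∀ R ∈ v, L1 1 R) ∧ Tl P ∧ Tl Q

section frames
variable {K : Type u} [Field K] [Fintype K] [StarRing K] {n : ℕ} {q : ℕ}

lemma append_two_inj {α : Type u} {v v' : List α} {P Q P' Q' : α}
    (h : v ++ [P, Q] = v' ++ [P', Q']) : v = v' ∧ P = P' ∧ Q = Q' := by
  obtain ⟨h1, h2⟩ := List.append_inj' h rfl
  simp only [List.cons.injEq, and_true] at h2
  exact ⟨h1, h2.1, h2.2⟩

/-- splitting off the last two letters -/
lemma mem_FT {v : List (Ln K n)} {P Q : Ln K n} : v ++ [P, Q] ∈ FT K n ↔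
    v ++ [P, Q] ∈ Fr K n ∧ (∀ R ∈ v, L1 1 R) ∧ Tl P ∧ Tl Q := by
  unfold FT
  rw [Finset.mem_filter]
  constructor
  · rintro ⟨h1, v', P', Q', h2, h3, h4, h5⟩
    obtain ⟨rfl, rfl, rfl⟩ := append_two_inj h2
    exact ⟨h1, h3, h4, h5⟩
  · rintro ⟨h1, h2, h3, h4⟩
    exact ⟨h1, v, P, Q, rfl, h2, h3, h4⟩

lemma FT_sub : FT K n ⊆ Fr K n := Finset.filter_subset _ _

lemma FT_len {w : List (Ln K n)} (hw : w ∈ FT K n) : w.length = n := ((mem_Fr K).1 (FT_sub hw)).1

lemma fr_rect {u : List (Ln K n)} {a b c d : Ln K n} {v v' : List (Ln K n)}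
    (h1 : u ++ a :: b :: v ∈ Fr K n) (h2 : u ++ c :: d :: v ∈ Fr K n)
    (h3 : u ++ a :: b :: v' ∈ Fr K n) : u ++ c :: d :: v' ∈ Fr K n := by
  have s1 := H387.sm_eq_one h1
  have s2 := H387.sm_eq_one h2
  have t1 : AS.sm [c, d] = AS.sm [a, b] := by
    have t2 : ∀ x y : Ln K n, AS.sm (u ++ x :: y :: v) = AS.sm u + AS.sm [x, y] + AS.sm v := by
      intro x y
      rw [show u ++ x :: y :: v = (u ++ [x, y]) ++ v by simp, sm_append, sm_append]
    rw [t2] at s1 s2
    have t3 := s2.trans s1.symm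
    exact add_left_cancel (add_right_cancel t3)
  have h5 : u ++ ([a, b] ++ v') ∈ Fr K n := h3
  exact fr_replace (g' := [c, d]) h5 (orth_two.2 (fr_two h2)) t1

lemma split_last (v : List (Ln K n)) : v = [] ∨ (∃ P, v = [P]) ∨ ∃ v0 P Q, v = v0 ++ [P, Q] := by
  rcases v.eq_nil_or_concat' with rfl | ⟨v1, Q, rfl⟩
  · exact Or.inl rfl
  · rcases v1.eq_nil_or_concat' with rfl | ⟨v0, P, rfl⟩
    · exact Or.inr (Or.inl ⟨Q, rfl⟩)
    · exact Or.inr (Or.inr ⟨v0, P, Q, by simp⟩)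

/-- the letters in the last three cases -/
lemma mem_FT0 {u : List (Ln K n)} {x y : Ln K n} : u ++ x :: y :: [] ∈ FT K n ↔
    u ++ x :: y :: [] ∈ Fr K n ∧ (∀ R ∈ u, L1 1 R) ∧ Tl x ∧ Tl y := mem_FT

lemma mem_FT1 {u : List (Ln K n)} {x y P : Ln K n} : u ++ x :: y :: [P] ∈ FT K n ↔
    u ++ x :: y :: [P] ∈ Fr K n ∧ (∀ R ∈ u, L1 1 R) ∧ L1 1 x ∧ Tl y ∧ Tl P := by
  rw [show u ++ x :: y :: [P] = (u ++ [x]) ++ [y, P] by simp, mem_FT]
  constructor
  · rintro ⟨h1, h2, h3, h4⟩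
    exact ⟨h1, fun R hR => h2 R (by simp [hR]), h2 x (by simp), h3, h4⟩
  · rintro ⟨h1, h2, h3, h4, h5⟩
    refine ⟨h1, fun R hR => ?_, h4, h5⟩
    rcases List.mem_append.1 hR with hR | hR
    · exact h2 R hR
    · rw [List.mem_singleton.1 hR]; exact h3

lemma mem_FT2 {u v : List (Ln K n)} {x y P Q : Ln K n} : u ++ x :: y :: (v ++ [P, Q]) ∈ FT K n ↔
    u ++ x :: y :: (v ++ [P, Q]) ∈ Fr K n ∧ (∀ R ∈ u, L1 1 R) ∧ L1 1 x ∧ L1 1 y ∧
      (∀ R ∈ v, L1 1 R) ∧ Tl P ∧ Tl Q := by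
  rw [show u ++ x :: y :: (v ++ [P, Q]) = (u ++ x :: y :: v) ++ [P, Q] by simp, mem_FT]
  constructor
  · rintro ⟨h1, h2, h3, h4⟩
    exact ⟨h1, fun R hR => h2 R (by simp [hR]), h2 x (by simp), h2 y (by simp),
      fun R hR => h2 R (by simp [hR]), h3, h4⟩
  · rintro ⟨h1, h2, h3, h4, h5, h6, h7⟩
    refine ⟨h1, fun R hR => ?_, h6, h7⟩
    rw [List.mem_append, List.mem_cons, List.mem_cons] at hR
    rcases hR with hR | rfl | rfl | hR
    · exact h2 R hR
    · exact h3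
    · exact h4
    · exact h5 R hR

/-- two vectors of nonsquare value, the second rescaled to the value of the first -/
lemma rescale (h2 : (2 : fx K) ≠ 0) {b : Fin n → K} {M M' : fx K} (hM0 : M ≠ 0) (hM'0 : M' ≠ 0)
    (hM : ¬ IsSquare M) (hM' : ¬ IsSquare M') (hb : Fx 1 b) (hbb : hf b b = (M' : K)) :
    ∃ b' : Fin n → K, Fx 1 b' ∧ hf b' b' = (M : K) ∧ pr b' = pr b := by
  have hch : ringChar (fx K) ≠ 2 := by
    intro h
    apply h2
    have := ringChar.Nat.cast_ringChar (R := fx K)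
    rw [h] at this
    exact_mod_cast this
  have hsq : IsSquare (M * M') := by
    have h1 := quadraticChar_neg_one_iff_not_isSquare.2 hM
    have h3 := quadraticChar_neg_one_iff_not_isSquare.2 hM'
    have h4 : quadraticChar (fx K) (M * M') = 1 := by
      rw [map_mul, h1, h3]; norm_num
    exact (quadraticChar_one_iff_isSquare (mul_ne_zero hM0 hM'0)).1 h4
  obtain ⟨r, hr⟩ := hsq
  have hr0 : r ≠ 0 := by
    rintro rfl
    rw [mul_zero] at hr
    exact mul_ne_zero hM0 hM'0 hr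
  -- `M = (r / M') ^ 2 * M'`
  have hs0 : ((r * M'⁻¹ : fx K) : K) ≠ 0 := fun h =>
    mul_ne_zero hr0 (inv_ne_zero hM'0) (Subtype.ext h)
  refine ⟨((r * M'⁻¹ : fx K) : K) • b, hb.smul (r * M'⁻¹ : fx K).2, ?_, pr_smul hs0 b⟩
  have e1 : star ((r * M'⁻¹ : fx K) : K) = ((r * M'⁻¹ : fx K) : K) := (r * M'⁻¹ : fx K).2
  rw [hf_smul_right, hf_smul_left, e1, hbb]
  have e2 : (r * M'⁻¹) * ((r * M'⁻¹) * M') = M := by
    field_simp
    rw [pow_two, ← hr]
    ring
  have e3 := congrArg (fx K).subtype e2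
  simpa using e3

/-- **the planes** -/
theorem lgf (hF : Fld K q) (hq7 : 7 ≤ q) : H387E7.LGf (FT K n) n bq := by
  have h2 : (2 : K) ≠ 0 := by
    intro h
    have hodd : Odd (Nat.card K) := by rw [hF.2.1]; exact hF.1.pow
    exact two_ne_of_odd hodd h
  have h2' : (2 : fx K) ≠ 0 := by
    intro h
    apply h2
    have h3 := congrArg (fx K).subtype h
    rwa [map_ofNat, map_zero] at h3
  have hcard : Fintype.card (fx K) = q := by
    rw [← Nat.card_eq_fintype_card]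
    exact H986.St.card_F0 hF.2.1 hF.2.2
  have h8 : 8 ≤ (cN (1 : fx K)).card := by
    rw [cN_one]
    exact eight (K := fx K) h2' (by rw [Nat.card_eq_fintype_card, hcard]; exact hq7)
  have h6 : ∀ N : fx K, N ≠ 0 → 6 ≤ (cN N).card := by
    intro N hN
    have := card_cN h2' hN
    omega
  refine ⟨fun w hw => FT_len hw, ?_, ?_⟩
  · intro u a b c d v v' h1 h3 h4
    have l1 := FT_len h1
    have l2 := FT_len h4
    have l3 : v.length = v'.length := by
      simp only [List.length_append, List.length_cons] at l1 l2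
      omega
    have hfr := fr_rect (FT_sub h1) (FT_sub h3) (FT_sub h4)
    rcases split_last v with rfl | ⟨P, rfl⟩ | ⟨v0, P, Q, rfl⟩
    · have hv' : v' = [] := by
        rw [← List.length_eq_zero_iff, ← l3]
        rfl
      rw [hv']
      exact h3
    · obtain ⟨P', rfl⟩ : ∃ P', v' = [P'] := List.length_eq_one_iff.1 l3.symm
      obtain ⟨a1, a2, a3, a4, a5⟩ := mem_FT1.1 h3
      obtain ⟨b1, b2, b3, b4, b5⟩ := mem_FT1.1 h4
      exact mem_FT1.2 ⟨hfr, b2, a3, a4, b5⟩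
    · rcases split_last v' with rfl | ⟨P', rfl⟩ | ⟨v0', P', Q', rfl⟩
      · simp at l3
      · simp at l3
      · obtain ⟨a1, a2, a3, a4, a5, a6, a7⟩ := mem_FT2.1 h3
        obtain ⟨b1, b2, b3, b4, b5, b6, b7⟩ := mem_FT2.1 h4
        exact mem_FT2.2 ⟨hfr, b2, a3, a4, b5, b6, b7⟩
  · intro u x y v h
    rcases split_last v with rfl | ⟨P, rfl⟩ | ⟨v0, P, Q, rfl⟩
    · obtain ⟨a1, a2, a3, a4⟩ := mem_FT0.1 h
      obtain ⟨a, M, fa, haa, hM0, hMs, hxa⟩ := a3.exists_vec hF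
      obtain ⟨b, M', fb, hbb, hM'0, hM's, hyb⟩ := a4.exists_vec hF
      obtain ⟨b', fb', hbb', hpr⟩ := rescale h2' hM0 hM'0 hMs hM's fb hbb
      have h3 := plane_le hF (G := FT K n) a1 hM0 one_ne_zero haa
        (by rw [hbb', show ((1 : fx K) : K) = 1 from rfl, mul_one]) hxa (hyb.trans hpr.symm)
        (by
          intro hab p hp P1 Q1 hP hQ hfr
          obtain ⟨f1, f2, -⟩ := z_facts (M := M) (N := 1) haa
            (by rw [hbb', show ((1 : fx K) : K) = 1 from rfl, mul_one]) hab p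
          have e5 : Dv 1 p = 1 := mem_cN.1 hp
          rw [e5, show ((1 : fx K) : K) = 1 from rfl, mul_one] at f1 f2
          rw [mul_one] at f2
          exact mem_FT0.2 ⟨hfr, a2, Tl.of_vec (H387E7.Fx.z1 fa fb' p) f1 hMs hP,
            Tl.of_vec (H387E7.Fx.z2 fa fb' 1 p) f2 hMs hQ⟩)
      have h4 : (4 : ℕ) ≤ (univ.filter (fun z : Ln K n × Ln K n =>
          u ++ z.1 :: z.2 :: [] ∈ FT K n)).card := by omega
      exact h4
    · obtain ⟨a1, a2, a3, a4, a5⟩ := mem_FT1.1 h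
      obtain ⟨a, fa, haa, hxa⟩ := H281EL.L1.exists_vec a3
      obtain ⟨b, N, fb, hbb, hN0, hNs, hyb⟩ := a4.exists_vec hF
      have h3 := plane_le hF (G := FT K n) (M := 1) a1 one_ne_zero hN0 haa
        (by rw [hbb, show ((1 : fx K) : K) = 1 from rfl, one_mul]) hxa hyb
        (by
          intro hab p hp P1 Q1 hP hQ hfr
          obtain ⟨f1, f2, -⟩ := z_facts (M := 1) (N := N) haa
            (by rw [hbb, show ((1 : fx K) : K) = 1 from rfl, one_mul]) hab p
          have e5 : Dv N p = 1 := mem_cN.1 hp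
          rw [e5, show ((1 : fx K) : K) = 1 from rfl, mul_one] at f1 f2
          rw [one_mul] at f2
          exact mem_FT1.2 ⟨hfr, a2, H281EL.L1.of_vec (H387E7.Fx.z1 fa fb p) f1 hP,
            Tl.of_vec (H387E7.Fx.z2 fa fb N p) f2 hNs hQ, a5⟩)
      have h4 := h6 N hN0
      have h5 : (3 : ℕ) ≤ (univ.filter (fun z : Ln K n × Ln K n =>
          u ++ z.1 :: z.2 :: [P] ∈ FT K n)).card := by omega
      exact h5
    · obtain ⟨a1, a2, a3, a4, a5, a6, a7⟩ := mem_FT2.1 h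
      obtain ⟨a, fa, haa, hxa⟩ := H281EL.L1.exists_vec a3
      obtain ⟨b, fb, hbb, hyb⟩ := H281EL.L1.exists_vec a4
      have h3 := plane_le hF (G := FT K n) (M := 1) (N := 1) a1 one_ne_zero one_ne_zero haa
        (by rw [hbb, show ((1 : fx K) : K) = 1 from rfl, one_mul]) hxa hyb
        (by
          intro hab p hp P1 Q1 hP hQ hfr
          obtain ⟨f1, f2, -⟩ := z_facts (M := 1) (N := 1) haa
            (by rw [hbb, show ((1 : fx K) : K) = 1 from rfl, one_mul]) hab p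
          have e5 : Dv 1 p = 1 := mem_cN.1 hp
          rw [e5, show ((1 : fx K) : K) = 1 from rfl, mul_one] at f1 f2
          rw [mul_one] at f2
          exact mem_FT2.2 ⟨hfr, a2, H281EL.L1.of_vec (H387E7.Fx.z1 fa fb p) f1 hP,
            H281EL.L1.of_vec (H387E7.Fx.z2 fa fb 1 p) f2 hQ, a5, a6, a7⟩)
      have h4 : bq (v0 ++ [P, Q]).length = 4 := by
        unfold bq
        rw [if_neg (by simp)]
      rw [h4]
      omega

end frames

end

end Vale.Agent.P240.R2.H387E7
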