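import Vale.Agent.P240.R2.H387.E7c
import Vale.Agent.P240.R2.H727.EC
import Vale.Agent.P240.R2.H986.E7Inst

/-!
The count for the trivial discriminant, all odd `q ≥ 7` and all `n ≥ 4` (`StmtE7`, `StmtE9`).
-/

set_option autoImplicit false
set_option linter.all false

namespace Vale.Agent.P240.R2.H387E7

open Finset Matrix
open Vale.Agent.P240.R2.AS (Ln Fr Orth mem_Fr GU)
open Vale.Agent.P240.R2.H38 (lnU lnU_coe lnU_inv gu_star star_gu gu_mul gu_inv mx mx_mul mx_inv mx_one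
  mx_star SCntN mem_Fr_map)
open Vale.Agent.P240.R2.H387 (hf pr hf_def hf_star hf_add_right hf_add_left hf_smul_right
  hf_smul_left pr_apply pr_mulVec pr_mul_eq_zero pr_smul hf_symm_zero)
open Vale.Agent.P240.R2.H986.E
open Vale.Agent.P240.R2.H829.EO (cD cD_mul cD_star cD_one cD_smul cD_det comm_of_cD star_mulVec'
  lnU_mul scal_facts)
open Vale.Agent.P240.R2.H281 (fx hilb star_ne circ mem_circ eight two_ne_of_odd)
open Vale.Agent.P240.R2.H281EL (cN mem_cN card_cN cN_one fr_replace sm_append sm_two orth_two fr_two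
  Fx fx_iff exists_letter z1 z2)
open scoped Classical

universe u

noncomputable section

section real
variable {K : Type u} [Field K] [Fintype K] [StarRing K] {n : ℕ} {q : ℕ}

lemma Da_one : Da n (1 : K) = 1 := by
  unfold Da
  rw [← diagonal_one]
  congr 1
  funext i
  split_ifs <;> rfl

lemma cD_one_eq (A : Matrix (Fin n) (Fin n) K) : cD 1 A = A.map star := by
  unfold cD
  rw [Da_one, star_one, one_mul, mul_one]

lemma Fx_map {g : Matrix (Fin n) (Fin n) K} (e : cD 1 g = g) {x : Fin n → K} (hx : Fx 1 x) :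
    Fx 1 (g *ᵥ x) := by
  unfold Fx at hx ⊢
  rw [star_mulVec', mulVec_mulVec, comm_of_cD one_norm e, ← mulVec_mulVec, hx]

lemma hf_mulVec (g : GU K n) (x : Fin n → K) : hf (g.1 *ᵥ x) (g.1 *ᵥ x) = hf x x := by
  unfold hf
  rw [star_mulVec, ← star_eq_conjTranspose, ← dotProduct_mulVec, mulVec_mulVec, star_gu, one_mulVec]

lemma lnU_pr (g : GU K n) {P : Ln K n} {x : Fin n → K} (h : P.1 = pr x) :
    (lnU g P).1 = pr (g.1 *ᵥ x) := by
  rw [lnU_coe, h, pr, pr, hf_mulVec, mul_smul_comm, smul_mul_assoc, mul_vecMulVec, vecMulVec_mul,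
    star_mulVec, ← star_eq_conjTranspose]

lemma real_L1 {g : GU K n} (e : cD 1 g.1 = g.1) {P : Ln K n} (h : L1 1 P) : L1 1 (lnU g P) := by
  obtain ⟨x, hx, h1, hP⟩ := H281EL.L1.exists_vec h
  exact H281EL.L1.of_vec (Fx_map e hx) (by rw [hf_mulVec]; exact h1) (lnU_pr g hP)

lemma cD_inv {g : GU K n} (e : cD 1 g.1 = g.1) : cD 1 (g⁻¹).1 = (g⁻¹).1 := by
  show cD 1 (star g.1) = star g.1
  rw [cD_star, e]

lemma real_Tl {g : GU K n} (e : cD 1 g.1 = g.1) {P : Ln K n} (h : Tl P) : Tl (lnU g P) := by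
  refine ⟨?_, fun h1 => h.2 ?_⟩
  · show cD 1 (lnU g P).1 = _
    have h2 : cD 1 P.1 = P.1 := h.1
    rw [lnU_coe, cD_mul one_norm, cD_mul one_norm, cD_star, e, h2]
  · have h3 := real_L1 (cD_inv e) h1
    rwa [lnU_inv] at h3

lemma map_mem_FT {g : GU K n} (e : cD 1 g.1 = g.1) {w : List (Ln K n)} (hw : w ∈ FT K n) :
    w.map (lnU g) ∈ FT K n := by
  have hw0 := hw
  unfold FT at hw
  rw [Finset.mem_filter] at hw
  obtain ⟨h1, v, P, Q, rfl, h3, h4, h5⟩ := hw
  rw [List.map_append]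
  refine mem_FT.2 ⟨?_, ?_, real_Tl e h4, real_Tl e h5⟩
  · have := (mem_Fr_map g).2 h1
    rwa [List.map_append] at this
  · intro R hR
    obtain ⟨R', hR', rfl⟩ := List.mem_map.1 hR
    exact real_L1 e (h3 R' hR')

/-- the letters of a frame in `FT` have real vectors -/
lemma FT_vec (hF : Fld K q) {w : List (Ln K n)} (hw : w ∈ FT K n) {R : Ln K n} (hR : R ∈ w) :
    ∃ z : Fin n → K, Fx 1 z ∧ hf z z ≠ 0 ∧ R.1 = pr z := by
  unfold FT at hw
  rw [Finset.mem_filter] at hw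
  obtain ⟨h1, v, P, Q, rfl, h3, h4, h5⟩ := hw
  rw [List.mem_append, List.mem_cons, List.mem_singleton] at hR
  rcases hR with hR | rfl | rfl
  · obtain ⟨z, hz, hz1, hP⟩ := H281EL.L1.exists_vec (h3 R hR)
    exact ⟨z, hz, by rw [hz1]; exact one_ne_zero, hP⟩
  · exact H281EL.Lf.exists_vec hF h4.1 one_norm
  · exact H281EL.Lf.exists_vec hF h5.1 one_norm

/-- a real unitary matrix that fixes a real line acts as `1` or `-1` on it -/
lemma fix_pm {g : GU K n} (e : cD 1 g.1 = g.1) {R : Ln K n} {z : Fin n → K} (hz : Fx 1 z)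
    (hz0 : hf z z ≠ 0) (hR : R.1 = pr z) (h : lnU g R = R) :
    g.1 * R.1 = R.1 ∨ g.1 * R.1 = -R.1 := by
  have h1 : g.1 * R.1 * star g.1 = R.1 := congrArg Subtype.val h
  have h2 : g.1 * R.1 = R.1 * g.1 := by
    calc g.1 * R.1 = g.1 * R.1 * (star g.1 * g.1) := by rw [star_gu, mul_one]
      _ = (g.1 * R.1 * star g.1) * g.1 := by simp only [mul_assoc]
      _ = _ := by rw [h1]
  set c : K := (hf z z)⁻¹ * hf z (g.1 *ᵥ z) with hc
  have h3 : g.1 *ᵥ z = c • z := by
    have h4 : pr z *ᵥ z = z := by rw [pr_mulVec, inv_mul_cancel₀ hz0, one_smul]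
    have h5 : pr z *ᵥ (g.1 *ᵥ z) = c • z := pr_mulVec _ _
    rw [← h5, ← hR, mulVec_mulVec, ← h2, ← mulVec_mulVec, hR, h4]
  have hcs : star c = c := by
    rw [hc, star_mul', star_inv₀, hz.real one_norm hz, hz.real one_norm (Fx_map e hz)]
  have h4 : c * c = 1 := by
    have h5 := hf_mulVec g z
    rw [h3, hf_smul_right, hf_smul_left, hcs, ← mul_assoc] at h5
    exact mul_right_cancel₀ hz0 (by rw [h5, one_mul])
  have h6 : g.1 * R.1 = c • R.1 := by
    rw [hR, pr, mul_smul_comm, mul_vecMulVec, h3, smul_vecMulVec, smul_comm]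
  rcases mul_self_eq_one_iff.1 h4 with h5 | h5
  · left; rw [h6, h5, one_smul]
  · right; rw [h6, h5, neg_smul, one_smul]

lemma mul_sm_congr {A B : Matrix (Fin n) (Fin n) K} (w : List (Ln K n)) :
    (∀ R ∈ w, A * R.1 = B * R.1) → A * AS.sm w = B * AS.sm w := by
  induction w with
  | nil => intro _; simp [AS.sm]
  | cons a w ih =>
    intro h
    have h1 : AS.sm (a :: w) = a.1 + AS.sm w := by simp [AS.sm]
    rw [h1, mul_add, mul_add, h a List.mem_cons_self, ih fun R hR => h R (List.mem_cons_of_mem _ hR)]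

/-- **the real elements of `SU`** -/
theorem card_C_le (hF : Fld K q) (hne : (FT K n).Nonempty) :
    Nat.card {h : H38.SU K n // cD 1 (mx h) = mx h} ≤ 2 ^ n * (FT K n).card := by
  obtain ⟨w', hw'⟩ := hne
  set C := {h : H38.SU K n // cD 1 (mx h) = mx h} with hC
  have hrep : ∀ w : {w // w ∈ FT K n}, ∃ r : C, (∃ g : C, w'.map (lnU g.1.1) = w.1) →
      w'.map (lnU r.1.1) = w.1 := by
    intro w
    by_cases h : ∃ g : C, w'.map (lnU g.1.1) = w.1
    · obtain ⟨g, hg⟩ := h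
      exact ⟨g, fun _ => hg⟩
    · refine ⟨⟨1, ?_⟩, fun h' => absurd h' h⟩
      rw [mx_one, cD_one one_norm]
  choose r hr using hrep
  let W : C → {w // w ∈ FT K n} := fun h => ⟨w'.map (lnU h.1.1), map_mem_FT h.2 hw'⟩
  have hW : ∀ h : C, w'.map (lnU (r (W h)).1.1) = w'.map (lnU h.1.1) := fun h => hr (W h) ⟨h, rfl⟩
  let g : C → GU K n := fun h => (r (W h)).1.1⁻¹ * h.1.1
  have hg1 : ∀ h, ∀ R ∈ w', lnU (g h) R = R := by
    intro h R hR
    have h1 : lnU (r (W h)).1.1 R = lnU h.1.1 R := List.map_inj_left.1 (hW h) R hR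
    show lnU ((r (W h)).1.1⁻¹ * h.1.1) R = R
    rw [lnU_mul, ← h1, lnU_inv]
  have hg2 : ∀ h, cD 1 (g h).1 = (g h).1 := by
    intro h
    show cD 1 (((r (W h)).1.1⁻¹ * h.1.1 : GU K n)).1 = _
    have e1 : cD 1 (r (W h)).1.1.1 = (r (W h)).1.1.1 := (r (W h)).2
    have e2 : cD 1 h.1.1.1 = h.1.1.1 := h.2
    rw [gu_mul, gu_inv, cD_mul one_norm, cD_star, e1, e2]
  have hpm : ∀ h, ∀ R ∈ w', (g h).1 * R.1 = R.1 ∨ (g h).1 * R.1 = -R.1 := by
    intro h R hR
    obtain ⟨z, hz, hz0, hRz⟩ := FT_vec hF hw' hR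
    exact fix_pm (hg2 h) hz hz0 hRz (hg1 h R hR)
  have hlen : w'.length = n := FT_len hw'
  have hcard : Nat.card ({w // w ∈ FT K n} × (Fin w'.length → Bool)) =
      2 ^ n * (FT K n).card := by
    rw [Nat.card_prod, Nat.card_eq_fintype_card, Fintype.card_coe, Nat.card_eq_fintype_card,
      Fintype.card_fun, Fintype.card_bool, Fintype.card_fin, mul_comm, hlen]
  rw [← hcard]
  refine Nat.card_le_card_of_injective
    (fun h : C => (W h, fun i => decide ((g h).1 * (w'.get i).1 = (w'.get i).1))) ?_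
  intro h h' e
  have e1 : W h = W h' := congrArg Prod.fst e
  have e2 := congrArg Prod.snd e
  have e3 : g h = g h' := by
    have key : ∀ R ∈ w', (g h).1 * R.1 = (g h').1 * R.1 := by
      intro R hR
      obtain ⟨i, hi, rfl⟩ := List.getElem_of_mem hR
      have h3 := congrFun e2 ⟨i, hi⟩
      simp only [decide_eq_decide] at h3
      change ((g h).1 * (w'[i]).1 = (w'[i]).1 ↔ (g h').1 * (w'[i]).1 = (w'[i]).1) at h3
      rcases hpm h _ hR with h4 | h4
      · rw [h4, h3.1 h4]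
      · rcases hpm h' _ hR with h5 | h5
        · rw [h5, h3.2 h5]
        · rw [h4, h5]
    have h4 := mul_sm_congr w' key
    rw [H387.sm_eq_one (FT_sub hw'), mul_one, mul_one] at h4
    exact Subtype.ext h4
  have e4 : h.1.1 = h'.1.1 := by
    have h3 : (r (W h)).1.1⁻¹ * h.1.1 = (r (W h')).1.1⁻¹ * h'.1.1 := e3
    rw [e1] at h3
    exact mul_left_cancel h3
  exact Subtype.ext (Subtype.ext e4)

/-- the real elements of `SU` up to scalars -/
theorem card_X_le {m : ℕ} (hF : Fld K q) (hne : (FT K (m + 1)).Nonempty) :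
    Nat.card {h : H38.SU K (m + 1) // ∃ a : K, cD 1 (mx h) = a • mx h} ≤
      (m + 1).gcd (q + 1) * (2 ^ (m + 1) * (FT K (m + 1)).card) := by
  have hfin1 : Finite (Matrix (Fin (m + 1)) (Fin (m + 1)) K) :=
    inferInstanceAs (Finite (Fin (m + 1) → Fin (m + 1) → K))
  have hfin2 : Finite (unitaryGroup (Fin (m + 1)) K) := Subtype.finite
  set X := {h : H38.SU K (m + 1) // ∃ a : K, cD 1 (mx h) = a • mx h} with hX
  set C := {h : H38.SU K (m + 1) // cD 1 (mx h) = mx h} with hC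
  let Z : Set K := {c : K | c ^ ((m + 1).gcd (q + 1)) = 1}
  have hZ : Nat.card Z ≤ (m + 1).gcd (q + 1) :=
    H687.card_roots_le (Nat.gcd_pos_of_pos_left _ (Nat.succ_pos m))
  choose a ha using fun h : X => h.2
  have haZ : ∀ h, a h ∈ Z := by
    intro h
    obtain ⟨h1, h2⟩ := scal_facts one_norm (Nat.succ_pos m) (ha h)
    have h3 : (a h) ^ (q + 1) = 1 := by rw [pow_succ, ← hF.2.2, mul_comm]; exact h2
    exact pow_gcd_eq_one.2 ⟨h1, h3⟩
  have hrep : ∀ z : K, ∃ r : X, (∃ g : X, a g = z) → a r = z := by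
    intro z
    by_cases h : ∃ g : X, a g = z
    · obtain ⟨g, hg⟩ := h
      exact ⟨g, fun _ => hg⟩
    · exact ⟨⟨1, 1, by rw [mx_one, cD_one one_norm, one_smul]⟩, fun h' => absurd h' h⟩
  choose r hr using hrep
  have hra : ∀ h : X, a (r (a h)) = a h := fun h => hr _ ⟨h, rfl⟩
  have hc : ∀ h : X, cD 1 (mx (h.1 * (r (a h)).1⁻¹)) = mx (h.1 * (r (a h)).1⁻¹) := by
    intro h
    rw [mx_mul, mx_inv, cD_mul one_norm, cD_star, ha h, ha (r (a h)), hra, star_smul,
      smul_mul_smul_comm, (scal_facts one_norm (Nat.succ_pos m) (ha h)).2, one_smul]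
  calc Nat.card X ≤ Nat.card (Z × C) := by
        refine Nat.card_le_card_of_injective
          (fun h : X => ((⟨a h, haZ h⟩ : Z), (⟨h.1 * (r (a h)).1⁻¹, hc h⟩ : C))) ?_
        intro h h' e
        have e1 : a h = a h' := congrArg (fun x : Z × C => x.1.1) e
        have e2 : h.1 * (r (a h)).1⁻¹ = h'.1 * (r (a h')).1⁻¹ :=
          congrArg (fun x : Z × C => x.2.1) e
        rw [e1] at e2
        exact Subtype.ext (mul_right_cancel e2)
    _ = Nat.card Z * Nat.card C := Nat.card_prod _ _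
    _ ≤ _ := Nat.mul_le_mul hZ (card_C_le hF hne)

lemma hf_single (i j : Fin n) : hf (Pi.single i (1 : K)) (Pi.single j (1 : K)) =
    if i = j then 1 else 0 := by
  unfold hf
  rw [dotProduct_single, mul_one, Pi.star_apply]
  by_cases h : i = j
  · subst h; simp
  · rw [if_neg h, Pi.single_eq_of_ne (fun h' => h h'.symm), star_zero]

lemma Fx_single (i : Fin n) : Fx 1 (Pi.single i (1 : K)) := by
  unfold Fx
  rw [Da_one, one_mulVec, H829.EO.star_single]

lemma E1_pr (i : Fin n) : (H38.E1 i : Ln K n).1 = pr (Pi.single i (1 : K)) := by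
  rw [pr, hf_single, if_pos rfl, inv_one, one_smul, H38.vec_e1]
  rfl

/-- there are such frames -/
theorem FT_nonempty (hF : Fld K q) (m : ℕ) : (FT K (m + 2)).Nonempty := by
  have h2 : (2 : K) ≠ 0 := by
    intro h
    have hodd : Odd (Nat.card K) := by rw [hF.2.1]; exact hF.1.pow
    exact two_ne_of_odd hodd h
  have hcard : Fintype.card (fx K) = q := by
    rw [← Nat.card_eq_fintype_card]
    exact H986.St.card_F0 hF.2.1 hF.2.2
  have hch : ringChar (fx K) ≠ 2 := by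
    intro h
    apply h2
    have h3 := ringChar.Nat.cast_ringChar (R := fx K)
    rw [h] at h3
    have h5 : (2 : fx K) = 0 := by exact_mod_cast h3
    have h4 := congrArg (fx K).subtype h5
    rwa [map_ofNat, map_zero] at h4
  obtain ⟨ν, hν⟩ := FiniteField.exists_nonsquare hch
  obtain ⟨c, d, hcd⟩ := FiniteField.exists_root_sum_quadratic (R := fx K)
    (f := Polynomial.X ^ 2) (g := Polynomial.X ^ 2 - Polynomial.C ν)
    (Polynomial.degree_X_pow 2) (Polynomial.degree_X_pow_sub_C (by norm_num) ν)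
    (by rw [hcard]; exact Nat.odd_iff.1 hF.1)
  have hcd : c ^ 2 + d ^ 2 = ν := by
    simp only [Polynomial.eval_pow, Polynomial.eval_X, Polynomial.eval_sub, Polynomial.eval_C] at hcd
    linear_combination hcd
  have hν0 : ν ≠ 0 := by
    rintro rfl
    exact hν ⟨0, by simp⟩
  have hν0' : (ν : K) ≠ 0 := fun h => hν0 (Subtype.ext h)
  set a : Fin (m + 2) → K := Pi.single (Fin.last m).castSucc (1 : K) with hadef
  set b : Fin (m + 2) → K := Pi.single (Fin.last (m + 1)) (1 : K) with hbdef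
  have haa : hf a a = ((1 : fx K) : K) := by rw [hadef, hf_single, if_pos rfl]; rfl
  have hbb : hf b b = ((1 : fx K) : K) * ((1 : fx K) : K) := by
    rw [hbdef, hf_single, if_pos rfl]
    show (1 : K) = 1 * 1
    ring
  have hab : hf a b = 0 := by
    rw [hadef, hbdef, hf_single, if_neg (Fin.castSucc_lt_last _).ne]
  have hD : Dv (1 : fx K) (c, d) = ν := by
    unfold Dv
    rw [one_mul]
    exact hcd
  obtain ⟨f1, f2, f3⟩ := z_facts (M := 1) (N := 1) haa hbb hab (c, d)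
  rw [hD, show ((1 : fx K) : K) = 1 from rfl, one_mul] at f1 f2
  rw [one_mul] at f2
  obtain ⟨P, hP⟩ := exists_letter hF (z := z1 a b (c, d)) (by rw [f1]; exact hν0')
  obtain ⟨Q, hQ⟩ := exists_letter hF (z := z2 1 a b (c, d)) (by rw [f2]; exact hν0')
  set v : List (Ln K (m + 2)) :=
    List.ofFn (fun i : Fin m => (H38.E1 i.castSucc.castSucc : Ln K (m + 2))) with hv
  have hw0 : H38.w0 K (m + 2) = v ++ ([H38.E1 (Fin.last m).castSucc, H38.E1 (Fin.last (m + 1))] ++ []) := by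
    unfold H38.w0
    rw [List.ofFn_succ_last, List.ofFn_succ_last]
    simp [hv]
  have hfr := H38.w0_mem (K := K) (n := m + 2)
  rw [hw0] at hfr
  refine ⟨v ++ [P, Q], mem_FT.2 ⟨?_, ?_, ?_, ?_⟩⟩
  · have h5 := fr_replace (g' := [P, Q]) hfr (orth_two.2 ?_) ?_
    · simpa using h5
    · rw [hP, hQ]
      exact (pr_mul_eq_zero (by rw [f1]; exact hν0') (by rw [f2]; exact hν0')).2 f3
    · rw [sm_two, sm_two, hP, hQ, E1_pr, E1_pr]
      exact z_sum (M := 1) (N := 1) one_ne_zero one_ne_zero haa hbb hab (by rw [hD]; exact hν0)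
  · intro R hR
    obtain ⟨i, rfl⟩ := List.mem_ofFn.1 hR
    exact H281EL.L1.of_vec (Fx_single _) (by rw [hf_single, if_pos rfl]) (E1_pr _)
  · exact Tl.of_vec (H387E7.Fx.z1 (Fx_single _) (Fx_single _) (c, d)) f1 hν hP
  · exact Tl.of_vec (H387E7.Fx.z2 (Fx_single _) (Fx_single _) 1 (c, d)) f2 hν hQ

/-- all orders of the frames -/
def FTp (K : Type u) [Field K] [Fintype K] [StarRing K] (n : ℕ) : Finset (List (Ln K n)) :=
  (Fr K n).filter fun w => ∃ w1 ∈ FT K n, w1.Perm w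

lemma mem_FTp {w : List (Ln K n)} : w ∈ FTp K n ↔ w ∈ Fr K n ∧ ∃ w1 ∈ FT K n, w1.Perm w := by
  unfold FTp
  rw [Finset.mem_filter]

/-- the letters are fixed -/
lemma FT_fix {w : List (Ln K n)} (hw : w ∈ FT K n) {R : Ln K n} (hR : R ∈ w) :
    R.1.map star = R.1 := by
  unfold FT at hw
  rw [Finset.mem_filter] at hw
  obtain ⟨h1, v, P, Q, rfl, h3, h4, h5⟩ := hw
  rw [← cD_one_eq]
  rw [List.mem_append, List.mem_cons, List.mem_singleton] at hR
  rcases hR with hR | rfl | rfl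
  · exact H727.EC.L1.fix (h3 R hR)
  · exact h4.1
  · exact h5.1

/-- **THE COUNT for the trivial discriminant**, all odd `q ≥ 7`, all `n ≥ 3` -/
theorem scntN (hF : Fld K q) (hq7 : 7 ≤ q) (hn : 3 ≤ n) {σ : K ≃+* K} (hσ : ∀ x, σ x = star x) :
    SCntN (H38.SU K n) σ := by
  have h2 : (2 : K) ≠ 0 := by
    intro h
    have hodd : Odd (Nat.card K) := by rw [hF.2.1]; exact hF.1.pow
    exact two_ne_of_odd hodd h
  obtain ⟨α, hα⟩ := exists_NSq (K := K) h2
  obtain ⟨-, hO2⟩ := H829.EO.stmtEO K q hF n (by omega) α hα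
  have hgood := (H387.stmtM2a K q (by omega) hF.2.1 hF.2.2 n).1
  have hσm : ∀ M : Matrix (Fin n) (Fin n) K, M.map σ = M.map star := by
    intro M
    ext i j
    rw [Matrix.map_apply, Matrix.map_apply, hσ]
  refine ⟨FTp K n, Finset.filter_subset _ _, ?_, ?_, ?_⟩
  · intro w hw w' hww
    obtain ⟨h1, w1, h3, h4⟩ := mem_FTp.1 hw
    exact mem_FTp.2 ⟨hgood.perm w h1 w' hww, w1, h3, h4.trans hww⟩
  · intro w hw P hP
    obtain ⟨h1, w1, h3, h4⟩ := mem_FTp.1 hw
    rw [hσm]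
    exact FT_fix h3 (h4.mem_iff.2 hP)
  · obtain ⟨k, rfl⟩ : ∃ k, n = k + 1 := ⟨n - 1, by omega⟩
    have hne : (FT K (k + 1)).Nonempty := by
      obtain ⟨j, rfl⟩ : ∃ j, k = j + 1 := ⟨k - 1, by omega⟩
      exact FT_nonempty hF j
    have ht2 : (FT K (k + 1)).card ≤ 2 ^ k * AS.t (FTp K (k + 1)) := by
      refine H387E7.card_le_t (fun w hw => mem_FTp.2 ⟨FT_sub hw, w, hw, List.Perm.refl _⟩)
        (fun P => ¬ L1 1 P) (by omega) (lgf hF hq7) ?_
      intro w x y hw
      obtain ⟨-, h3, h4, h5⟩ := mem_FT.1 hw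
      exact ⟨h4.2, h5.2, fun a ha => not_not.2 (h3 a ha)⟩
    have hcard : 0 < (FT K (k + 1)).card := Finset.card_pos.2 hne
    have htpos : 0 < AS.t (FTp K (k + 1)) := by
      rcases Nat.eq_zero_or_pos (AS.t (FTp K (k + 1))) with h | h
      · rw [h, Nat.mul_zero] at ht2
        omega
      · exact h
    have hSU : 0 < Nat.card (H38.SU K (k + 1)) := Nat.card_pos
    have hFr : 0 < (Fr K (k + 1)).card := by
      rcases Nat.eq_zero_or_pos (Fr K (k + 1)).card with h | h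
      · rw [h, Nat.zero_mul] at hO2
        omega
      · exact h
    set N := Nat.card {h : H38.SU K (k + 1) // ∃ a : K, (mx h).map σ = a • mx h} with hN
    have hN' : N ≤ (k + 1).gcd (q + 1) * (2 ^ (k + 1) * (FT K (k + 1)).card) := by
      have e : N = Nat.card {h : H38.SU K (k + 1) // ∃ a : K, cD 1 (mx h) = a • mx h} := by
        rw [hN]
        congr 1
        refine congrArg _ ?_
        funext h
        rw [hσm, cD_one_eq]
      rw [e]
      exact card_X_le hF hne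
    have hnum : (2 : ℕ) ^ (k + 1) * 2 ^ k < (q + 1) ^ k := by
      have h1 : (8 : ℕ) ^ k ≤ (q + 1) ^ k := Nat.pow_le_pow_left (by omega) k
      refine lt_of_lt_of_le ?_ h1
      have e8 : (8 : ℕ) = 2 ^ 3 := by norm_num
      rw [← pow_add, e8, ← pow_mul]
      exact Nat.pow_lt_pow_right (by norm_num) (by omega)
    have hg : (k + 1).gcd (q + 1) ≤ k + 1 := Nat.gcd_le_left _ (by omega)
    rw [← hO2, Nat.add_sub_cancel]
    calc (Fr K (k + 1)).card * N
        ≤ (Fr K (k + 1)).card * ((k + 1) * (2 ^ (k + 1) * (2 ^ k * AS.t (FTp K (k + 1))))) :=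
          Nat.mul_le_mul_left _ (hN'.trans (Nat.mul_le_mul hg (Nat.mul_le_mul_left _ ht2)))
      _ = (k + 1) * ((Fr K (k + 1)).card * (2 ^ (k + 1) * 2 ^ k) * AS.t (FTp K (k + 1))) := by
          ring
      _ < (k + 1) * ((Fr K (k + 1)).card * (q + 1) ^ k * AS.t (FTp K (k + 1))) := by
          have h2 : (Fr K (k + 1)).card * (2 ^ (k + 1) * 2 ^ k) <
              (Fr K (k + 1)).card * (q + 1) ^ k := Nat.mul_lt_mul_of_pos_left hnum hFr
          exact Nat.mul_lt_mul_of_pos_left (Nat.mul_lt_mul_of_pos_right h2 htpos) (by omega)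

/-- all odd `q ≥ 7` -/
theorem evCnt (hF : Fld K q) (hq7 : 7 ≤ q) : EvCnt K :=
  fun n hn _ σ hσ _ _ => scntN hF hq7 (by omega) hσ

end real

/-- **E7** -/
theorem stmtE7 : StmtE7.{u} := fun K _ _ _ q hF _ hq => evCnt hF hq

/-- **E9** -/
theorem stmtE9 : StmtE9.{u} := fun K _ _ _ q hF _ hq => evCnt hF (by omega)

end

end Vale.Agent.P240.R2.H387E7
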