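import Vale.Agent.P240.R2.H387.TBig

/-!
Frames whose letters are fixed by a field automorphism (P240, R4 (a) of helper296).
-/

set_option autoImplicit false
set_option linter.unusedSectionVars false

open scoped Classical BigOperators
open Matrix

namespace Vale.Agent.P240.R2.H387

universe u

noncomputable section

variable {K : Type u} [Field K] [Fintype K] [StarRing K]

/-- the frames all of whose letters are fixed by `s` -/
def Fs (s : K ≃+* K) (n : ℕ) : Finset (List (AS.Ln K n)) :=
  (AS.Fr K n).filter (fun w => ∀ P ∈ w, P.1.map s = P.1)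

theorem mem_Fs {s : K ≃+* K} {n : ℕ} {w : List (AS.Ln K n)} :
    w ∈ Fs s n ↔ w ∈ AS.Fr K n ∧ ∀ P ∈ w, P.1.map s = P.1 := by
  simp [Fs]

theorem Fs_subset {s : K ≃+* K} {n : ℕ} : Fs s n ⊆ AS.Fr K n := Finset.filter_subset _ _

variable {s : K ≃+* K} {n : ℕ}

theorem hf_map (hc : ∀ x : K, s (star x) = star (s x)) (v w : Fin n → K) :
    s (hf v w) = hf (fun i => s (v i)) (fun i => s (w i)) := by
  rw [hf_def, hf_def, map_sum]
  exact Finset.sum_congr rfl fun i _ => by rw [map_mul, hc]

theorem pr_map (hc : ∀ x : K, s (star x) = star (s x)) (v : Fin n → K) :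
    (pr v).map s = pr (fun i => s (v i)) := by
  ext i j
  rw [Matrix.map_apply, pr_apply, pr_apply, map_mul, map_inv₀, hf_map hc, map_mul, hc]

/-- a fixed letter is the projection on a fixed vector -/
theorem exists_fixed (_hc : ∀ x : K, s (star x) = star (s x)) {P : AS.Ln K n}
    (hP : P.1.map s = P.1) :
    ∃ v : Fin n → K, (∀ i, s (v i) = v i) ∧ hf v v ≠ 0 ∧ P.1 = pr v := by
  obtain ⟨x, hx, hPx⟩ := P.2
  have hx1 : hf x x = 1 := hx
  have hx0 : ∃ j, x j ≠ 0 := by
    by_contra h
    push Not at h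
    have : x = 0 := funext h
    rw [this, hf_zero_left] at hx1
    exact zero_ne_one hx1
  obtain ⟨j, hj⟩ := hx0
  have hj' : star (x j) ≠ 0 := by simpa using hj
  refine ⟨star (x j) • x, ?_, ?_, ?_⟩
  · intro i
    have h1 := congrFun (congrFun hP i) j
    rw [Matrix.map_apply, hPx, vecMulVec_apply] at h1
    change s (star (x j) * x i) = star (x j) * x i
    rw [mul_comm (star (x j))]
    exact h1
  · rw [hf_smul_right, hf_smul_left, hx1]
    simp [hj]
  · rw [pr_smul hj', pr, hx1, inv_one, one_smul, hPx]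

/-- counting pairs in a given set -/
theorem card_le_of_slopes {x y : Fin n → K} (hx : hf x x ≠ 0) (hy : hf y y ≠ 0)
    (hxy : hf x y = 0) (C : Finset K) (S : Finset (AS.Ln K n × AS.Ln K n))
    (h0 : ∃ p ∈ S, p.1.1 = pr y)
    (hC : ∀ c ∈ C, hf x x + star c * c * hf y y ≠ 0 ∧ ∃ p ∈ S, p.1.1 = pr (x + c • y)) :
    C.card + 1 ≤ S.card := by
  rw [← Finset.card_insertNone]
  obtain ⟨p0, hp0, hp0'⟩ := h0
  let f : Option K → AS.Ln K n × AS.Ln K n := fun o => match o with
    | none => p0
    | some c => if h : ∃ p ∈ S, p.1.1 = pr (x + c • y) then h.choose else p0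
  have hf1 : ∀ c (h : ∃ p ∈ S, p.1.1 = pr (x + c • y)),
      f (some c) ∈ S ∧ (f (some c)).1.1 = pr (x + c • y) := by
    intro c h
    simp only [f, dif_pos h]
    exact h.choose_spec
  refine Finset.card_le_card_of_injOn f ?_ ?_
  · intro o ho
    rw [Finset.mem_coe, Finset.mem_insertNone] at ho
    rw [Finset.mem_coe]
    cases o with
    | none => exact hp0
    | some c => exact (hf1 c (hC c (ho c rfl)).2).1
  · intro o ho o' ho' hoo
    rw [Finset.mem_coe, Finset.mem_insertNone] at ho ho'
    cases o with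
    | none =>
      cases o' with
      | none => rfl
      | some c =>
        have h := hC c (ho' c rfl)
        have h2 := (hf1 c h.2).2
        rw [← hoo] at h2
        change p0.1.1 = _ at h2
        rw [hp0'] at h2
        exact absurd h2.symm (pr_pair_ne hx hxy h.1)
    | some c =>
      have h := hC c (ho c rfl)
      cases o' with
      | none =>
        have h2 := (hf1 c h.2).2
        rw [hoo] at h2
        change p0.1.1 = _ at h2
        rw [hp0'] at h2
        exact absurd h2.symm (pr_pair_ne hx hxy h.1)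
      | some c' =>
        have h' := hC c' (ho' c' rfl)
        have h2 := (hf1 c h.2).2
        rw [hoo, (hf1 c' h'.2).2] at h2
        rw [pr_pair_inj hx hy hxy h.1 h'.1 h2.symm]

/-- the fixed frames form a good system -/
theorem goodFs (hc : ∀ x : K, s (star x) = star (s x))
    (hln : ∀ e : K, e ≠ 0 → s e = e → star e = e → ∃ a : K, star a * a * e = 1) {b : ℕ}
    (hb : ∀ d1 d2 : K, d1 ≠ 0 → d2 ≠ 0 → s d1 = d1 → s d2 = d2 → star d1 = d1 → star d2 = d2 →
      b ≤ (Finset.univ.filter (fun c : K => s c = c ∧ d1 + star c * c * d2 ≠ 0)).card + 1) :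
    H775.B.Good b n (Fs s n) where
  len w hw := ((AS.mem_Fr K).1 (mem_Fs.1 hw).1).1
  nodup w hw := List.Nodup.of_map _ (mem_Fr_iff.1 (mem_Fs.1 hw).1).1.nodup
  perm w w' hp hw := mem_Fs.2 ⟨mem_Fr_iff.2 ((mem_Fr_iff.1 (mem_Fs.1 hw).1).perm (hp.map _)),
    fun P hP => (mem_Fs.1 hw).2 P (hp.mem_iff.2 hP)⟩
  rect u u' g g' _ h1 h2 h3 := by
    obtain ⟨h1, h1'⟩ := mem_Fs.1 h1
    obtain ⟨h2, h2'⟩ := mem_Fs.1 h2
    obtain ⟨h3, h3'⟩ := mem_Fs.1 h3
    refine mem_Fs.2 ⟨?_, ?_⟩
    · rw [mem_Fr_iff, List.map_append] at h1 h2 h3 ⊢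
      exact IsFr.rect h1 h2 h3
    · intro P hP
      rcases List.mem_append.1 hP with hP | hP
      · exact h3' P (List.mem_append_left _ hP)
      · exact h2' P (List.mem_append_right _ hP)
  pairs u x y h := by
    obtain ⟨h, hfix⟩ := mem_Fs.1 h
    have h1 := mem_Fr_iff.1 h
    rw [List.map_append] at h1
    have h2 := (OW.append.1 h1.1).2.1
    have h3 : x.1 * y.1 = 0 := (OW.cons.1 h2).1 (toL y) (by simp)
    obtain ⟨v, hv, hv0, hxv⟩ := exists_fixed hc (hfix x (by simp))
    obtain ⟨w, hw, hw0, hyw⟩ := exists_fixed hc (hfix y (by simp))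
    rw [hxv, hyw] at h3
    have hvw := (pr_mul_eq_zero hv0 hw0).1 h3
    have hwv := hf_symm_zero hvw
    have e1 : s (hf v v) = hf v v := by
      rw [hf_map hc, show (fun i => s (v i)) = v from funext hv]
    have e2 : s (hf w w) = hf w w := by
      rw [hf_map hc, show (fun i => s (w i)) = w from funext hw]
    -- letters from fixed vectors
    have key : ∀ z : Fin n → K, (∀ i, s (z i) = z i) → hf z z ≠ 0 →
        ∃ P : AS.Ln K n, P.1 = pr z ∧ P.1.map s = P.1 := by
      intro z hz hz0
      obtain ⟨a, ha⟩ := hln _ hz0 (by rw [hf_map hc, show (fun i => s (z i)) = z from funext hz])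
        (hf_self_star z)
      have ha0 : a ≠ 0 := by
        rintro rfl
        rw [mul_zero, zero_mul] at ha
        exact zero_ne_one ha
      refine ⟨ofL ⟨pr z, isLn_pr hz0 (by rw [Set.mem_singleton_iff]; exact ha) ha0⟩, rfl, ?_⟩
      change (pr z).map s = pr z
      rw [pr_map hc, show (fun i => s (z i)) = z from funext hz]
    refine (hb _ _ hv0 hw0 e1 e2 (hf_self_star v) (hf_self_star w)).trans ?_
    refine card_le_of_slopes hv0 hw0 hvw _ _ ?_ ?_
    · refine ⟨(y, x), ?_, hyw⟩
      rw [Finset.mem_filter]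
      refine ⟨Finset.mem_univ _, mem_Fs.2 ⟨?_, ?_⟩⟩
      · rw [mem_Fr_iff, List.map_append]
        refine h1.replace ?_ ?_
        · refine OW.cons.2 ⟨fun Q hQ => ?_, OW.cons.2 ⟨fun Q hQ => by simp at hQ,
            List.Pairwise.nil⟩⟩
          rw [List.mem_singleton.1 hQ]
          change y.1 * x.1 = 0
          rw [hxv, hyw]
          exact (pr_mul_eq_zero hw0 hv0).2 hwv
        · simp [add_comm]
      · intro P hP
        apply hfix P
        simp only [List.mem_append, List.mem_cons, List.not_mem_nil, or_false] at hP ⊢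
        tauto
    · intro c hcc
      obtain ⟨hc1, hc2⟩ := (Finset.mem_filter.1 hcc).2
      refine ⟨hc2, ?_⟩
      have hp := pair_facts hvw c
      have hn1 : hf (v + c • w) (v + c • w) ≠ 0 := by rw [hp.1]; exact hc2
      have hn2 : hf (-(star c * hf w w) • v + hf v v • w) (-(star c * hf w w) • v + hf v v • w)
          ≠ 0 := by
        rw [hp.2.1]; exact mul_ne_zero (mul_ne_zero hv0 hw0) hc2
      obtain ⟨P, hP, hP'⟩ := key (v + c • w) (fun i => by
        simp only [Pi.add_apply, Pi.smul_apply, smul_eq_mul, map_add, map_mul, hv, hw, hc1]) hn1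
      obtain ⟨Q, hQ, hQ'⟩ := key (-(star c * hf w w) • v + hf v v • w) (fun i => by
        simp only [Pi.add_apply, Pi.smul_apply, smul_eq_mul, map_add, map_mul, map_neg, hv, hw,
          hc, hc1, e1, e2]) hn2
      refine ⟨(P, Q), ?_, hP⟩
      rw [Finset.mem_filter]
      refine ⟨Finset.mem_univ _, mem_Fs.2 ⟨?_, ?_⟩⟩
      · rw [mem_Fr_iff, List.map_append]
        refine h1.replace ?_ ?_
        · refine OW.cons.2 ⟨fun R hR => ?_, OW.cons.2 ⟨fun R hR => by simp at hR,
            List.Pairwise.nil⟩⟩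
          rw [List.mem_singleton.1 hR]
          change P.1 * Q.1 = 0
          rw [hP, hQ]
          exact (pr_mul_eq_zero hn1 hn2).2 hp.2.2
        · have := pair_sum hv0 hw0 hvw c hc2
          simp only [List.map_cons, List.map_nil, sm_cons, sm_nil, add_zero, toL_val]
          rw [hP, hQ, hxv, hyw]
          exact this
      · intro R hR
        simp only [List.mem_append, List.mem_cons, List.not_mem_nil, or_false] at hR
        rcases hR with hR | rfl | rfl
        · exact hfix R (by simp [hR])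
        · exact hP'
        · exact hQ'

/-- the fixed frames in the class of a word -/
theorem mem_cls_Fs {N : ℕ} {g g' : List (AS.Ln K N)} (hne : ∃ w, w ++ g ∈ Fs s N) :
    g' ∈ AS.cls (Fs s N) g ↔ g'.length = g.length ∧ AS.Orth g' ∧ AS.sm g' = AS.sm g ∧
      ∀ P ∈ g', P.1.map s = P.1 := by
  rw [AS.mem_cls]
  obtain ⟨w, hw⟩ := hne
  obtain ⟨hw, hwf⟩ := mem_Fs.1 hw
  have hcl := fun g' => mem_cls_iff (g := g) (g' := g') ⟨w, hw⟩
  constructor
  · rintro ⟨h1, h2⟩
    have h3 : w ++ g' ∈ Fs s N := (h2 w).2 (mem_Fs.2 ⟨hw, hwf⟩)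
    obtain ⟨h4, h5⟩ := mem_Fs.1 h3
    have hw1 := mem_Fr_iff.1 hw
    have h4' := mem_Fr_iff.1 h4
    rw [List.map_append] at hw1 h4'
    refine ⟨h1, ?_, ?_, fun P hP => h5 P (List.mem_append_right _ hP)⟩
    · rw [orth_iff]
      exact (OW.append.1 h4'.1).2.1
    · rw [← sm_toL, ← sm_toL]
      exact hw1.sm_eq h4'
  · rintro ⟨h1, h2, h3, h4⟩
    refine ⟨h1, fun v => ?_⟩
    have h5 := ((AS.mem_cls).1 ((hcl g').2 ⟨h1, h2, h3⟩)).2 v
    constructor
    · intro h6
      obtain ⟨h7, h8⟩ := mem_Fs.1 h6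
      refine mem_Fs.2 ⟨h5.1 h7, fun P hP => ?_⟩
      rcases List.mem_append.1 hP with hP | hP
      · exact h8 P (List.mem_append_left _ hP)
      · exact hwf P (List.mem_append_right _ hP)
    · intro h6
      obtain ⟨h7, h8⟩ := mem_Fs.1 h6
      refine mem_Fs.2 ⟨h5.2 h7, fun P hP => ?_⟩
      rcases List.mem_append.1 hP with hP | hP
      · exact h8 P (List.mem_append_left _ hP)
      · exact h4 P hP

/-- the standard frame is fixed -/
theorem Fs_nonempty (hc : ∀ x : K, s (star x) = star (s x)) : (Fs s n).Nonempty := by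
  have hl : ∀ i : Fin n, IsLn ({1} : Set K) (pr (Pi.single i (1 : K))) := fun i =>
    ⟨_, by rw [hf_single, if_pos rfl]; rfl, by rw [hf_single, if_pos rfl]; exact one_ne_zero,
      rfl⟩
  refine ⟨(Finset.univ : Finset (Fin n)).toList.map fun i => ofL ⟨_, hl i⟩, mem_Fs.2 ⟨?_, ?_⟩⟩
  · rw [AS.mem_Fr]
    refine ⟨by rw [List.length_map, Finset.length_toList, Finset.card_univ, Fintype.card_fin], ?_⟩
    unfold AS.Orth
    rw [List.pairwise_map]
    refine (Finset.nodup_toList (Finset.univ : Finset (Fin n))).imp ?_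
    intro i j hij
    have h2 : hf (Pi.single i (1 : K)) (Pi.single i 1) ≠ 0 := by
      rw [hf_single, if_pos rfl]; exact one_ne_zero
    have h3 : hf (Pi.single j (1 : K)) (Pi.single j 1) ≠ 0 := by
      rw [hf_single, if_pos rfl]; exact one_ne_zero
    exact (pr_mul_eq_zero h2 h3).2 (by rw [hf_single, if_neg hij])
  · intro P hP
    rw [List.mem_map] at hP
    obtain ⟨i, _, rfl⟩ := hP
    change (pr (Pi.single i (1 : K))).map s = pr (Pi.single i (1 : K))
    rw [pr_map hc]
    congr 1
    funext j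
    by_cases hij : j = i
    · subst hij; simp
    · simp [Pi.single_eq_of_ne hij]

/-- at least `q` fixed elements -/
theorem le_card_fixed {q : ℕ} (hK : Fintype.card K = q ^ 2) :
    q ≤ (Finset.univ.filter (fun c : K => c ^ q = c)).card := by
  have hq : 2 ≤ q := by
    have h1 := Fintype.one_lt_card (α := K)
    rw [hK] at h1
    by_contra h2
    have h3 : q = 0 ∨ q = 1 := by omega
    rcases h3 with rfl | rfl <;> simp at h1
  set A : Finset K := Finset.univ.filter (fun c : K => c ≠ 0) with hA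
  have hAc : A.card = q ^ 2 - 1 := by
    rw [hA, Finset.filter_ne', Finset.card_erase_of_mem (Finset.mem_univ _), Finset.card_univ, hK]
  set B : Finset K := A.image (fun c => c ^ (q + 1)) with hB
  have h1 : A.card ≤ (q + 1) * B.card := by
    refine Finset.card_le_mul_card_image A (q + 1) ?_
    intro b _
    refine (Finset.card_le_card ?_).trans (card_norm_le q b)
    intro c hc
    rw [Finset.mem_filter] at hc ⊢
    exact ⟨Finset.mem_univ _, hc.2⟩
  have h2 : insert (0 : K) B ⊆ Finset.univ.filter (fun c : K => c ^ q = c) := by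
    intro c hc
    rw [Finset.mem_filter]
    refine ⟨Finset.mem_univ _, ?_⟩
    rcases Finset.mem_insert.1 hc with rfl | hc
    · exact zero_pow (by omega)
    · obtain ⟨a, -, rfl⟩ := Finset.mem_image.1 hc
      have h3 : a ^ (q ^ 2) = a := by rw [← hK]; exact FiniteField.pow_card a
      calc (a ^ (q + 1)) ^ q = a ^ (q ^ 2) * a ^ q := by ring
        _ = a * a ^ q := by rw [h3]
        _ = a ^ (q + 1) := by ring
  have h0 : (0 : K) ∉ B := by
    intro h
    obtain ⟨a, ha, h⟩ := Finset.mem_image.1 h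
    exact (Finset.mem_filter.1 ha).2 (pow_eq_zero_iff (Nat.succ_ne_zero q) |>.1 h)
  have h3 := Finset.card_le_card h2
  rw [Finset.card_insert_of_notMem h0] at h3
  have h4 : (q - 1) * (q + 1) ≤ B.card * (q + 1) := by
    rw [hAc] at h1
    have h5 : q ^ 2 - 1 = (q - 1) * (q + 1) := by
      obtain ⟨r, rfl⟩ : ∃ r, q = r + 1 := ⟨q - 1, by omega⟩
      have : (r + 1) ^ 2 = (r + 1 + 1) * r + 1 := by ring
      rw [this]
      simp
      ring
    rw [← h5]
    linarith
  have h6 := Nat.le_of_mul_le_mul_right h4 (by omega)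
  omega

/-- R4 (a): trivial star, `|K| = q₀²`, `s x = x ^ q₀` -/
theorem good_Fs_triv {q : ℕ} (hs : ∀ x : K, star x = x) (hodd : Odd q)
    (hK : Nat.card K = q ^ 2) (hsq : ∀ x : K, s x = x ^ q) (n : ℕ) :
    H775.B.Good (q - 1) n (Fs s n) := by
  rw [Nat.card_eq_fintype_card] at hK
  refine goodFs (fun x => by rw [hs, hs]) ?_ ?_
  · intro e he h1 _
    rw [hsq] at h1
    obtain ⟨a, ha⟩ := exists_norm hK he h1
    have h2 : a ≠ 0 := by
      rintro rfl
      rw [zero_pow (Nat.succ_ne_zero q)] at ha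
      exact he ha.symm
    obtain ⟨k, hk⟩ := hodd
    refine ⟨(a ^ (k + 1))⁻¹, ?_⟩
    have h3 : a ^ (k + 1) ≠ 0 := pow_ne_zero _ h2
    rw [hs, ← ha, show q + 1 = (k + 1) + (k + 1) by omega, pow_add a (k + 1) (k + 1),
      mul_mul_mul_comm, inv_mul_cancel₀ h3, one_mul]
  · intro d1 d2 hd1 hd2 _ _ _ _
    have h1 := le_card_fixed hK
    have h2 : (Finset.univ.filter (fun c : K => c ^ q = c)).card ≤
        (Finset.univ.filter (fun c : K => s c = c ∧ d1 + star c * c * d2 ≠ 0)).card +
          (Finset.univ.filter (fun c : K => c ^ (1 + 1) = -(d1 / d2))).card := by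
      rw [← Finset.card_union_add_card_inter]
      refine le_trans (Finset.card_le_card ?_) (Nat.le_add_right _ _)
      intro c hc
      rw [Finset.mem_filter] at hc
      rw [Finset.mem_union, Finset.mem_filter, Finset.mem_filter]
      by_cases h3 : d1 + star c * c * d2 = 0
      · right
        refine ⟨Finset.mem_univ _, ?_⟩
        rw [hs] at h3
        field_simp
        linear_combination h3
      · left
        exact ⟨Finset.mem_univ _, by rw [hsq]; exact hc.2, h3⟩
    have h4 := card_norm_le (K := K) 1 (-(d1 / d2))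
    omega

end

end Vale.Agent.P240.R2.H387
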