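import Vale.Agent.P240.R2.H387.Herm

/-! Frames form a good system (P240). -/

open scoped BigOperators
open Matrix
open Vale.Agent.P240.R2.H775 (Good quot cls mem_quot mem_cls quot_quot)

namespace Vale.Agent.P240.R2.H387

variable {K : Type*} [Field K] [StarRing K] {ι : Type*} [Fintype ι] [DecidableEq ι]
  {T : Set K}

section pairs

omit [DecidableEq ι]

theorem hf_self_star (x : ι → K) : star (hf x x) = hf x x := hf_star x x

/-- the second orthogonal basis of a plane -/
theorem pair_facts {x y : ι → K} (hxy : hf x y = 0) (c : K) :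
    hf (x + c • y) (x + c • y) = hf x x + star c * c * hf y y ∧
    hf (-(star c * hf y y) • x + hf x x • y) (-(star c * hf y y) • x + hf x x • y) =
      hf x x * hf y y * (hf x x + star c * c * hf y y) ∧
    hf (x + c • y) (-(star c * hf y y) • x + hf x x • y) = 0 := by
  have hyx := hf_symm_zero hxy
  refine ⟨?_, ?_, ?_⟩
  · simp only [hf_add_right, hf_add_left, hf_smul_right, hf_smul_left, hxy, hyx]
    ring
  · simp only [hf_add_right, hf_add_left, hf_smul_right, hf_smul_left, hxy, hyx, star_neg,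
      star_mul', star_star, hf_self_star]
    ring
  · simp only [hf_add_right, hf_add_left, hf_smul_right, hf_smul_left, hxy, hyx]
    ring

theorem pair_sum {x y : ι → K} (hx : hf x x ≠ 0) (hy : hf y y ≠ 0) (hxy : hf x y = 0) (c : K)
    (he : hf x x + star c * c * hf y y ≠ 0) :
    pr (x + c • y) + pr (-(star c * hf y y) • x + hf x x • y) = pr x + pr y := by
  obtain ⟨h1, h2, h3⟩ := pair_facts hxy c
  ext i j
  rw [Matrix.add_apply, Matrix.add_apply, pr_apply, pr_apply, pr_apply, pr_apply, h1, h2]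
  simp only [Pi.add_apply, Pi.smul_apply, smul_eq_mul, star_add, star_mul', star_neg, star_star,
    hf_self_star]
  field_simp
  ring

theorem pr_pair_inj {x y : ι → K} (hx : hf x x ≠ 0) (hy : hf y y ≠ 0) (hxy : hf x y = 0)
    {c c' : K} (he : hf x x + star c * c * hf y y ≠ 0)
    (_he' : hf x x + star c' * c' * hf y y ≠ 0) (h : pr (x + c • y) = pr (x + c' • y)) :
    c = c' := by
  have hyx := hf_symm_zero hxy
  have h1 : ∀ c : K, hf x (pr (x + c • y) *ᵥ x) =
      (hf x x + star c * c * hf y y)⁻¹ * hf x x * hf x x := by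
    intro c
    rw [pr_mulVec, (pair_facts hxy c).1]
    simp only [hf_add_right, hf_add_left, hf_smul_right, hf_smul_left, hxy, hyx]
    ring
  have h2 : ∀ c : K, hf y (pr (x + c • y) *ᵥ x) =
      (hf x x + star c * c * hf y y)⁻¹ * hf x x * hf y y * c := by
    intro c
    rw [pr_mulVec, (pair_facts hxy c).1]
    simp only [hf_add_right, hf_add_left, hf_smul_right, hf_smul_left, hxy, hyx]
    ring
  have h3 := h1 c
  have h4 := h2 c
  rw [h, h1 c'] at h3
  rw [h, h2 c'] at h4
  have h5 : (hf x x + star c' * c' * hf y y)⁻¹ = (hf x x + star c * c * hf y y)⁻¹ :=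
    mul_right_cancel₀ hx (mul_right_cancel₀ hx h3)
  rw [h5] at h4
  exact (mul_left_cancel₀ (mul_ne_zero (mul_ne_zero (inv_ne_zero he) hx) hy) h4).symm

theorem pr_pair_ne {x y : ι → K} (hx : hf x x ≠ 0) (hxy : hf x y = 0)
    {c : K} (he : hf x x + star c * c * hf y y ≠ 0) : pr (x + c • y) ≠ pr y := by
  intro h
  have hyx := hf_symm_zero hxy
  have h1 : hf x (pr (x + c • y) *ᵥ x) =
      (hf x x + star c * c * hf y y)⁻¹ * hf x x * hf x x := by
    rw [pr_mulVec, (pair_facts hxy c).1]
    simp only [hf_add_right, hf_add_left, hf_smul_right, hf_smul_left, hxy, hyx]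
    ring
  rw [h, pr_mulVec, hyx, mul_zero, zero_smul, hf_zero_right] at h1
  exact mul_ne_zero (mul_ne_zero (inv_ne_zero he) hx) hx h1.symm

end pairs

variable [Fintype K] [DecidableEq K]

open Classical in
/-- the ordered orthogonal pairs with the same span as `(a, b)` -/
noncomputable def pairs (a b : Ln T ι) : Finset (Ln T ι × Ln T ι) :=
  Finset.univ.filter (fun p => p.1.1 * p.2.1 = 0 ∧ p.1.1 + p.2.1 = a.1 + b.1)

theorem mem_pairs {a b : Ln T ι} {p : Ln T ι × Ln T ι} :
    p ∈ pairs a b ↔ p.1.1 * p.2.1 = 0 ∧ p.1.1 + p.2.1 = a.1 + b.1 := by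
  classical
  simp [pairs]

/-- lower bound for the number of pairs in a plane -/
theorem card_pairs {x y : ι → K} (hx : hf x x ≠ 0) (hy : hf y y ≠ 0) (hxy : hf x y = 0)
    (ha : IsLn T (pr x)) (hb : IsLn T (pr y)) (C : Finset K)
    (hC : ∀ c ∈ C, hf x x + star c * c * hf y y ≠ 0 ∧ IsLn T (pr (x + c • y)) ∧
      IsLn T (pr (-(star c * hf y y) • x + hf x x • y))) :
    C.card + 1 ≤ (pairs (⟨pr x, ha⟩ : Ln T ι) ⟨pr y, hb⟩).card := by
  classical
  rw [← Finset.card_insertNone]
  let f : Option K → Ln T ι × Ln T ι := fun o => match o with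
    | none => (⟨pr y, hb⟩, ⟨pr x, ha⟩)
    | some c => if h : IsLn T (pr (x + c • y)) ∧
        IsLn T (pr (-(star c * hf y y) • x + hf x x • y)) then (⟨_, h.1⟩, ⟨_, h.2⟩)
      else (⟨pr y, hb⟩, ⟨pr x, ha⟩)
  refine Finset.card_le_card_of_injOn f ?_ ?_
  · intro o ho
    rw [Finset.mem_coe, Finset.mem_insertNone] at ho
    rw [Finset.mem_coe, mem_pairs]
    cases o with
    | none =>
      refine ⟨?_, add_comm _ _⟩
      exact (pr_mul_eq_zero hy hx).2 (hf_symm_zero hxy)
    | some c =>
      have h := hC c (ho c rfl)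
      have h2 := pair_facts hxy c
      simp only [f, dif_pos h.2]
      refine ⟨?_, pair_sum hx hy hxy c h.1⟩
      refine (pr_mul_eq_zero (by rw [h2.1]; exact h.1) ?_).2 h2.2.2
      rw [h2.2.1]
      exact mul_ne_zero (mul_ne_zero hx hy) h.1
  · intro o ho o' ho' hoo
    rw [Finset.mem_coe, Finset.mem_insertNone] at ho ho'
    cases o with
    | none =>
      cases o' with
      | none => rfl
      | some c =>
        have h := hC c (ho' c rfl)
        simp only [f, dif_pos h.2, Prod.mk.injEq, Subtype.mk.injEq] at hoo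
        exact absurd hoo.1.symm (pr_pair_ne hx hxy h.1)
    | some c =>
      have h := hC c (ho c rfl)
      cases o' with
      | none =>
        simp only [f, dif_pos h.2, Prod.mk.injEq, Subtype.mk.injEq] at hoo
        exact absurd hoo.1 (pr_pair_ne hx hxy h.1)
      | some c' =>
        have h' := hC c' (ho' c' rfl)
        simp only [f, dif_pos h.2, dif_pos h'.2, Prod.mk.injEq, Subtype.mk.injEq] at hoo
        rw [pr_pair_inj hx hy hxy h.1 h'.1 hoo.1]

/-- `Good` from the count in the planes -/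
theorem good_of_six (h6 : ∀ a b : Ln T ι, a.1 * b.1 = 0 → 6 ≤ (pairs a b).card) :
    Good (Fintype.card ι) (Fr T ι) where
  len w hw := (mem_Fr.1 hw).2
  nodup w hw := (mem_Fr.1 hw).1.nodup
  perm w w' hp hw := mem_Fr.2 ((mem_Fr.1 hw).perm hp)
  rect u u' g g' _ h1 h2 h3 :=
    mem_Fr.2 (IsFr.rect (mem_Fr.1 h1) (mem_Fr.1 h2) (mem_Fr.1 h3))
  six u a b h := by
    have h1 := mem_Fr.1 h
    have h2 := (OW.append.1 h1.1).2.1
    have h3 : a.1 * b.1 = 0 := (OW.cons.1 h2).1 b (by simp)
    refine (h6 a b h3).trans (Finset.card_le_card ?_)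
    intro p hp
    obtain ⟨hp1, hp2⟩ := mem_pairs.1 hp
    simp only [Finset.mem_filter, Finset.mem_univ, true_and]
    refine mem_Fr.2 (h1.replace ?_ ?_)
    · exact OW.cons.2 ⟨fun Q hQ => by rw [List.mem_singleton.1 hQ]; exact hp1,
        OW.cons.2 ⟨fun Q hQ => by simp at hQ, List.Pairwise.nil⟩⟩
    · simpa using hp2

/-- the class of a word: all orthogonal words with the same sum -/
theorem mem_cls_quot {n : ℕ} {g h g' : List (Ln T ι)} (_hn : g.length = n)
    (hne : (quot (Fr T ι) (g ++ h)).Nonempty) :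
    g' ∈ cls n (quot (Fr T ι) h) (quot (Fr T ι) (g ++ h)) ↔
      g'.length = n ∧ OW g' ∧ sm g' = sm g := by
  have key : ∀ {a b c : List (Ln T ι)}, (a ++ (b ++ c)).Perm ((a ++ c) ++ b) := by
    intro a b c
    rw [List.append_assoc]
    exact List.Perm.append_left a List.perm_append_comm
  rw [mem_cls]
  obtain ⟨w, hw⟩ := hne
  rw [mem_quot, mem_Fr] at hw
  have hw' : IsFr ((w ++ h) ++ g) := hw.perm key
  constructor
  · rintro ⟨h1, h2⟩
    refine ⟨h1, ?_⟩
    rw [quot_quot] at h2
    have h3 : w ∈ quot (Fr T ι) (g' ++ h) := by rw [h2, mem_quot, mem_Fr]; exact hw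
    rw [mem_quot, mem_Fr] at h3
    have h4 : IsFr ((w ++ h) ++ g') := h3.perm key
    exact ⟨(OW.append.1 h4.1).2.1, hw'.sm_eq h4⟩
  · rintro ⟨h1, h2, h3⟩
    refine ⟨h1, ?_⟩
    rw [quot_quot]
    have hg : OW g := (OW.append.1 hw'.1).2.1
    ext v
    rw [mem_quot, mem_quot, mem_Fr, mem_Fr]
    constructor
    · intro h4
      exact ((h4.perm key).replace hg h3.symm).perm key.symm
    · intro h4
      exact ((h4.perm key).replace h2 h3).perm key.symm

end Vale.Agent.P240.R2.H387
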