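import Vale.Agent.P240.R2.H775.GS2

/-!
# Frames of a hermitian (or symmetric) space, matrix form (P240, unitary and orthogonal groups)

`K` is a field with an involution `star` (possibly trivial).  `hf x y = star x ⬝ᵥ y` is the
standard form on `ι → K`.  A letter is the orthogonal projection `P = (x x*) / (x, x)` onto a
nondegenerate line; `T` is the set of allowed values `(x, x)`.  A frame is a word of
`card ι` letters with pairwise product zero.
-/

open scoped BigOperators
open Matrix

namespace Vale.Agent.P240.R2.H387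

section form
variable {K : Type*} [Field K] [StarRing K] {ι : Type*} [Fintype ι]

/-- the standard form -/
def hf (x y : ι → K) : K := star x ⬝ᵥ y

theorem hf_def (v w : ι → K) : hf v w = ∑ i, star (v i) * w i := rfl

@[simp] theorem hf_add_right (v w x : ι → K) : hf v (w + x) = hf v w + hf v x := by
  simp [hf, dotProduct_add]

@[simp] theorem hf_smul_right (c : K) (v w : ι → K) : hf v (c • w) = c * hf v w := by
  simp [hf, dotProduct_smul]

@[simp] theorem hf_add_left (v w x : ι → K) : hf (v + w) x = hf v x + hf w x := by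
  simp [hf, add_dotProduct]

@[simp] theorem hf_smul_left (c : K) (v w : ι → K) : hf (c • v) w = star c * hf v w := by
  simp [hf_def, Finset.mul_sum, mul_assoc]

@[simp] theorem hf_zero_left (w : ι → K) : hf (0 : ι → K) w = 0 := by simp [hf]

@[simp] theorem hf_zero_right (w : ι → K) : hf w (0 : ι → K) = 0 := by simp [hf]

theorem hf_star (v w : ι → K) : star (hf v w) = hf w v := by
  simp [hf_def, star_sum, star_mul', mul_comm]

theorem hf_symm_zero {v w : ι → K} (h : hf v w = 0) : hf w v = 0 := by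
  rw [← hf_star, h, star_zero]

/-- the orthogonal projection onto the line of `x` -/
def pr (x : ι → K) : Matrix ι ι K := (hf x x)⁻¹ • vecMulVec x (star x)

theorem pr_apply (x : ι → K) (i j : ι) : pr x i j = (hf x x)⁻¹ * (x i * star (x j)) := by
  simp [pr, vecMulVec_apply]

theorem pr_mulVec (x y : ι → K) : pr x *ᵥ y = ((hf x x)⁻¹ * hf x y) • x := by
  funext i
  simp only [mulVec, dotProduct, pr_apply, Pi.smul_apply, smul_eq_mul, hf_def, Finset.mul_sum,
    Finset.sum_mul]
  exact Finset.sum_congr rfl fun j _ => by ring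

theorem pr_mul_pr (x y : ι → K) (i j : ι) :
    (pr x * pr y) i j = (hf x x)⁻¹ * (hf y y)⁻¹ * hf x y * (x i * star (y j)) := by
  rw [Matrix.mul_apply]
  simp only [pr_apply]
  rw [hf_def x y, Finset.mul_sum, Finset.sum_mul]
  exact Finset.sum_congr rfl fun k _ => by ring

theorem pr_idem {x : ι → K} (h : hf x x ≠ 0) : pr x * pr x = pr x := by
  ext i j
  rw [pr_mul_pr, pr_apply]
  field_simp

theorem pr_star (x : ι → K) : (pr x)ᴴ = pr x := by
  ext i j
  rw [conjTranspose_apply, pr_apply, pr_apply, star_mul', star_inv₀, hf_star, star_mul',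
    star_star, mul_comm (x i)]

theorem pr_smul {a : K} (ha : a ≠ 0) (x : ι → K) : pr (a • x) = pr x := by
  ext i j
  have h2 : star a ≠ 0 := by simpa using ha
  rw [pr_apply, pr_apply, hf_smul_right, hf_smul_left, mul_inv, mul_inv]
  simp only [Pi.smul_apply, smul_eq_mul, star_mul']
  field_simp

theorem pr_ne_zero {x : ι → K} (h : hf x x ≠ 0) : pr x ≠ 0 := by
  intro h0
  have h1 := pr_mulVec x x
  rw [h0, zero_mulVec, inv_mul_cancel₀ h, one_smul] at h1
  exact h (by rw [← h1]; simp)

theorem pr_mul_eq_zero {x y : ι → K} (hx : hf x x ≠ 0) (hy : hf y y ≠ 0) :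
    pr x * pr y = 0 ↔ hf x y = 0 := by
  constructor
  · intro h
    have h1 : (pr x * pr y) *ᵥ y = 0 := by rw [h, zero_mulVec]
    rw [← mulVec_mulVec, pr_mulVec y y, inv_mul_cancel₀ hy, one_smul, pr_mulVec] at h1
    by_contra h2
    have h3 : x = 0 := by
      rcases smul_eq_zero.1 h1 with h3 | h3
      · exact absurd h3 (mul_ne_zero (inv_ne_zero hx) h2)
      · exact h3
    exact hx (by rw [h3]; simp)
  · intro h
    ext i j
    rw [pr_mul_pr, h]
    simp

/-- lines with allowed values in `T` -/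
def IsLn (T : Set K) (P : Matrix ι ι K) : Prop :=
  ∃ x : ι → K, hf x x ∈ T ∧ hf x x ≠ 0 ∧ P = (hf x x)⁻¹ • vecMulVec x (star x)

theorem isLn_iff {T : Set K} {P : Matrix ι ι K} :
    IsLn T P ↔ ∃ x : ι → K, hf x x ∈ T ∧ hf x x ≠ 0 ∧ P = pr x := Iff.rfl

theorem isLn_pr {T : Set K} {x : ι → K} (h : hf x x ≠ 0) {a : K}
    (ha : star a * a * hf x x ∈ T) (ha0 : a ≠ 0) : IsLn T (pr x) := by
  refine ⟨a • x, ?_, ?_, (pr_smul ha0 x).symm⟩
  · rwa [hf_smul_right, hf_smul_left, ← mul_assoc, mul_comm a (star a)]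
  · rw [hf_smul_right, hf_smul_left]
    exact mul_ne_zero ha0 (mul_ne_zero (by simpa using ha0) h)

/-- unit vectors -/
theorem isLn_one_iff {P : Matrix ι ι K} :
    IsLn ({1} : Set K) P ↔ ∃ x : ι → K, hf x x = 1 ∧ P = vecMulVec x (star x) := by
  constructor
  · rintro ⟨x, h1, h2, rfl⟩
    rw [Set.mem_singleton_iff] at h1
    exact ⟨x, h1, by rw [h1, inv_one, one_smul]⟩
  · rintro ⟨x, h1, rfl⟩
    exact ⟨x, h1, by rw [h1]; exact one_ne_zero, by rw [h1, inv_one, one_smul]⟩

/-- the type of letters -/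
abbrev Ln (T : Set K) (ι : Type*) [Fintype ι] := {P : Matrix ι ι K // IsLn T P}

variable {T : Set K}

theorem Ln.idem (P : Ln T ι) : P.1 * P.1 = P.1 := by
  obtain ⟨P, x, h1, h2, rfl⟩ := P
  exact pr_idem h2

theorem Ln.star (P : Ln T ι) : (P.1)ᴴ = P.1 := by
  obtain ⟨P, x, h1, h2, rfl⟩ := P
  exact pr_star x

theorem Ln.ne_zero (P : Ln T ι) : P.1 ≠ 0 := by
  obtain ⟨P, x, h1, h2, rfl⟩ := P
  exact pr_ne_zero h2

theorem Ln.orth_symm {P Q : Ln T ι} (h : P.1 * Q.1 = 0) : Q.1 * P.1 = 0 := by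
  have h1 : (P.1 * Q.1)ᴴ = 0 := by rw [h, conjTranspose_zero]
  rwa [conjTranspose_mul, Ln.star, Ln.star] at h1

/-- orthogonal words -/
def OW (w : List (Ln T ι)) : Prop := w.Pairwise (fun P Q => P.1 * Q.1 = 0)

/-- sum of a word = projection onto its span -/
def sm (w : List (Ln T ι)) : Matrix ι ι K := (w.map Subtype.val).sum

@[simp] theorem sm_nil : sm ([] : List (Ln T ι)) = 0 := rfl

@[simp] theorem sm_cons (P : Ln T ι) (w : List (Ln T ι)) : sm (P :: w) = P.1 + sm w := by
  simp [sm]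

@[simp] theorem sm_append (u w : List (Ln T ι)) : sm (u ++ w) = sm u + sm w := by
  simp [sm]

theorem sm_perm {u w : List (Ln T ι)} (h : u.Perm w) : sm u = sm w :=
  (h.map _).sum_eq

theorem mul_sm_eq_zero {A : Matrix ι ι K} {w : List (Ln T ι)} (h : ∀ P ∈ w, A * P.1 = 0) :
    A * sm w = 0 := by
  induction w with
  | nil => simp
  | cons P w ih =>
    rw [sm_cons, mul_add, h P (by simp), ih fun Q hQ => h Q (by simp [hQ]), add_zero]

theorem sm_mul_eq_zero {A : Matrix ι ι K} {w : List (Ln T ι)} (h : ∀ P ∈ w, P.1 * A = 0) :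
    sm w * A = 0 := by
  induction w with
  | nil => simp
  | cons P w ih =>
    rw [sm_cons, add_mul, h P (by simp), ih fun Q hQ => h Q (by simp [hQ]), add_zero]

theorem sm_star (w : List (Ln T ι)) : (sm w)ᴴ = sm w := by
  induction w with
  | nil => simp
  | cons P w ih => rw [sm_cons, conjTranspose_add, ih, Ln.star]

theorem OW.append {u w : List (Ln T ι)} :
    OW (u ++ w) ↔ OW u ∧ OW w ∧ ∀ P ∈ u, ∀ Q ∈ w, P.1 * Q.1 = 0 := List.pairwise_append

theorem OW.cons {P : Ln T ι} {w : List (Ln T ι)} :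
    OW (P :: w) ↔ (∀ Q ∈ w, P.1 * Q.1 = 0) ∧ OW w := List.pairwise_cons

theorem OW.perm {u w : List (Ln T ι)} (h : OW u) (hp : u.Perm w) : OW w :=
  (hp.pairwise_iff (fun h => Ln.orth_symm h)).1 h

theorem OW.nodup {w : List (Ln T ι)} (h : OW w) : w.Nodup := by
  induction w with
  | nil => simp
  | cons P w ih =>
    obtain ⟨h1, h2⟩ := OW.cons.1 h
    refine List.nodup_cons.2 ⟨fun hl => ?_, ih h2⟩
    have h3 := h1 P hl
    rw [Ln.idem] at h3
    exact P.ne_zero h3

theorem OW.mul_sm {w : List (Ln T ι)} (h : OW w) {P : Ln T ι} (hP : P ∈ w) :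
    P.1 * sm w = P.1 := by
  induction w with
  | nil => simp at hP
  | cons Q w ih =>
    obtain ⟨h1, h2⟩ := OW.cons.1 h
    rw [sm_cons, mul_add]
    rcases List.mem_cons.1 hP with rfl | hP
    · rw [Ln.idem, mul_sm_eq_zero h1, add_zero]
    · rw [Ln.orth_symm (h1 P hP), ih h2 hP, zero_add]

theorem OW.sm_mul {w : List (Ln T ι)} (h : OW w) {P : Ln T ι} (hP : P ∈ w) :
    sm w * P.1 = P.1 := by
  have h1 := congrArg conjTranspose (h.mul_sm hP)
  rwa [conjTranspose_mul, sm_star, Ln.star] at h1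

theorem OW.sm_idem {w : List (Ln T ι)} (h : OW w) : sm w * sm w = sm w := by
  have h1 : ∀ u : List (Ln T ι), (∀ P ∈ u, P ∈ w) → sm u * sm w = sm u := by
    intro u
    induction u with
    | nil => simp
    | cons P u ih =>
      intro hu
      rw [sm_cons, add_mul, h.mul_sm (hu P (by simp)), ih fun Q hQ => hu Q (by simp [hQ])]
  exact h1 w fun _ h => h

end form

section frames
variable {K : Type*} [Field K] [StarRing K] {ι : Type*} [Fintype ι] [DecidableEq ι]
  {T : Set K}

omit [DecidableEq ι] in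
/-- vectors for the letters of a word -/
theorem exists_vec (P : Ln T ι) : ∃ x : ι → K, hf x x ∈ T ∧ hf x x ≠ 0 ∧ P.1 = pr x := P.2

/-- two matrices which express that `w` is an orthogonal word -/
theorem OW.exists_mat {w : List (Ln T ι)} (h : OW w) :
    ∃ (X : Matrix ι (Fin w.length) K) (Y : Matrix (Fin w.length) ι K),
      Y * X = 1 ∧ X * Y = sm w := by
  classical
  choose x hx1 hx2 hx3 using fun i : Fin w.length => exists_vec (w.get i)
  have ho : ∀ i j, i ≠ j → hf (x i) (x j) = 0 := by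
    intro i j hij
    have h1 : (w.get i).1 * (w.get j).1 = 0 := by
      rcases lt_or_gt_of_ne hij with h2 | h2
      · exact List.pairwise_iff_get.1 h i j h2
      · exact Ln.orth_symm (List.pairwise_iff_get.1 h j i h2)
    rw [hx3, hx3, pr_mul_eq_zero (hx2 i) (hx2 j)] at h1
    exact h1
  refine ⟨Matrix.of fun a i => x i a,
    Matrix.of fun i a => (hf (x i) (x i))⁻¹ * star (x i a), ?_, ?_⟩
  · ext i j
    rw [Matrix.mul_apply]
    simp only [Matrix.of_apply]
    have h1 : ∑ a, (hf (x i) (x i))⁻¹ * star (x i a) * x j a =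
        (hf (x i) (x i))⁻¹ * hf (x i) (x j) := by
      rw [hf_def (x i) (x j), Finset.mul_sum]
      exact Finset.sum_congr rfl fun a _ => by ring
    rw [h1]
    by_cases hij : i = j
    · subst hij
      rw [inv_mul_cancel₀ (hx2 i), Matrix.one_apply_eq]
    · rw [ho i j hij, mul_zero, Matrix.one_apply_ne hij]
  · have h1 : sm w = ∑ i, (w.get i).1 := by
      rw [sm]
      conv_lhs => rw [← List.ofFn_get w]
      rw [List.map_ofFn, List.sum_ofFn]
      rfl
    rw [h1]
    ext a b
    rw [Matrix.mul_apply, Matrix.sum_apply]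
    refine Finset.sum_congr rfl fun i _ => ?_
    rw [hx3 i, pr_apply]
    simp only [Matrix.of_apply]
    ring

theorem OW.sm_eq_one {w : List (Ln T ι)} (h : OW w) (hl : w.length = Fintype.card ι) :
    sm w = 1 := by
  obtain ⟨X, Y, h1, h2⟩ := h.exists_mat
  rw [← h2]
  refine (Matrix.mul_eq_one_comm_of_card_eq ι (Fin w.length) K ?_).2 h1
  rw [Fintype.card_fin, hl]

theorem OW.length_of_sm {w : List (Ln T ι)} (h : OW w) (hs : sm w = 1) :
    w.length = Fintype.card ι := by
  obtain ⟨X, Y, h1, h2⟩ := h.exists_mat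
  rw [hs] at h2
  have := Matrix.square_of_invertible X Y h2 h1
  rw [this, Fintype.card_fin]

/-- frames of the whole space -/
def IsFr (w : List (Ln T ι)) : Prop := OW w ∧ w.length = Fintype.card ι

theorem isFr_iff_sm {w : List (Ln T ι)} : IsFr w ↔ OW w ∧ sm w = 1 :=
  ⟨fun h => ⟨h.1, h.1.sm_eq_one h.2⟩, fun h => ⟨h.1, h.1.length_of_sm h.2⟩⟩

omit [DecidableEq ι] in
theorem IsFr.perm {u w : List (Ln T ι)} (h : IsFr u) (hp : u.Perm w) : IsFr w :=
  ⟨h.1.perm hp, by rw [← hp.length_eq, h.2]⟩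

/-- orthogonality to a word only depends on the sum of the word -/
theorem orth_of_sm_eq {A : Matrix ι ι K} {g g' : List (Ln T ι)} (hs : sm g' = sm g)
    (h' : OW g') (hA : ∀ Q ∈ g, A * Q.1 = 0) : ∀ Q ∈ g', A * Q.1 = 0 := by
  intro Q hQ
  rw [← h'.sm_mul hQ, ← mul_assoc, hs, mul_sm_eq_zero hA, zero_mul]

/-- replacing a subword by an orthogonal word with the same sum -/
theorem OW.replace {u g g' : List (Ln T ι)} (h : OW (u ++ g)) (h' : OW g')
    (hs : sm g' = sm g) : OW (u ++ g') := by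
  obtain ⟨h1, h2, h3⟩ := OW.append.1 h
  exact OW.append.2 ⟨h1, h', fun P hP => orth_of_sm_eq hs h' (h3 P hP)⟩

theorem IsFr.replace {u g g' : List (Ln T ι)} (h : IsFr (u ++ g)) (h' : OW g')
    (hs : sm g' = sm g) : IsFr (u ++ g') := by
  have h1 := isFr_iff_sm.1 h
  refine isFr_iff_sm.2 ⟨h1.1.replace h' hs, ?_⟩
  rw [← h1.2, sm_append, sm_append, hs]

theorem IsFr.sm_eq {u g g' : List (Ln T ι)} (h : IsFr (u ++ g)) (h' : IsFr (u ++ g')) :
    sm g' = sm g := by
  have h1 := (isFr_iff_sm.1 h).2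
  have h2 := (isFr_iff_sm.1 h').2
  rw [sm_append] at h1 h2
  exact add_left_cancel (h2.trans h1.symm)

theorem IsFr.rect {u u' g g' : List (Ln T ι)} (h1 : IsFr (u ++ g)) (h2 : IsFr (u ++ g'))
    (h3 : IsFr (u' ++ g)) : IsFr (u' ++ g') :=
  h3.replace (OW.append.1 h2.1).2.1 (h1.sm_eq h2)

variable [Fintype K] [DecidableEq K]

noncomputable instance : Fintype (Ln T ι) := by classical exact Subtype.fintype _

open Classical in
/-- the set of all frames -/
noncomputable def Fr (T : Set K) (ι : Type*) [Fintype ι] [DecidableEq ι] :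
    Finset (List (Ln T ι)) :=
  ((Finset.univ : Finset (Fin (Fintype.card ι) → Ln T ι)).filter
    (fun f => OW (List.ofFn f))).image List.ofFn

theorem mem_Fr {w : List (Ln T ι)} : w ∈ Fr T ι ↔ IsFr w := by
  classical
  simp only [Fr, Finset.mem_image, Finset.mem_filter, Finset.mem_univ, true_and]
  constructor
  · rintro ⟨f, hf, rfl⟩
    exact ⟨hf, List.length_ofFn⟩
  · rintro ⟨h, hl⟩
    refine ⟨fun i => w.get (i.cast hl.symm), ?_, ?_⟩
    · have : List.ofFn (fun i => w.get (Fin.cast hl.symm i)) = w := by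
        apply List.ext_get
        · simp [hl]
        · intro n h1 h2
          simp
      rwa [this]
    · apply List.ext_get
      · simp [hl]
      · intro n h1 h2
        simp

end frames

end Vale.Agent.P240.R2.H387
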