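import Vale.Agent.P240.R2.H195.RigB
import Vale.Agent.P240.R2.H775.RG2

/-!
Root group data over general reflection combinatorics: the split BN-pair and the opposite root groups.
-/

set_option autoImplicit false
set_option linter.all false

namespace Vale.Agent.P240.R2.H387.O

open Subgroup Vale.Agent.P240.H195

universe u

/-- the combinatorics of roots, reflections and open intervals of roots -/
structure RW (ι : Type*) where
  pos : ι → Prop
  neg : ι → ι
  s : ι → ι → ι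
  simp : ι → Prop
  cone : ι → ι → ι → Prop
  ord : ι → ℕ
  pos_neg : ∀ i, pos (neg i) ↔ ¬ pos i
  s_s : ∀ i j, s i (s i j) = j
  s_self : ∀ i, s i i = neg i
  s_neg : ∀ i j, s i (neg j) = neg (s i j)
  s_conj : ∀ i j k, s (s i j) k = s i (s j (s i k))
  simp_pos : ∀ i, simp i → pos i
  s_pos : ∀ i j, simp i → pos j → j ≠ i → pos (s i j)
  cone_pos : ∀ i j k, cone i j k → pos i → pos j → pos k
  cone_simp : ∀ i j k, simp i → pos j → j ≠ i → cone i j k → k ≠ i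
  cone_ord : ∀ i j k, pos i → pos j → ord i < ord j → cone i j k → ord i < ord k
  ord_inj : ∀ i j, pos i → pos j → ord i = ord j → i = j
  long : ∃ l : List ι, (∀ i ∈ l, simp i) ∧ ∀ j, pos j → ¬ pos (l.foldr s j)
  gen : ∀ p : ι → Prop, (∀ i, simp i → p i) → (∀ i j, simp i → p j → p (s i j)) → ∀ j, p j
  conn : ∀ p : ι → Prop, (∃ i, simp i ∧ p i) →
    (∀ i j, simp i → simp j → i ≠ j → s i j ≠ j → p i → p j) → ∀ j, simp j → p j
  ex : ∃ i, simp i

section
variable {ι : Type*} {C : RW ι}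

/-- the product of the reflections -/
def wl (C : RW ι) (l : List ι) (j : ι) : ι := l.foldr C.s j

lemma wl_nil (j : ι) : wl C [] j = j := rfl

lemma wl_cons (i : ι) (l : List ι) (j : ι) : wl C (i :: l) j = C.s i (wl C l j) := rfl

lemma wl_append (l l' : List ι) (j : ι) : wl C (l ++ l') j = wl C l (wl C l' j) := by
  simp [wl]

lemma wl_neg (l : List ι) (j : ι) : wl C l (C.neg j) = C.neg (wl C l j) := by
  induction l with
  | nil => rfl
  | cons i l ih => rw [wl_cons, wl_cons, ih, C.s_neg]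

lemma wl_s (l : List ι) (i j : ι) : wl C l (C.s i j) = C.s (wl C l i) (wl C l j) := by
  induction l with
  | nil => rfl
  | cons k l ih =>
    rw [wl_cons, wl_cons, wl_cons, ih, C.s_conj, C.s_s]

end

section
variable {ι : Type*} {L : Type*} [Group L]

/-- the subgroup generated by the root groups `X i` with `p i` -/
def gX (X : ι → Subgroup L) (p : ι → Prop) : Subgroup L := closure {g | ∃ i, p i ∧ g ∈ X i}

lemma gX_mono {X : ι → Subgroup L} {p q : ι → Prop} (hpq : ∀ i, p i → q i) : gX X p ≤ gX X q :=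
  closure_mono (by rintro g ⟨i, hi, hg⟩; exact ⟨i, hpq i hi, hg⟩)

lemma mem_gX {X : ι → Subgroup L} {p : ι → Prop} {i : ι} (hi : p i) {a : L} (ha : a ∈ X i) :
    a ∈ gX X p := subset_closure ⟨i, hi, ha⟩

lemma gX_conj {X : ι → Subgroup L} {p : ι → Prop} {H : Subgroup L} {g : L}
    (hg : ∀ i, p i → ∀ a ∈ X i, g * a * g⁻¹ ∈ H) {y : L} (hy : y ∈ gX X p) :
    g * y * g⁻¹ ∈ H := by
  refine closure_induction (p := fun y _ => g * y * g⁻¹ ∈ H) ?_ ?_ ?_ ?_ hy
  · rintro y ⟨i, hi, hy⟩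
    exact hg i hi y hy
  · rw [mul_one, mul_inv_cancel]
    exact one_mem _
  · intro a b _ _ ha hb
    have e : g * (a * b) * g⁻¹ = (g * a * g⁻¹) * (g * b * g⁻¹) := by group
    rw [e]
    exact mul_mem ha hb
  · intro a _ ha
    have e : g * a⁻¹ * g⁻¹ = (g * a * g⁻¹)⁻¹ := by group
    rw [e]
    exact inv_mem ha

/-- root group data: root groups `X i`, sets `M i` of representatives of the reflections, torus `T` -/
structure RD (C : RW ι) (X : ι → Subgroup L) (M : ι → Set L) (T : Subgroup L) : Prop where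
  comm : ∀ i j, i ≠ j → i ≠ C.neg j → ∀ a ∈ X i, ∀ b ∈ X j, a * b * a⁻¹ * b⁻¹ ∈ gX X (C.cone i j)
  ne : ∀ i, ∃ a ∈ X i, a ≠ 1
  dec : ∀ i, ∀ a ∈ X i, a ≠ 1 → ∃ m ∈ M i, ∃ b ∈ X i, ∃ d ∈ X (C.neg i), a = m * b * d
  mT : ∀ i, ∀ m ∈ M i, ∀ m' ∈ M i, m * m' ∈ T
  minv : ∀ i, ∀ m ∈ M i, m⁻¹ ∈ M i
  mconj : ∀ i j, ∀ m ∈ M j, ∀ m' ∈ M i, m * m' * m⁻¹ ∈ M (C.s j i)
  mact : ∀ i j, ∀ m ∈ M i, ∀ a ∈ X j, m * a * m⁻¹ ∈ X (C.s i j)
  tact : ∀ t ∈ T, ∀ j, ∀ a ∈ X j, t * a * t⁻¹ ∈ X j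
  tnorm : ∀ j, ∀ m ∈ M j, ∀ t ∈ T, m * t * m⁻¹ ∈ T
  tcomm : ∀ s ∈ T, ∀ t ∈ T, s * t = t * s
  gen : gX X (fun _ => True) = ⊤
  opp : gX X (fun i => C.pos i) ⊓ gX X (fun i => ¬ C.pos i) = ⊥

/-- the product of representatives -/
def ml (n : ι → L) (l : List ι) : L := (l.map n).prod

lemma ml_nil (n : ι → L) : ml n [] = 1 := rfl

lemma ml_cons (n : ι → L) (i : ι) (l : List ι) : ml n (i :: l) = n i * ml n l := by
  simp [ml]

lemma ml_append (n : ι → L) (l l' : List ι) : ml n (l ++ l') = ml n l * ml n l' := by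
  simp [ml]

/-- `U` -/
def uu (C : RW ι) (X : ι → Subgroup L) : Subgroup L := gX X (fun i => C.pos i)

/-- `B` -/
def bb (C : RW ι) (X : ι → Subgroup L) (T : Subgroup L) : Subgroup L := uu C X ⊔ T

/-- `S` -/
def ss (C : RW ι) (n : ι → L) : Set L := {g | ∃ i, C.simp i ∧ g = n i}

/-- `N` -/
def mm (C : RW ι) (n : ι → L) (T : Subgroup L) : Subgroup L := closure (ss C n) ⊔ T

/-- the positive root groups different from `i` -/
def ui (C : RW ι) (X : ι → Subgroup L) (i : ι) : Subgroup L := gX X (fun j => C.pos j ∧ j ≠ i)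

variable {C : RW ι} {X : ι → Subgroup L} {M : ι → Set L} {T : Subgroup L} {n : ι → L}

lemma uu_le : uu C X ≤ bb C X T := le_sup_left

lemma T_le_b : T ≤ bb C X T := le_sup_right

lemma T_le_m : T ≤ mm C n T := le_sup_right

lemma ui_le (i : ι) : ui C X i ≤ uu C X :=
  gX_mono (p := fun j => C.pos j ∧ j ≠ i) (q := fun j => C.pos j) fun _ hj => hj.1

/-- the group generated by the negative root groups -/
def um (C : RW ι) (X : ι → Subgroup L) : Subgroup L := gX X (fun i => ¬ C.pos i)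

lemma mem_uu {i : ι} (hi : C.pos i) {a : L} (ha : a ∈ X i) : a ∈ uu C X :=
  subset_closure ⟨i, hi, ha⟩

lemma mem_um {i : ι} (hi : ¬ C.pos i) {a : L} (ha : a ∈ X i) : a ∈ um C X :=
  subset_closure ⟨i, hi, ha⟩

lemma mem_uim {i j : ι} (hj : C.pos j ∧ j ≠ i) {a : L} (ha : a ∈ X j) : a ∈ ui C X i :=
  subset_closure ⟨j, hj, ha⟩

lemma uu_conj {H : Subgroup L} {g : L} (hg : ∀ i, C.pos i → ∀ a ∈ X i, g * a * g⁻¹ ∈ H)
    {y : L} (hy : y ∈ uu C X) : g * y * g⁻¹ ∈ H :=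
  gX_conj (p := fun i => C.pos i) hg hy

lemma ui_conj {i : ι} {H : Subgroup L} {g : L}
    (hg : ∀ j, (C.pos j ∧ j ≠ i) → ∀ a ∈ X j, g * a * g⁻¹ ∈ H)
    {y : L} (hy : y ∈ ui C X i) : g * y * g⁻¹ ∈ H :=
  gX_conj (p := fun j => C.pos j ∧ j ≠ i) hg hy

lemma ne_neg {i j : ι} (hi : C.pos i) (hj : C.pos j) : i ≠ C.neg j := by
  intro he
  rw [he] at hi
  exact (C.pos_neg j).1 hi hj

lemma simp_neg_lt {i : ι} (hi : C.simp i) : ¬ C.pos (C.neg i) := by
  intro h1
  exact (C.pos_neg i).1 h1 (C.simp_pos i hi)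

namespace RD

variable (h : RD C X M T)
include h

lemma mact' {i j : ι} {m : L} (hm : m ∈ M i) {a : L} (ha : a ∈ X j) :
    m⁻¹ * a * m ∈ X (C.s i j) := by
  have h1 := h.mact i j _ (h.minv i m hm) a ha
  rwa [inv_inv] at h1

lemma m_inv_m {i : ι} {m m' : L} (hm : m ∈ M i) (hm' : m' ∈ M i) : m⁻¹ * m' ∈ T :=
  h.mT i _ (h.minv i m hm) _ hm'

lemma x_not_mem {i : ι} (hi : ¬ C.pos i) {a : L} (ha : a ∈ X i) (hU : a ∈ uu C X) : a = 1 := by
  have h1 : a ∈ uu C X ⊓ um C X := ⟨hU, mem_um hi ha⟩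
  rw [show uu C X ⊓ um C X = ⊥ from h.opp, mem_bot] at h1
  exact h1

/-- `T` normalizes the groups `gX X p` -/
lemma T_conj {t : L} (ht : t ∈ T) {y : L} (hy : y ∈ uu C X) : t * y * t⁻¹ ∈ uu C X :=
  uu_conj (fun i hi a ha => mem_uu hi (h.tact t ht i a ha)) hy

/-- the elements of `B` -/
lemma mem_b {g : L} (hg : g ∈ bb C X T) : ∃ u ∈ uu C X, ∃ t ∈ T, g = u * t := by
  have e0 : bb C X T = closure ((uu C X : Set L) ∪ (T : Set L)) := by
    rw [bb, Subgroup.closure_union, Subgroup.closure_eq, Subgroup.closure_eq]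
  rw [e0] at hg
  refine closure_induction_left (p := fun g _ => ∃ u ∈ uu C X, ∃ t ∈ T, g = u * t)
    ⟨1, one_mem _, 1, one_mem _, by simp⟩ ?_ ?_ hg
  · rintro s hs y _ ⟨u, hu, t, ht, rfl⟩
    rcases hs with hs | hs
    · exact ⟨s * u, mul_mem hs hu, t, ht, by rw [mul_assoc]⟩
    · exact ⟨s * u * s⁻¹, h.T_conj hs hu, s * t, mul_mem hs ht, by group⟩
  · rintro s hs y _ ⟨u, hu, t, ht, rfl⟩
    rcases hs with hs | hs
    · exact ⟨s⁻¹ * u, mul_mem (inv_mem hs) hu, t, ht, by rw [mul_assoc]⟩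
    · exact ⟨s⁻¹ * u * s⁻¹⁻¹, h.T_conj (inv_mem hs) hu, s⁻¹ * t, mul_mem (inv_mem hs) ht, by group⟩

/-- `U` is normal in `B` -/
lemma b_conj {g : L} (hg : g ∈ bb C X T) {u : L} (hu : u ∈ uu C X) : g * u * g⁻¹ ∈ uu C X := by
  obtain ⟨v, hv, t, ht, rfl⟩ := h.mem_b hg
  have e1 : v * t * u * (v * t)⁻¹ = v * (t * u * t⁻¹) * v⁻¹ := by group
  rw [e1]
  exact mul_mem (mul_mem hv (h.T_conj ht hu)) (inv_mem hv)

lemma ui_conj_x {i : ι} (hi : C.simp i) {a : L} (ha : a ∈ X i) {g : L} (hg : g ∈ ui C X i) :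
    a * g * a⁻¹ ∈ ui C X i := by
  refine ui_conj (fun j hj b hb => ?_) hg
  have hi0 := C.simp_pos i hi
  have h1 := h.comm i j (Ne.symm hj.2) (ne_neg hi0 hj.1) a ha b hb
  have h2 : gX X (C.cone i j) ≤ ui C X i :=
    gX_mono (q := fun k => C.pos k ∧ k ≠ i) fun k hk =>
    ⟨C.cone_pos i j k hk hi0 hj.1, C.cone_simp i j k hi hj.1 hj.2 hk⟩
  have h3 : a * b * a⁻¹ = a * b * a⁻¹ * b⁻¹ * b := by rw [inv_mul_cancel_right]
  rw [h3]
  exact mul_mem (h2 h1) (mem_uim hj hb)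

/-- `U = U_i X_i` -/
lemma u_dec {i : ι} (hi : C.simp i) {g : L} (hg : g ∈ uu C X) :
    ∃ v ∈ ui C X i, ∃ c ∈ X i, g = v * c := by
  have key : ∀ (j : ι), C.pos j → ∀ a ∈ X j, ∀ y : L, (∃ v ∈ ui C X i, ∃ c ∈ X i, y = v * c) →
      ∃ v ∈ ui C X i, ∃ c ∈ X i, a * y = v * c := by
    rintro j hj a ha _ ⟨v, hv, c, hc, rfl⟩
    by_cases hji : j = i
    · subst hji
      refine ⟨a * v * a⁻¹, h.ui_conj_x hi ha hv, a * c, mul_mem ha hc, ?_⟩
      group
    · exact ⟨a * v, mul_mem (mem_uim ⟨hj, hji⟩ ha) hv, c, hc, by rw [mul_assoc]⟩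
  refine closure_induction_left (p := fun g _ => ∃ v ∈ ui C X i, ∃ c ∈ X i, g = v * c)
    ⟨1, one_mem _, 1, one_mem _, by rw [mul_one]⟩ ?_ ?_ hg
  · rintro a ⟨j, hj, ha⟩ y _ hy
    exact key j hj a ha y hy
  · rintro a ⟨j, hj, ha⟩ y _ hy
    exact key j hj a⁻¹ (inv_mem ha) y hy

/-- `U = X_i U_i` -/
lemma u_dec' {i : ι} (hi : C.simp i) {g : L} (hg : g ∈ uu C X) :
    ∃ c ∈ X i, ∃ v ∈ ui C X i, g = c * v := by
  obtain ⟨v, hv, c, hc, e⟩ := h.u_dec hi (inv_mem hg)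
  refine ⟨c⁻¹, inv_mem hc, v⁻¹, inv_mem hv, ?_⟩
  rw [← mul_inv_rev, ← e, inv_inv]

lemma ui_index {i j : ι} (hi : C.simp i) (hj : C.pos j ∧ j ≠ i) :
    C.pos (C.s i j) ∧ C.s i j ≠ i := by
  refine ⟨C.s_pos i j hi hj.1 hj.2, fun he => ?_⟩
  have h2 := C.s_s i j
  rw [he, C.s_self] at h2
  have h5 := hj.1
  rw [← h2] at h5
  exact simp_neg_lt hi h5

lemma ui_conj_m {i : ι} (hi : C.simp i) {m : L} (hm : m ∈ M i) {g : L} (hg : g ∈ ui C X i) :
    m * g * m⁻¹ ∈ ui C X i :=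
  ui_conj (fun j hj b hb => mem_uim (h.ui_index hi hj) (h.mact i j m hm b hb)) hg

lemma ui_normal {i : ι} (hi : C.simp i) {g u : L} (hu : u ∈ uu C X)
    (hg : g ∈ ui C X i) : u * g * u⁻¹ ∈ ui C X i := by
  obtain ⟨v, hv, c, hc, rfl⟩ := h.u_dec hi hu
  have e1 : v * c * g * (v * c)⁻¹ = v * (c * g * c⁻¹) * v⁻¹ := by group
  rw [e1]
  exact mul_mem (mul_mem hv (h.ui_conj_x hi hc hg)) (inv_mem hv)

/-- the elements of `U` that stay in `U` -/
lemma mem_ui {i : ι} (hi : C.simp i) {m : L} (hm : m ∈ M i) {g : L} (hg : g ∈ uu C X)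
    (hg' : m * g * m⁻¹ ∈ uu C X) : g ∈ ui C X i := by
  obtain ⟨v, hv, c, hc, rfl⟩ := h.u_dec hi hg
  have e1 : m * (v * c) * m⁻¹ = (m * v * m⁻¹) * (m * c * m⁻¹) := by group
  have h1 := h.mact i i m hm c hc
  rw [C.s_self] at h1
  rw [e1] at hg'
  have h2 := (mul_mem_cancel_left (ui_le i (h.ui_conj_m hi hm hv))).1 hg'
  have h3 := h.x_not_mem (simp_neg_lt hi) h1 h2
  have h4 : c = 1 := by
    have e2 : c = m⁻¹ * (m * c * m⁻¹) * m := by group
    rw [e2, h3]
    group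
  rw [h4, mul_one]
  exact hv

section
variable (hn : ∀ i, n i ∈ M i)
include hn

lemma ml_act (l : List ι) {j : ι} {a : L} (ha : a ∈ X j) :
    ml n l * a * (ml n l)⁻¹ ∈ X (wl C l j) := by
  induction l with
  | nil => simpa [ml_nil, wl_nil] using ha
  | cons i l ih =>
    have e1 : ml n (i :: l) * a * (ml n (i :: l))⁻¹ =
        n i * (ml n l * a * (ml n l)⁻¹) * (n i)⁻¹ := by
      rw [ml_cons]; group
    rw [e1, wl_cons]
    exact h.mact i _ _ (hn i) _ ih

lemma ml_inv_act (l : List ι) {j : ι} {a : L} (ha : a ∈ X (wl C l j)) :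
    (ml n l)⁻¹ * a * ml n l ∈ X j := by
  induction l generalizing a with
  | nil => simpa [ml_nil, wl_nil] using ha
  | cons i l ih =>
    have e1 : (ml n (i :: l))⁻¹ * a * ml n (i :: l) =
        (ml n l)⁻¹ * ((n i)⁻¹ * a * n i) * ml n l := by
      rw [ml_cons]; group
    rw [e1]
    refine ih ?_
    have h1 := h.mact' (hn i) ha
    rwa [wl_cons, C.s_s] at h1

lemma ml_M (l : List ι) {j : ι} {m : L} (hm : m ∈ M j) :
    ml n l * m * (ml n l)⁻¹ ∈ M (wl C l j) := by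
  induction l with
  | nil => simpa [ml_nil, wl_nil] using hm
  | cons i l ih =>
    have e1 : ml n (i :: l) * m * (ml n (i :: l))⁻¹ =
        n i * (ml n l * m * (ml n l)⁻¹) * (n i)⁻¹ := by
      rw [ml_cons]; group
    rw [e1, wl_cons]
    exact h.mconj _ i _ (hn i) _ ih

lemma ml_T (l : List ι) {t : L} (ht : t ∈ T) : ml n l * t * (ml n l)⁻¹ ∈ T := by
  induction l with
  | nil => simpa [ml_nil] using ht
  | cons i l ih =>
    have e1 : ml n (i :: l) * t * (ml n (i :: l))⁻¹ =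
        n i * (ml n l * t * (ml n l)⁻¹) * (n i)⁻¹ := by
      rw [ml_cons]; group
    rw [e1]
    exact h.tnorm i _ (hn i) _ ih

omit h hn in
lemma ml_mem {l : List ι} (hl : ∀ i ∈ l, C.simp i) : ml n l ∈ mm C n T := by
  induction l with
  | nil => exact one_mem _
  | cons i l ih =>
    rw [ml_cons]
    exact mul_mem ((le_sup_left : _ ≤ mm C n T) (subset_closure ⟨i, hl i (by simp), rfl⟩))
      (ih fun k hk => hl k (by simp [hk]))

/-- the elements of `N` -/
lemma mem_m {g : L} (hg : g ∈ mm C n T) : ∃ t ∈ T, ∃ l : List ι, (∀ i ∈ l, C.simp i) ∧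
    g = t * ml n l := by
  have e0 : mm C n T = closure (ss C n ∪ (T : Set L)) := by
    rw [mm, Subgroup.closure_union, Subgroup.closure_eq]
  rw [e0] at hg
  refine closure_induction_left (p := fun g _ => ∃ t ∈ T, ∃ l : List ι, (∀ i ∈ l, C.simp i) ∧
    g = t * ml n l) ⟨1, one_mem _, [], by simp, by simp [ml_nil]⟩ ?_ ?_ hg
  · rintro s hs y _ ⟨t, ht, l, hl, rfl⟩
    rcases hs with ⟨i, hi, rfl⟩ | hs
    · refine ⟨n i * t * (n i)⁻¹, h.tnorm i _ (hn i) _ ht, i :: l, ?_, ?_⟩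
      · intro k hk
        rcases List.mem_cons.1 hk with rfl | hk
        · exact hi
        · exact hl k hk
      · rw [ml_cons]; group
    · exact ⟨s * t, mul_mem hs ht, l, hl, by rw [mul_assoc]⟩
  · rintro s hs y _ ⟨t, ht, l, hl, rfl⟩
    rcases hs with ⟨i, hi, rfl⟩ | hs
    · have h1 : (n i)⁻¹ * (n i)⁻¹ ∈ T := by
        rw [← mul_inv_rev]
        exact inv_mem (h.mT i _ (hn i) _ (hn i))
      have h2 := h.tnorm i _ (hn i) _ ht
      refine ⟨(n i)⁻¹ * (n i)⁻¹ * (n i * t * (n i)⁻¹), mul_mem h1 h2, i :: l, ?_, ?_⟩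
      · intro k hk
        rcases List.mem_cons.1 hk with rfl | hk
        · exact hi
        · exact hl k hk
      · rw [ml_cons]; group
    · exact ⟨s⁻¹ * t, mul_mem (inv_mem hs) ht, l, hl, by rw [mul_assoc]⟩

/-- the deletion argument -/
theorem ml_mem_T : ∀ (k : ℕ) (l : List ι), l.length = k → (∀ i ∈ l, C.simp i) →
    (∀ j, C.pos j → C.pos (wl C l j)) → ml n l ∈ T := by
  intro k
  induction k using Nat.strong_induction_on with
  | _ k ih =>
    intro l hlen hl hpos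
    rcases l.eq_nil_or_concat' with rfl | ⟨l', a, rfl⟩
    · exact one_mem _
    have ha : C.simp a := hl a (by simp)
    have hl' : ∀ i ∈ l', C.simp i := fun i hi => hl i (by simp [hi])
    have h1 : ¬ C.pos (wl C l' a) := by
      have h2 := hpos a (C.simp_pos a ha)
      rw [wl_append, wl_cons, wl_nil, C.s_self, wl_neg, C.pos_neg] at h2
      exact h2
    -- the place
    have h2 : ∀ m : List ι, (∀ i ∈ m, C.simp i) → ¬ C.pos (wl C m a) →
        ∃ (A : List ι) (i : ι) (D : List ι), m = A ++ i :: D ∧ wl C D a = i := by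
      intro m
      induction m with
      | nil =>
        intro _ h3
        rw [wl_nil] at h3
        exact absurd (C.simp_pos a ha) h3
      | cons b m ihm =>
        intro hm h3
        by_cases h4 : ¬ C.pos (wl C m a)
        · obtain ⟨A, i, D, rfl, h5⟩ := ihm (fun i hi => hm i (by simp [hi])) h4
          exact ⟨b :: A, i, D, by simp, h5⟩
        · refine ⟨[], b, m, rfl, ?_⟩
          by_contra hne
          have h6 := C.s_pos b (wl C m a) (hm b (by simp)) (not_not.1 h4) hne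
          rw [wl_cons] at h3
          exact h3 h6
    obtain ⟨A, i, D, rfl, hD⟩ := h2 l' hl' h1
    have hA : ∀ j ∈ A, C.simp j := fun j hj => hl j (by simp [hj])
    have hDs : ∀ j ∈ D, C.simp j := fun j hj => hl j (by simp [hj])
    have h4 := h.ml_M hn D (hn a)
    rw [hD] at h4
    have e1 : ml n (A ++ i :: D ++ [a]) =
        (ml n A * (n i * (ml n D * n a * (ml n D)⁻¹)) * (ml n A)⁻¹) * ml n (A ++ D) := by
      rw [ml_append, ml_append, ml_append, ml_cons, ml_cons, ml_nil]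
      group
    have hw : ∀ j, wl C (A ++ i :: D ++ [a]) j = wl C (A ++ D) j := by
      intro j
      rw [wl_append, wl_append, wl_append, wl_cons, wl_cons, wl_nil, wl_s D, hD, C.s_s]
    rw [e1]
    refine mul_mem (h.ml_T hn A (h.mT i _ (hn i) _ h4)) (ih (A ++ D).length ?_ _ rfl ?_ ?_)
    · rw [← hlen]
      simp
    · intro j hj
      rcases List.mem_append.1 hj with h5 | h5
      · exact hA j h5
      · exact hDs j h5
    · intro j hj
      rw [← hw]
      exact hpos j hj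

/-- **`B ∩ N = T`** -/
theorem inf_eq : bb C X T ⊓ mm C n T = T := by
  refine le_antisymm ?_ (le_inf T_le_b T_le_m)
  rintro g ⟨hgB, hgN⟩
  obtain ⟨t, ht, l, hl, rfl⟩ := h.mem_m hn hgN
  refine mul_mem ht ?_
  have hB : ml n l ∈ bb C X T := by
    have h1 := mul_mem (inv_mem (T_le_b (C := C) (X := X) ht)) hgB
    rwa [inv_mul_cancel_left] at h1
  refine h.ml_mem_T hn _ l rfl hl fun j hj => ?_
  by_contra hcon
  obtain ⟨a, ha, ha1⟩ := h.ne j
  have h2 := h.ml_act hn l ha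
  have h3 := h.b_conj hB (mem_uu hj ha)
  have h4 := h.x_not_mem hcon h2 h3
  apply ha1
  have e2 : a = (ml n l)⁻¹ * (ml n l * a * (ml n l)⁻¹) * ml n l := by group
  rw [e2, h4]
  group

lemma inf_mem {g : L} (hb : g ∈ bb C X T) (hm : g ∈ mm C n T) : g ∈ T := by
  rw [← h.inf_eq hn]
  exact ⟨hb, hm⟩

lemma m_conj_T {g t : L} (hg : g ∈ mm C n T) (ht : t ∈ T) : g * t * g⁻¹ ∈ T := by
  obtain ⟨t', ht', l, -, rfl⟩ := h.mem_m hn hg
  have e1 : t' * ml n l * t * (t' * ml n l)⁻¹ = t' * (ml n l * t * (ml n l)⁻¹) * t'⁻¹ := by group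
  rw [e1]
  exact mul_mem (mul_mem ht' (h.ml_T hn l ht)) (inv_mem ht')

/-- the action of the elements of `N` on the root groups -/
lemma m_act {g : L} (hg : g ∈ mm C n T) : ∃ l : List ι, ∀ j, ∀ a ∈ X j,
    g * a * g⁻¹ ∈ X (wl C l j) := by
  obtain ⟨t, ht, l, -, rfl⟩ := h.mem_m hn hg
  refine ⟨l, fun j a ha => ?_⟩
  have e1 : t * ml n l * a * (t * ml n l)⁻¹ = t * (ml n l * a * (ml n l)⁻¹) * t⁻¹ := by group
  rw [e1]
  exact h.tact t ht _ _ (h.ml_act hn l ha)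

/-- the axiom of the double cosets -/
lemma mul_DC {i : ι} (hi : C.simp i) {b g : L} (hb : b ∈ bb C X T) (hg : g ∈ mm C n T) :
    DC (bb C X T) g (n i * b * g) ∨ DC (bb C X T) (n i * g) (n i * b * g) := by
  obtain ⟨u, hu, t, ht, rfl⟩ := h.mem_b hb
  obtain ⟨v, hv, c, hc, rfl⟩ := h.u_dec hi hu
  obtain ⟨l, hl⟩ := h.m_act hn (inv_mem hg)
  have hvB : n i * v * (n i)⁻¹ ∈ bb C X T := uu_le (ui_le i (h.ui_conj_m hi (hn i) hv))
  have htn : g⁻¹ * t * g ∈ bb C X T := by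
    have h1 := h.m_conj_T hn (inv_mem hg) ht
    rw [inv_inv] at h1
    exact T_le_b h1
  by_cases hk : C.pos (wl C l i)
  · right
    have h2 := hl i c hc
    rw [inv_inv] at h2
    refine ⟨n i * v * (n i)⁻¹, hvB, (g⁻¹ * c * g) * (g⁻¹ * t * g), mul_mem ?_ htn, ?_⟩
    · exact uu_le (mem_uu hk h2)
    · group
  · have hk' : C.pos (wl C l (C.neg i)) := by
      rw [wl_neg, C.pos_neg]
      exact hk
    by_cases hc1 : c = 1
    · right
      subst hc1
      refine ⟨n i * v * (n i)⁻¹, hvB, g⁻¹ * t * g, htn, ?_⟩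
      group
    · left
      obtain ⟨m, hm, b', hb', d, hd, rfl⟩ := h.dec i c hc hc1
      have h2 := hl _ d hd
      rw [inv_inv] at h2
      refine ⟨n i * v * (n i)⁻¹ * (n i * m) * b', mul_mem (mul_mem hvB ?_) ?_,
        (g⁻¹ * d * g) * (g⁻¹ * t * g), mul_mem ?_ htn, ?_⟩
      · exact T_le_b (h.mT i _ (hn i) _ hm)
      · exact uu_le (mem_uu (C.simp_pos i hi) hb')
      · exact uu_le (mem_uu hk' h2)
      · group

/-- generation -/
lemma gen_bm : bb C X T ⊔ mm C n T = ⊤ := by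
  rw [eq_top_iff, ← h.gen, gX, closure_le]
  have key : ∀ j, ∀ a ∈ X j, a ∈ bb C X T ⊔ mm C n T := by
    apply C.gen (fun j => ∀ a ∈ X j, a ∈ bb C X T ⊔ mm C n T)
    · intro i hi a ha
      exact mem_sup_left (uu_le (mem_uu (C.simp_pos i hi) ha))
    · intro i j hi hj a ha
      have h1 := h.mact' (hn i) ha
      rw [C.s_s] at h1
      have h2 := hj _ h1
      have h3 : n i ∈ bb C X T ⊔ mm C n T :=
        mem_sup_right (le_sup_left (a := closure (ss C n)) (subset_closure ⟨i, hi, rfl⟩))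
      have e : a = n i * ((n i)⁻¹ * a * n i) * (n i)⁻¹ := by group
      rw [e]
      exact mul_mem (mul_mem h3 h2) (inv_mem h3)
  rintro a ⟨j, -, ha⟩
  exact key j a ha

/-- the diagram is connected -/
lemma irr_of {i j : ι} (hi : C.simp i) (hj : C.simp j) (hij : i ≠ j) (hp : C.s i j ≠ j) :
    (n j * n i)⁻¹ * (n i * n j) ∉ bb C X T := by
  intro hB
  have haN : n i ∈ mm C n T := le_sup_left (a := closure (ss C n)) (subset_closure ⟨i, hi, rfl⟩)
  have hbN : n j ∈ mm C n T := le_sup_left (a := closure (ss C n)) (subset_closure ⟨j, hj, rfl⟩)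
  have hT : (n j * n i)⁻¹ * (n i * n j) ∈ T :=
    h.inf_mem hn hB (mul_mem (inv_mem (mul_mem hbN haN)) (mul_mem haN hbN))
  obtain ⟨a, ha, ha1⟩ := h.ne j
  have hv : C.pos (C.s i j) := C.s_pos i j hi (C.simp_pos j hj) (Ne.symm hij)
  have hvj : C.s i j ≠ j := hp
  have hw : C.pos (C.s j (C.s i j)) := C.s_pos j _ hj hv hvj
  have h1 := h.mact i _ _ (hn i) _ (h.mact j j _ (hn j) a ha)
  have h2 := h.mact j _ _ (hn j) _ (h.mact i j _ (hn i) _ (h.tact _ hT j a ha))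
  have e1 : n i * (n j * a * (n j)⁻¹) * (n i)⁻¹ = n j * (n i * ((n j * n i)⁻¹ * (n i * n j) * a *
      ((n j * n i)⁻¹ * (n i * n j))⁻¹) * (n i)⁻¹) * (n j)⁻¹ := by group
  rw [← e1] at h2
  rw [C.s_self, C.s_neg] at h1
  have hneg : ¬ C.pos (C.neg (C.s i j)) := by
    rw [C.pos_neg]
    exact not_not.2 hv
  have h3 := h.x_not_mem hneg h1 (mem_uu hw h2)
  apply ha1
  have e2 : a = (n j)⁻¹ * ((n i)⁻¹ * (n i * (n j * a * (n j)⁻¹) * (n i)⁻¹) * n i) * n j := by group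
  rw [e2, h3]
  group

end

/-- the subgroup generated by the positive root groups of order at least `c` is an `r`-group -/
theorem ord_pgroup {r : ℕ} [Fact r.Prime] (hX : ∀ i, IsPGroup r (X i)) (b : ℕ)
    (hb : ∀ i, C.pos i → C.ord i < b) :
    ∀ (d c : ℕ), b ≤ c + d → IsPGroup r (gX X (fun i => C.pos i ∧ c ≤ C.ord i)) := by
  intro d
  induction d with
  | zero =>
    intro c hc
    have h1 : gX X (fun i => C.pos i ∧ c ≤ C.ord i) = ⊥ := by
      rw [eq_bot_iff, gX, closure_le]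
      rintro _ ⟨i, hi, -⟩
      have := hb i hi.1
      have := hi.2
      omega
    rw [h1]
    exact IsPGroup.of_bot
  | succ d ih =>
    intro c hc
    have hV := ih (c + 1) (by omega)
    by_cases hex : ∃ i, C.pos i ∧ C.ord i = c
    · obtain ⟨i, hi, hic⟩ := hex
      have key : ∀ a ∈ X i, ∀ g ∈ gX X (fun i => C.pos i ∧ c + 1 ≤ C.ord i),
          a * g * a⁻¹ ∈ gX X (fun i => C.pos i ∧ c + 1 ≤ C.ord i) := by
        intro a ha g hg
        refine gX_conj (p := fun i => C.pos i ∧ c + 1 ≤ C.ord i) (fun j hj e he => ?_) hg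
        have hji : i ≠ j := by
          rintro rfl
          have := hj.2
          omega
        have h1 := h.comm i j hji (ne_neg hi hj.1) a ha e he
        have h2 : gX X (C.cone i j) ≤ gX X (fun i => C.pos i ∧ c + 1 ≤ C.ord i) :=
          gX_mono (q := fun i => C.pos i ∧ c + 1 ≤ C.ord i) fun k hk =>
            ⟨C.cone_pos i j k hk hi hj.1, by
              have h3 := C.cone_ord i j k hi hj.1 (by have := hj.2; omega) hk
              omega⟩
        have h3 : a * e * a⁻¹ = a * e * a⁻¹ * e⁻¹ * e := by rw [inv_mul_cancel_right]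
        rw [h3]
        exact mul_mem (h2 h1) (mem_gX (p := fun i => C.pos i ∧ c + 1 ≤ C.ord i) hj he)
      have hnn : X i ≤ normalizer (gX X (fun i => C.pos i ∧ c + 1 ≤ C.ord i) : Set L) := by
        intro a ha
        rw [mem_normalizer_iff]
        intro g
        constructor
        · exact key a ha g
        · intro hg
          have h1 := key a⁻¹ (inv_mem ha) _ hg
          have h2 : a⁻¹ * (a * g * a⁻¹) * a⁻¹⁻¹ = g := by group
          rwa [h2] at h1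
      have h3 := IsPGroup.to_sup_of_normal_right' (hX i) hV hnn
      refine h3.to_le ?_
      rw [gX, closure_le]
      rintro a ⟨j, hj, ha⟩
      by_cases hji : C.ord j = c
      · have : j = i := C.ord_inj j i hj.1 hi (hji.trans hic.symm)
        subst this
        exact mem_sup_left ha
      · exact mem_sup_right (mem_gX (p := fun i => C.pos i ∧ c + 1 ≤ C.ord i)
          ⟨hj.1, by have := hj.2; omega⟩ ha)
    · refine hV.to_le ?_
      rw [gX, closure_le]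
      rintro a ⟨j, hj, ha⟩
      refine mem_gX (p := fun i => C.pos i ∧ c + 1 ≤ C.ord i) ⟨hj.1, ?_⟩ ha
      have h1 : C.ord j ≠ c := fun h2 => hex ⟨j, hj.1, h2⟩
      have := hj.2
      omega

/-- `U` is an `r`-group -/
theorem uu_pgroup [Finite ι] {r : ℕ} [Fact r.Prime] (hX : ∀ i, IsPGroup r (X i)) :
    IsPGroup r (uu C X) := by
  classical
  have := Fintype.ofFinite ι
  have h1 := h.ord_pgroup hX (Finset.univ.sup C.ord + 1)
    (fun i _ => Nat.lt_succ_of_le (Finset.le_sup (Finset.mem_univ i))) _ 0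
    (by rw [zero_add])
  refine h1.to_le ?_
  rw [uu, gX, closure_le]
  rintro a ⟨j, hj, ha⟩
  exact mem_gX (p := fun i => C.pos i ∧ 0 ≤ C.ord i) ⟨hj, Nat.zero_le _⟩ ha

/-- the elements of `B` of `r`-power order -/
lemma mem_u_of_pow [Finite ι] {r : ℕ} [Fact r.Prime] (hX : ∀ i, IsPGroup r (X i))
    (hT : ∀ t ∈ T, ∀ k : ℕ, t ^ r ^ k = 1 → t = 1) {g : L} (hg : g ∈ bb C X T) {k : ℕ}
    (hk : g ^ r ^ k = 1) : g ∈ uu C X := by
  obtain ⟨u, hu, t, ht, rfl⟩ := h.mem_b hg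
  have h1 : ∀ n : ℕ, ∃ v ∈ uu C X, (u * t) ^ n = v * t ^ n := by
    intro n
    induction n with
    | zero => exact ⟨1, one_mem _, by simp⟩
    | succ n ih =>
      obtain ⟨v, hv, hv'⟩ := ih
      refine ⟨v * (t ^ n * u * (t ^ n)⁻¹), mul_mem hv (h.T_conj (pow_mem ht n) hu), ?_⟩
      rw [pow_succ, hv', pow_succ]
      group
  obtain ⟨v, hv, hv'⟩ := h1 (r ^ k)
  rw [hk] at hv'
  have h2 : t ^ r ^ k ∈ uu C X := by
    have h3 : t ^ r ^ k = v⁻¹ := eq_inv_of_mul_eq_one_right hv'.symm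
    rw [h3]
    exact inv_mem hv
  obtain ⟨m, hm⟩ := h.uu_pgroup hX ⟨_, h2⟩
  have h3 : (t ^ r ^ k) ^ r ^ m = 1 := by
    have := congrArg Subtype.val hm
    simpa using this
  rw [← pow_mul, ← pow_add] at h3
  rw [hT t ht _ h3, mul_one]
  exact hu

/-- **The split BN-pair.** -/
theorem splitBN [Finite ι] [Finite L] (hn : ∀ i, n i ∈ M i) {r : ℕ} [Fact r.Prime]
    (hX : ∀ i, IsPGroup r (X i)) (hT : ∀ t ∈ T, ∀ k : ℕ, t ^ r ^ k = 1 → t = 1) :
    SplitBN r (bb C X T) (mm C n T) (uu C X) (ss C n) where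
  norm g hg t ht htN := T_le_b (h.m_conj_T hn hg (h.inf_mem hn ht htN))
  sub := fun _ hs => (le_sup_left : _ ≤ mm C n T) (subset_closure hs)
  span := by rw [h.inf_eq hn]; rfl
  sq := by
    rintro _ ⟨i, hi, rfl⟩
    exact T_le_b (h.mT i _ (hn i) _ (hn i))
  mul := by
    rintro _ ⟨i, hi, rfl⟩ b hb g hg
    exact h.mul_DC hn hi hb hg
  thick := by
    rintro _ ⟨i, hi, rfl⟩
    obtain ⟨a, ha, ha1⟩ := h.ne i
    refine ⟨a, uu_le (mem_uu (C.simp_pos i hi) ha), fun hB => ?_⟩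
    have h1 := h.mact' (hn i) ha
    rw [C.s_self] at h1
    obtain ⟨k, hk⟩ := hX _ ⟨_, h1⟩
    have hk' : ((n i)⁻¹ * a * n i) ^ r ^ k = 1 := by
      have := congrArg Subtype.val hk
      simpa using this
    have h3 := h.x_not_mem (simp_neg_lt hi) h1 (h.mem_u_of_pow hX hT hB hk')
    apply ha1
    have e2 : a = n i * ((n i)⁻¹ * a * n i) * (n i)⁻¹ := by group
    rw [e2, h3]
    group
  gen := h.gen_bm hn
  le := uu_le
  pgroup := h.uu_pgroup hX
  normal b hb u hu := h.b_conj hb hu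
  split b hb := by
    obtain ⟨u, hu, t, ht, rfl⟩ := h.mem_b hb
    exact ⟨u, hu, t, T_le_b ht, T_le_m ht, rfl⟩
  coprime := by
    rw [h.inf_eq hn]
    intro hdvd
    obtain ⟨g, hg⟩ := exists_prime_orderOf_dvd_card' (G := T) r hdvd
    have h1 : g.1 = 1 := by
      refine hT g.1 g.2 1 ?_
      rw [pow_one]
      have h2 := pow_orderOf_eq_one g
      rw [hg] at h2
      have := congrArg Subtype.val h2
      simpa using this
    have h3 : g = 1 := Subtype.ext h1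
    rw [h3, orderOf_one] at hg
    exact (Fact.out : r.Prime).one_lt.ne hg
  strong := by
    rintro _ ⟨i, hi, rfl⟩ y hy hy' u hu
    exact ui_le i (h.ui_conj_m hi (hn i) (h.ui_normal hi hu (h.mem_ui hi (hn i) hy hy')))
  opp := by
    obtain ⟨l, hl, hl'⟩ := C.long
    refine ⟨ml n l, ml_mem hl, fun y hy hy' => ?_⟩
    have h1 : ml n l * y * (ml n l)⁻¹ ∈ um C X :=
      uu_conj (fun j hj a ha => mem_um (hl' j hj) (h.ml_act hn l ha)) hy
    have h2 : ml n l * y * (ml n l)⁻¹ ∈ uu C X ⊓ um C X := ⟨hy', h1⟩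
    rw [show uu C X ⊓ um C X = ⊥ from h.opp, mem_bot] at h2
    rw [mul_inv_eq_one, mul_eq_left] at h2
    exact h2
  nonempty := by
    obtain ⟨i, hi⟩ := C.ex
    exact ⟨_, i, hi, rfl⟩
  irr := by
    intro J hJ hne hne' _
    by_contra hcon
    push Not at hcon
    obtain ⟨b, hb, hbJ⟩ := hne'
    obtain ⟨j, hj, rfl⟩ := hb
    obtain ⟨a, ha⟩ := hne
    obtain ⟨i, hi, rfl⟩ := hJ ha
    apply hbJ
    refine C.conn (fun k => n k ∈ J) ⟨i, hi, ha⟩ ?_ j hj
    intro k l hk hl hkl hp hkJ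
    by_contra hlJ
    exact h.irr_of hn hk hl hkl hp (hcon _ hkJ _ ⟨⟨l, hl, rfl⟩, hlJ⟩)

/-- opposite elements map the opposite root groups into `U` -/
lemma X_opp (hn : ∀ i, n i ∈ M i) {g : L} (hg : g ∈ mm C n T)
    (hopp : ∀ y ∈ uu C X, g * y * g⁻¹ ∈ uu C X → y = 1) {i : ι} (hip : C.pos i) {c : L}
    (hc : c ∈ X (C.neg i)) : g⁻¹ * c * g ∈ uu C X := by
  obtain ⟨l, hl⟩ := h.m_act hn (inv_mem hg)
  have hpos : C.pos (wl C l (C.neg i)) := by
    by_contra hcon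
    rw [wl_neg, C.pos_neg, not_not] at hcon
    obtain ⟨a, ha, ha1⟩ := h.ne i
    have h3 := hl i a ha
    rw [inv_inv] at h3
    have h5 := hopp _ (mem_uu hcon h3) (by
      have e : g * (g⁻¹ * a * g) * g⁻¹ = a := by group
      rw [e]
      exact mem_uu hip ha)
    apply ha1
    have e : a = g * (g⁻¹ * a * g) * g⁻¹ := by group
    rw [e, h5]
    group
  have h3 := hl _ c hc
  rw [inv_inv] at h3
  exact mem_uu hpos h3

/-- the opposite root group of a simple root is contained in the parabolic subgroup -/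
lemma X_par (hn : ∀ i, n i ∈ M i) {i : ι} (hi : C.simp i) {c : L} (hc : c ∈ X (C.neg i)) :
    c ∈ Par (bb C X T) (n i) := by
  have h1 := h.mact' (hn i) hc
  rw [← C.s_self, C.s_s] at h1
  have e : c = n i * ((n i)⁻¹ * c * n i) * (n i)⁻¹ := by group
  rw [e]
  exact mul_mem (mul_mem self_mem_Par (le_Par (uu_le (mem_uu (C.simp_pos i hi) h1))))
    (inv_mem self_mem_Par)

/-- the elements of `g U g⁻¹ ∩ P_s` -/
lemma X_form [Finite L] (hn : ∀ i, n i ∈ M i) {r : ℕ} (hr : r.Prime)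
    (hB : SB r (bb C X T) (mm C n T) (uu C X) (ss C n))
    {g : L} (hg : g ∈ mm C n T) (hopp : ∀ y ∈ uu C X, g * y * g⁻¹ ∈ uu C X → y = 1)
    {i : ι} (hi : C.simp i) {y : L} (hyP : y ∈ Par (bb C X T) (n i))
    (hyU : g⁻¹ * y * g ∈ uu C X) : y ∈ X (C.neg i) := by
  have hip := C.simp_pos i hi
  have hs : n i ∈ ss C n := ⟨i, hi, rfl⟩
  have hsN := hB.sub _ hs
  have hone : ∀ z ∈ bb C X T, g⁻¹ * z * g ∈ uu C X → z = 1 := by
    intro z hz hz'
    have e : g * (g⁻¹ * z * g) * g⁻¹ = z := by group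
    have h1 := hB.conj_U hr hz' (by rw [e]; exact hz)
    have h2 := hopp _ hz' h1
    rw [h2, mul_one, mul_inv_cancel] at e
    exact e.symm
  by_cases hyB : y ∈ bb C X T
  · rw [hone y hyB hyU]
    exact one_mem _
  obtain ⟨u, hu, b, hb, hy⟩ := hB.coset_form hs hyP hyB
  obtain ⟨a, ha, v, hv, rfl⟩ := h.u_dec' hi hu
  have hv' := h.ui_conj_m hi (h.minv i _ (hn i)) hv
  rw [inv_inv] at hv'
  have hb' : ((n i)⁻¹ * v * n i) * b ∈ bb C X T := mul_mem (uu_le (ui_le i hv')) hb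
  have hy' : y = a * n i * (((n i)⁻¹ * v * n i) * b) := by rw [hy]; group
  by_cases ha1 : a = 1
  · exfalso
    rw [ha1, one_mul] at hy'
    have h1 : DC (bb C X T) g⁻¹ (g⁻¹ * n i) := by
      refine ⟨g⁻¹ * y * g, hB.le hyU, (((n i)⁻¹ * v * n i) * b)⁻¹, inv_mem hb', ?_⟩
      rw [hy']
      group
    have h2 := hB.inj (inv_mem hg) (mul_mem (inv_mem hg) hsN) h1
    have e : g⁻¹⁻¹ * (g⁻¹ * n i) = n i := by group
    rw [e] at h2
    exact hB.not_mem hs h2
  · obtain ⟨m, hm, b1, hb1, d, hd, e0⟩ := h.dec i a⁻¹ (inv_mem ha) (inv_ne_one.2 ha1)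
    have h1 : m⁻¹ * n i ∈ T := h.m_inv_m hm (hn i)
    -- `a n_i = d⁻¹ b1⁻¹ m⁻¹ n_i`
    have e1 : a * n i = d⁻¹ * (b1⁻¹ * (m⁻¹ * n i)) := by
      have e2 : a = (m * b1 * d)⁻¹ := by rw [← e0, inv_inv]
      rw [e2]
      group
    have h4 : b1⁻¹ * (m⁻¹ * n i) ∈ bb C X T :=
      mul_mem (uu_le (mem_uu hip (inv_mem hb1))) (T_le_b h1)
    have h5 : d * y ∈ bb C X T := by
      have e3 : d * y = (b1⁻¹ * (m⁻¹ * n i)) * (((n i)⁻¹ * v * n i) * b) := by
        rw [hy', e1]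
        group
      rw [e3]
      exact mul_mem h4 hb'
    have h6 : g⁻¹ * (d * y) * g ∈ uu C X := by
      have e : g⁻¹ * (d * y) * g = (g⁻¹ * d * g) * (g⁻¹ * y * g) := by group
      rw [e]
      exact mul_mem (h.X_opp hn hg hopp hip hd) hyU
    have h7 := hone _ h5 h6
    have h8 : y = d⁻¹ := eq_inv_of_mul_eq_one_right h7
    rw [h8]
    exact inv_mem hd

/-- rigidity from the opposite root groups of the simple roots -/
theorem rigidBN [Finite ι] [Finite L] (hn : ∀ i, n i ∈ M i) {r : ℕ} [Fact r.Prime]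
    (hB : SB r (bb C X T) (mm C n T) (uu C X) (ss C n)) (hs : IsSimpleGroup L)
    (hR : ∀ i, C.simp i → ∀ f : MulAut L, f ^ r = 1 → (∀ t ∈ T, f t = t) →
      (∀ y ∈ X (C.neg i), f y ∈ X (C.neg i)) → ∀ y ∈ X (C.neg i), f y = y) :
    RigidBN r (bb C X T) (mm C n T) (uu C X) (ss C n) := by
  refine hB.rigid_of_roots hs Fact.out ?_ ?_
  · intro a haB haN b hbB hbN
    exact h.tcomm a (h.inf_mem hn haB haN) b (h.inf_mem hn hbB hbN)
  rintro g hg hopp f hf hT s ⟨i, hi, rfl⟩ hpres y hyP hyU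
  have hip := C.simp_pos i hi
  refine hR i hi f hf (fun t ht => hT t (T_le_b ht) (T_le_m ht)) ?_ y
    (h.X_form hn Fact.out hB hg hopp hi hyP hyU)
  intro z hz
  have h1 := hpres z (h.X_par hn hi hz) (h.X_opp hn hg hopp hip hz)
  exact h.X_form hn Fact.out hB hg hopp hi h1.1 h1.2

end RD

end

end Vale.Agent.P240.R2.H387.O
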