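import Mathlib.Algebra.Field.Basic
import Mathlib.Algebra.Group.Subgroup.Lattice
import Mathlib.Data.ZMod.Basic

/-!
The Ree groups `²F₄(q)` in terms of root groups (a root group datum whose root system consists of the
`16` roots of the dihedral group of order `16`, at angles `2 π i / 16`).
-/

set_option autoImplicit false

namespace Vale.Agent.P240.R2.H387

open Subgroup

section
variable {L : Type*} [Group L]

/-- The roots are the elements of `ZMod 16`; the root `i + 8` is opposite to `i`, and the reflection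
in `i` maps `j` to `2 i + 8 - j`. The element `m ∈ X_{-i} X_i X_{-i}` represents this reflection:
`m X_j m⁻¹ = X_{2 i + 8 - j}` for all roots `j`. -/
def OctRep (X : ZMod 16 → Subgroup L) (i : ZMod 16) (m : L) : Prop :=
  (∃ b ∈ X (i + 8), ∃ a ∈ X i, ∃ c ∈ X (i + 8), m = b * a * c) ∧
    ∀ j a, a ∈ X j ↔ m * a * m⁻¹ ∈ X (2 * i + 8 - j)

/-- The torus, generated by the products of two representatives of the same reflection. -/
def OctTorus (X : ZMod 16 → Subgroup L) : Subgroup L :=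
  closure {g | ∃ i m m', OctRep X i m ∧ OctRep X i m' ∧ g = m * m'}

/-- `X` is isomorphic to the additive group of `F`, the elements of `T` act on `X` as multiplications
by nonzero elements of `F`, and all these multiplications occur. -/
def FieldGroup (F : Type*) [Field F] (T X : Subgroup L) : Prop :=
  ∃ z : F → L, Function.Injective z ∧ (∀ g, g ∈ X ↔ ∃ a, g = z a) ∧
    (∀ a c, z (a + c) = z a * z c) ∧
    (∀ t ∈ T, ∃ μ : F, μ ≠ 0 ∧ ∀ a, t * z a * t⁻¹ = z (μ * a)) ∧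
    ∀ μ : F, μ ≠ 0 → ∃ t ∈ T, ∀ a, t * z a * t⁻¹ = z (μ * a)

/-- `X` is the Suzuki `2`-group of pairs with `(a, b) (c, d) = (a + c, b + d + θ(a) c)`, the elements
of `T` act on `X` as `(a, b) ↦ (μ a, μ θ(μ) b)` for some `μ ≠ 0`, and all `μ ≠ 0` occur. -/
def SuzukiGroup {F : Type*} [Field F] (θ : F →+* F) (T X : Subgroup L) : Prop :=
  ∃ z : F → F → L, (∀ a b c d, z a b = z c d → a = c ∧ b = d) ∧ (∀ g, g ∈ X ↔ ∃ a b, g = z a b) ∧
    (∀ a b c d, z a b * z c d = z (a + c) (b + d + θ a * c)) ∧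
    (∀ t ∈ T, ∃ μ : F, μ ≠ 0 ∧ ∀ a b, t * z a b * t⁻¹ = z (μ * a) (μ * θ μ * b)) ∧
    ∀ μ : F, μ ≠ 0 → ∃ t ∈ T, ∀ a b, t * z a b * t⁻¹ = z (μ * a) (μ * θ μ * b)

end

/-- `L` has the root groups of the Ree group `²F₄(q)`, `q = |F| = 2 ^ (2 k + 1) > 2`: the root groups
`X_i`, `i ∈ ZMod 16`, are isomorphic to `F` for even `i`, and Suzuki `2`-groups for odd `i`;
`[X_i, X_j]` lies in the group generated by the `X_k` with `k` strictly between `i` and `j`, if `j` is
one of `i + 1, …, i + 7`; for `a ∈ X_i`, `a ≠ 1`, the set `X_{-i} a X_{-i}` contains a representative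
of the reflection in `i`; the groups generated by the positive (`0, …, 7`) and the negative
(`8, …, 15`) root groups meet in `1`, and all root groups generate `L`. -/
def Is2F4 (F : Type*) [Field F] (L : Type*) [Group L] : Prop :=
  ∃ (θ : F →+* F) (X : ZMod 16 → Subgroup L), (∀ a, θ (θ a) = a ^ 2) ∧ (∃ a, θ a ≠ a) ∧
    (∀ i, i.val % 2 = 0 → FieldGroup F (OctTorus X) (X i)) ∧
    (∀ i, i.val % 2 = 1 → SuzukiGroup θ (OctTorus X) (X i)) ∧
    (∀ i j, 0 < (j - i).val → (j - i).val < 8 → ∀ a ∈ X i, ∀ b ∈ X j, a * b * a⁻¹ * b⁻¹ ∈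
      closure {g | ∃ k, 0 < (k - i).val ∧ (k - i).val < (j - i).val ∧ g ∈ X k}) ∧
    (∀ i, ∀ a ∈ X i, a ≠ 1 → ∃ b ∈ X (i + 8), ∃ c ∈ X (i + 8), OctRep X i (b * a * c)) ∧
    closure {g | ∃ i : ZMod 16, i.val < 8 ∧ g ∈ X i} ⊓
      closure {g | ∃ i : ZMod 16, 8 ≤ i.val ∧ g ∈ X i} = ⊥ ∧
    closure {g | ∃ i, g ∈ X i} = ⊤

end Vale.Agent.P240.R2.H387
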