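import Vale.Agent.P240.R2.H387.O1
import Vale.Agent.P240.R2.H387.ODefs

/-!
The combinatorics of the octagon, and the two types of root groups.
-/

set_option autoImplicit false
set_option linter.all false

namespace Vale.Agent.P240.R2.H387.O

open Subgroup Vale.Agent.P240.H195
open Vale.Agent.P240.R2.H775.RG (lin_fix)

/-- the root system of type `I₂(8)` -/
def oct : RW (ZMod 16) where
  pos i := i.val < 8
  neg i := i + 8
  s i j := 2 * i + 8 - j
  simp i := i = 0 ∨ i = 7
  cone i j k := (0 < (k - i).val ∧ (k - i).val < (j - i).val ∧ (j - i).val < 8) ∨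
    (0 < (k - j).val ∧ (k - j).val < (i - j).val ∧ (i - j).val < 8)
  ord i := i.val
  pos_neg := by decide +kernel
  s_s := by decide +kernel
  s_self := by decide +kernel
  s_neg := by decide +kernel
  s_conj := by decide +kernel
  simp_pos := by decide +kernel
  s_pos := by decide +kernel
  cone_pos := by decide +kernel
  cone_simp := by decide +kernel
  cone_ord := by decide +kernel
  ord_inj := by decide +kernel
  long := ⟨[0, 7, 0, 7, 0, 7, 0, 7], by decide +kernel, by decide +kernel⟩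
  gen := by
    intro p h0 h1
    have a0 : p 0 := h0 0 (Or.inl rfl)
    have a7 : p 7 := h0 7 (Or.inr rfl)
    have s0 : ∀ j, p j → p (8 - j) := fun j hj => by
      have := h1 0 j (Or.inl rfl) hj
      have e : (2 * 0 + 8 - j : ZMod 16) = 8 - j := by ring
      rwa [e] at this
    have s7 : ∀ j, p j → p (6 - j) := fun j hj => by
      have := h1 7 j (Or.inr rfl) hj
      have e : (2 * 7 + 8 - j : ZMod 16) = 6 - j := by
        have : (2 * 7 + 8 : ZMod 16) = 6 := by decide +kernel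
        rw [this]
      rwa [e] at this
    have a8 : p 8 := s0 _ a0
    have a1 : p 1 := s0 _ a7
    have a6 : p 6 := s7 _ a0
    have a15 : p 15 := s7 _ a7
    have a14 : p 14 := s7 _ a8
    have a5 : p 5 := s7 _ a1
    have a2 : p 2 := s0 _ a6
    have a9 : p 9 := s0 _ a15
    have a10 : p 10 := s0 _ a14
    have a3 : p 3 := s0 _ a5
    have a4 : p 4 := s7 _ a2
    have a13 : p 13 := s7 _ a9
    have a12 : p 12 := s7 _ a10
    have a11 : p 11 := s0 _ a13
    intro j
    have hj : j = 0 ∨ j = 1 ∨ j = 2 ∨ j = 3 ∨ j = 4 ∨ j = 5 ∨ j = 6 ∨ j = 7 ∨ j = 8 ∨ j = 9 ∨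
        j = 10 ∨ j = 11 ∨ j = 12 ∨ j = 13 ∨ j = 14 ∨ j = 15 := by
      revert j
      decide +kernel
    rcases hj with h | h | h | h | h | h | h | h | h | h | h | h | h | h | h | h <;> rw [h] <;>
      assumption
  conn := by
    rintro p ⟨i, hi, hpi⟩ h j hj
    rcases hi with rfl | rfl <;> rcases hj with rfl | rfl
    · exact hpi
    · exact h 0 7 (Or.inl rfl) (Or.inr rfl) (by decide +kernel) (by decide +kernel) hpi
    · exact h 7 0 (Or.inr rfl) (Or.inl rfl) (by decide +kernel) (by decide +kernel) hpi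
    · exact hpi
  ex := ⟨0, Or.inl rfl⟩

section
variable {M : Type*} [Group M]

/-- the properties of a root group `X` relative to the torus `T` that are needed -/
structure Good (T X : Subgroup M) : Prop where
  comm : ∀ s ∈ T, ∀ t ∈ T, ∀ g ∈ X, s * t * g * (s * t)⁻¹ = t * s * g * (t * s)⁻¹
  odd : ∀ t ∈ T, ∀ k : ℕ, t ^ 2 ^ k = 1 → ∀ g ∈ X, t * g * t⁻¹ = g
  pgrp : IsPGroup 2 X
  ne : ∃ a ∈ X, a ≠ 1
  rigid : ∀ f : MulAut M, f ^ 2 = 1 → (∀ t ∈ T, f t = t) → (∀ y ∈ X, f y ∈ X) → ∀ y ∈ X, f y = y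

variable {F : Type*} [Field F]

lemma two_zero' {θ : F →+* F} (hθ : ∀ x, θ (θ x) = x ^ 2) : (2 : F) = 0 := by
  have h1 := hθ (1 + 1)
  rw [map_add, map_one, map_add, map_one] at h1
  linear_combination -h1

lemma pow_two_pow_eq_one (h2 : (2 : F) = 0) {μ : F} : ∀ {k : ℕ}, μ ^ 2 ^ k = 1 → μ = 1 := by
  intro k
  induction k with
  | zero => intro h; simpa using h
  | succ k ih =>
    intro h
    apply ih
    rw [pow_succ, pow_mul] at h
    have h3 : (μ ^ 2 ^ k - 1) ^ 2 = 0 := by linear_combination h + (1 - μ ^ 2 ^ k) * h2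
    exact sub_eq_zero.1 (pow_eq_zero_iff two_ne_zero |>.1 h3)

/-- root groups isomorphic to `F` -/
lemma good_field [Finite F] (h2 : (2 : F) = 0) {T X : Subgroup M} (h : FieldGroup F T X) :
    Good T X := by
  obtain ⟨z, hinj, hX, hadd, hact, hall⟩ := h
  have h0 : z 0 = 1 := by
    have h1 := hadd 0 0
    rw [add_zero] at h1
    exact mul_eq_left.1 h1.symm
  have : CharP F 2 := by
    refine CharTwo.of_one_ne_zero_of_two_eq_zero one_ne_zero h2
  refine ⟨?_, ?_, ?_, ?_, ?_⟩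
  · intro s hs t ht g hg
    obtain ⟨a, rfl⟩ := (hX g).1 hg
    obtain ⟨μ, -, hμ⟩ := hact s hs
    obtain ⟨ν, -, hν⟩ := hact t ht
    have e1 : s * t * z a * (s * t)⁻¹ = s * (t * z a * t⁻¹) * s⁻¹ := by group
    have e2 : t * s * z a * (t * s)⁻¹ = t * (s * z a * s⁻¹) * t⁻¹ := by group
    rw [e1, e2, hν, hμ, hμ, hν]
    congr 1
    ring
  · intro t ht k hk g hg
    obtain ⟨a, rfl⟩ := (hX g).1 hg
    obtain ⟨μ, hμ0, hμ⟩ := hact t ht
    have h1 : ∀ n : ℕ, ∀ c, t ^ n * z c * (t ^ n)⁻¹ = z (μ ^ n * c) := by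
      intro n
      induction n with
      | zero => intro c; simp
      | succ n ih =>
        intro c
        have e1 : t ^ (n + 1) * z c * (t ^ (n + 1))⁻¹ = t * (t ^ n * z c * (t ^ n)⁻¹) * t⁻¹ := by
          rw [pow_succ']; group
        rw [e1, ih, hμ, pow_succ', mul_assoc]
    have h3 := h1 (2 ^ k) 1
    rw [hk, one_mul, inv_one, mul_one, mul_one] at h3
    have h4 := pow_two_pow_eq_one h2 (hinj h3).symm
    rw [hμ, h4, one_mul]
  · rintro ⟨g, hg⟩
    obtain ⟨a, rfl⟩ := (hX g).1 hg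
    refine ⟨1, Subtype.ext ?_⟩
    change z a ^ 2 ^ 1 = 1
    rw [pow_one, sq, ← hadd, ← h0]
    congr 1
    linear_combination a * h2
  · refine ⟨z 1, (hX _).2 ⟨1, rfl⟩, fun h1 => ?_⟩
    rw [← h0] at h1
    exact one_ne_zero (hinj h1)
  · intro f hf hT hfX y hy
    obtain ⟨c, rfl⟩ := (hX y).1 hy
    have : Fact (Nat.Prime 2) := ⟨Nat.prime_two⟩
    refine lin_fix z hinj hadd hf ?_ ?_ c
    · intro c
      exact (hX _).1 (hfX _ ((hX _).2 ⟨c, rfl⟩))
    · intro a ha
      obtain ⟨t, ht, htc⟩ := hall (a ^ 2) (pow_ne_zero 2 ha)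
      exact ⟨t, hT t ht, htc⟩

/-- an automorphism of order two of a Suzuki `2`-group that commutes with the torus is trivial -/
lemma sz_fix [Finite F] {θ : F →+* F} (hθ : ∀ x, θ (θ x) = x ^ 2) (hne : ∃ x, θ x ≠ x)
    (z : F → F → M) (hinj : ∀ a b c d, z a b = z c d → a = c ∧ b = d)
    (hmul : ∀ a b c d, z a b * z c d = z (a + c) (b + d + θ a * c)) {f : MulAut M}
    (hf : f ^ 2 = 1) (hfz : ∀ a b, ∃ c d, f (z a b) = z c d)
    (hT : ∀ μ : F, μ ≠ 0 → ∃ t, f t = t ∧ ∀ a b, t * z a b * t⁻¹ = z (μ * a) (μ * θ μ * b)) :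
    ∀ a b, f (z a b) = z a b := by
  have h2 := two_zero' hθ
  have hff : ∀ g, f (f g) = g := by
    intro g
    rw [← MulAut.mul_apply, ← sq, hf, MulAut.one_apply]
  choose α β hαβ using hfz
  -- squares
  have hsq : ∀ a b : F, z a b * z a b = z 0 (θ a * a) := by
    intro a b
    rw [hmul]
    congr 1
    · linear_combination a * h2
    · linear_combination b * h2
  have hα : ∀ a b c d : F, f (z a b) = z c d → f (z 0 (θ a * a)) = z 0 (θ c * c) := by
    intro a b c d h
    rw [← hsq a b, map_mul, h, hsq]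
  have hroot : ∀ c : F, ∃ a : F, c = θ a * a := by
    intro c
    by_cases hc : c = 0
    · exact ⟨0, by rw [hc, mul_zero]⟩
    · have hc' : θ c ≠ 0 := (map_ne_zero θ).2 hc
      refine ⟨θ c / c, ?_⟩
      rw [map_div₀, hθ]
      field_simp
  -- the centre
  have hψ : ∀ c : F, ∃ d, f (z 0 c) = z 0 d := by
    intro c
    obtain ⟨a, rfl⟩ := hroot c
    exact ⟨_, hα a 0 _ _ (hαβ a 0)⟩
  choose ψ hψ using hψ
  have hTf : ∀ {μ : F}, μ ≠ 0 → ∀ {a b c d : F}, f (z a b) = z c d →
      f (z (μ * a) (μ * θ μ * b)) = z (μ * c) (μ * θ μ * d) := by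
    intro μ hμ a b c d h
    obtain ⟨t, ht, htz⟩ := hT μ hμ
    rw [← htz, map_mul, map_mul, map_inv, ht, h, htz]
  have hψT : ∀ {μ : F}, μ ≠ 0 → ∀ c : F, ψ (μ * θ μ * c) = μ * θ μ * ψ c := by
    intro μ hμ c
    have h1 := hTf hμ (hψ c)
    rw [mul_zero, hψ] at h1
    exact (hinj _ _ _ _ h1).2
  have hψ0 : ψ 0 = 0 := by
    have h1 : z 0 0 = 1 := by
      have h3 := hmul 0 0 0 0
      rw [add_zero, map_zero, mul_zero, add_zero] at h3
      exact mul_eq_left.1 h3
    have h3 := hψ 0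
    rw [h1, map_one, ← h1] at h3
    exact (hinj _ _ _ _ h3).2.symm
  have hψm : ∀ c : F, ψ c = c * ψ 1 := by
    intro c
    by_cases hc : c = 0
    · rw [hc, hψ0, zero_mul]
    · obtain ⟨a, ha⟩ := hroot c
      have ha0 : a ≠ 0 := by
        rintro rfl
        rw [mul_zero] at ha
        exact hc ha
      have h1 := hψT ha0 1
      rw [mul_one, mul_comm a (θ a), ← ha] at h1
      exact h1
  have hψ1 : ψ 1 = 1 := by
    have h1 := hff (z 0 1)
    rw [hψ, hψ] at h1
    have h3 := (hinj _ _ _ _ h1).2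
    rw [hψm] at h3
    have h4 : (ψ 1 - 1) ^ 2 = 0 := by linear_combination h3 + (1 - ψ 1) * h2
    exact sub_eq_zero.1 (pow_eq_zero_iff two_ne_zero |>.1 h4)
  have hcen : ∀ c : F, f (z 0 c) = z 0 c := by
    intro c
    rw [hψ, hψm, hψ1, mul_one]
  -- the first coordinate
  have hfix : ∀ a b : F, α a b = a := by
    intro a b
    have h1 := hα a b _ _ (hαβ a b)
    rw [hcen] at h1
    have h3 := (hinj _ _ _ _ h1).2
    by_cases ha : a = 0
    · rw [ha, mul_zero] at h3
      rcases mul_eq_zero.1 h3.symm with h4 | h4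
      · rw [ha]
        exact (map_eq_zero θ).1 h4
      · rw [ha]
        exact h4
    · have hA : θ a ≠ 0 := (map_ne_zero θ).2 ha
      obtain ⟨k, hk⟩ : ∃ k, k = α a b / a := ⟨_, rfl⟩
      have h4 : k * θ k = 1 := by
        rw [hk, map_div₀]
        field_simp
        linear_combination -h3
      have h5 := congrArg θ h4
      rw [map_mul, hθ, map_one] at h5
      have h6 : k = 1 := by
        have h7 : k ^ 2 * θ k = k := by linear_combination k * h4
        rw [← h7]
        linear_combination h5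
      rw [h6] at hk
      field_simp at hk
      exact hk.symm
  -- the second coordinate
  obtain ⟨δ, hδ⟩ : ∃ δ : F → F, ∀ a, f (z a 0) = z a (δ a) :=
    ⟨fun a => β a 0, fun a => by rw [hαβ, hfix]⟩
  have hδadd : ∀ a c : F, δ (a + c) = δ a + δ c := by
    intro a c
    have h1 : z a 0 * z c 0 = z (a + c) 0 * z 0 (θ a * c) := by
      rw [hmul, hmul]
      congr 1 <;> ring
    have h3 := congrArg f h1
    rw [map_mul, map_mul, hδ, hδ, hδ, hcen, hmul, hmul] at h3
    have h4 := (hinj _ _ _ _ h3).2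
    linear_combination -h4
  have hδT : ∀ {k : F}, k ≠ 0 → δ k = k * θ k * δ 1 := by
    intro k hk
    have h1 := hTf hk (hδ 1)
    rw [mul_one, mul_zero, hδ] at h1
    exact (hinj _ _ _ _ h1).2
  have hδ1 : δ 1 = 0 := by
    obtain ⟨x, hx⟩ := hne
    by_contra hcon
    have hx0 : x ≠ 0 := by
      rintro rfl
      exact hx (map_zero θ)
    have hx1 : 1 + x ≠ 0 := by
      intro h
      have : x = 1 := by linear_combination h - h2
      rw [this, map_one] at hx
      exact hx rfl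
    have h1 := hδadd 1 x
    rw [hδT hx1, hδT hx0, map_add, map_one] at h1
    have h3 : (x + θ x) * δ 1 = 0 := by linear_combination h1
    rcases mul_eq_zero.1 h3 with h4 | h4
    · exact hx (by linear_combination h4 - x * h2)
    · exact hcon h4
  have hδ0 : ∀ a, δ a = 0 := by
    intro a
    by_cases ha : a = 0
    · have h1 := hδadd 0 0
      rw [add_zero] at h1
      rw [ha]
      linear_combination -h1
    · rw [hδT ha, hδ1, mul_zero]
  intro a b
  have h1 : z a b = z a 0 * z 0 b := by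
    rw [hmul]
    congr 1 <;> ring
  rw [h1, map_mul, hcen, hδ, hδ0]

/-- root groups that are Suzuki `2`-groups -/
lemma good_suzuki [Finite F] {θ : F →+* F} (hθ : ∀ x, θ (θ x) = x ^ 2) (hne : ∃ x, θ x ≠ x)
    {T X : Subgroup M} (h : SuzukiGroup θ T X) : Good T X := by
  have h2 := two_zero' hθ
  obtain ⟨z, hinj, hX, hmul, hact, hall⟩ := h
  have h0 : z 0 0 = 1 := by
    have h3 := hmul 0 0 0 0
    rw [add_zero, map_zero, mul_zero, add_zero] at h3
    exact mul_eq_left.1 h3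
  refine ⟨?_, ?_, ?_, ?_, ?_⟩
  · intro s hs t ht g hg
    obtain ⟨a, b, rfl⟩ := (hX g).1 hg
    obtain ⟨μ, -, hμ⟩ := hact s hs
    obtain ⟨ν, -, hν⟩ := hact t ht
    have e1 : s * t * z a b * (s * t)⁻¹ = s * (t * z a b * t⁻¹) * s⁻¹ := by group
    have e2 : t * s * z a b * (t * s)⁻¹ = t * (s * z a b * s⁻¹) * t⁻¹ := by group
    rw [e1, e2, hν, hμ, hμ, hν]
    congr 1 <;> ring
  · intro t ht k hk g hg
    obtain ⟨a, b, rfl⟩ := (hX g).1 hg
    obtain ⟨μ, hμ0, hμ⟩ := hact t ht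
    have h1 : ∀ n : ℕ, ∀ c d, ∃ e, t ^ n * z c d * (t ^ n)⁻¹ = z (μ ^ n * c) e := by
      intro n
      induction n with
      | zero => intro c d; exact ⟨d, by simp⟩
      | succ n ih =>
        intro c d
        obtain ⟨e, he⟩ := ih c d
        have e1 : t ^ (n + 1) * z c d * (t ^ (n + 1))⁻¹ =
            t * (t ^ n * z c d * (t ^ n)⁻¹) * t⁻¹ := by
          rw [pow_succ']; group
        refine ⟨μ * θ μ * e, ?_⟩
        have e3 : μ * (μ ^ n * c) = μ ^ (n + 1) * c := by rw [pow_succ', mul_assoc]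
        rw [e1, he, hμ, e3]
    obtain ⟨e, h3⟩ := h1 (2 ^ k) 1 0
    rw [hk, one_mul, inv_one, mul_one, mul_one] at h3
    have h4 := pow_two_pow_eq_one h2 (hinj _ _ _ _ h3).1.symm
    rw [hμ, h4, map_one, one_mul, one_mul, one_mul]
  · rintro ⟨g, hg⟩
    obtain ⟨a, b, rfl⟩ := (hX g).1 hg
    refine ⟨2, Subtype.ext ?_⟩
    change z a b ^ 2 ^ 2 = 1
    have e1 : z a b ^ 2 ^ 2 = (z a b * z a b) * (z a b * z a b) := by
      rw [show (2 : ℕ) ^ 2 = 4 from rfl]
      simp only [pow_succ, pow_zero, one_mul, mul_assoc]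
    rw [e1, hmul, hmul, ← h0]
    congr 1
    · linear_combination (2 * a) * h2
    · linear_combination (b + b + θ a * a) * h2 + θ (a + a) * a * h2
  · refine ⟨z 1 0, (hX _).2 ⟨1, 0, rfl⟩, fun h1 => ?_⟩
    rw [← h0] at h1
    exact one_ne_zero (hinj _ _ _ _ h1).1
  · intro f hf hT hfX y hy
    obtain ⟨c, d, rfl⟩ := (hX y).1 hy
    refine sz_fix hθ hne z hinj hmul hf ?_ ?_ c d
    · intro c d
      exact (hX _).1 (hfX _ ((hX _).2 ⟨c, d, rfl⟩))
    · intro a ha
      obtain ⟨t, ht, htc⟩ := hall a ha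
      exact ⟨t, hT t ht, htc⟩

end

end Vale.Agent.P240.R2.H387.O
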