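import Vale.Agent.P240.R2.H387.O2

/-!
The groups with the root groups of `²F₄(q)`: split BN-pair and rigidity.
-/

set_option autoImplicit false
set_option linter.all false

namespace Vale.Agent.P240.R2.H387.O

open Subgroup Vale.Agent.P240.H195

universe u v

section
variable {L : Type*} [Group L] {X : ZMod 16 → Subgroup L}

lemma rep_act {i : ZMod 16} {m : L} (hm : OctRep X i m) (j : ZMod 16) (a : L) :
    a ∈ X j ↔ m * a * m⁻¹ ∈ X (oct.s i j) := hm.2 j a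

lemma rep_act' {i : ZMod 16} {m : L} (hm : OctRep X i m) (j : ZMod 16) (a : L) :
    a ∈ X j ↔ m⁻¹ * a * m ∈ X (oct.s i j) := by
  rw [rep_act hm (oct.s i j) (m⁻¹ * a * m), oct.s_s]
  have e : m * (m⁻¹ * a * m) * m⁻¹ = a := by group
  rw [e]

lemma rep_inv {i : ZMod 16} {m : L} (hm : OctRep X i m) : OctRep X i m⁻¹ := by
  obtain ⟨⟨b, hb, a, ha, c, hc, e⟩, -⟩ := id hm
  refine ⟨⟨c⁻¹, inv_mem hc, a⁻¹, inv_mem ha, b⁻¹, inv_mem hb, ?_⟩, fun j g => ?_⟩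
  · rw [e]; group
  · rw [inv_inv]
    exact rep_act' hm j g

lemma rep_conj {i j : ZMod 16} {m m' : L} (hm : OctRep X j m) (hm' : OctRep X i m') :
    OctRep X (oct.s j i) (m * m' * m⁻¹) := by
  obtain ⟨⟨b, hb, a, ha, c, hc, e⟩, -⟩ := id hm'
  have h8 : oct.s j (i + 8) = oct.s j i + 8 := oct.s_neg j i
  refine ⟨⟨m * b * m⁻¹, ?_, m * a * m⁻¹, (rep_act hm _ _).1 ha, m * c * m⁻¹, ?_, ?_⟩,
    fun k g => ?_⟩
  · rw [← h8]
    exact (rep_act hm _ _).1 hb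
  · rw [← h8]
    exact (rep_act hm _ _).1 hc
  · rw [e]; group
  · change g ∈ X k ↔ m * m' * m⁻¹ * g * (m * m' * m⁻¹)⁻¹ ∈ X (oct.s (oct.s j i) k)
    rw [oct.s_conj, rep_act' hm k g, rep_act hm' _ (m⁻¹ * g * m),
      rep_act hm _ (m' * (m⁻¹ * g * m) * m'⁻¹)]
    have e : m * (m' * (m⁻¹ * g * m) * m'⁻¹) * m⁻¹ = m * m' * m⁻¹ * g * (m * m' * m⁻¹)⁻¹ := by
      group
    rw [e]

lemma tor_act {t : L} (ht : t ∈ OctTorus X) : ∀ j, ∀ a, a ∈ X j ↔ t * a * t⁻¹ ∈ X j := by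
  refine closure_induction (p := fun t _ => ∀ j, ∀ a, a ∈ X j ↔ t * a * t⁻¹ ∈ X j) ?_ ?_ ?_ ?_ ht
  · rintro _ ⟨i, m, m', hm, hm', rfl⟩ j a
    rw [rep_act hm' j a, rep_act hm _ (m' * a * m'⁻¹), oct.s_s]
    have e : m * (m' * a * m'⁻¹) * m⁻¹ = m * m' * a * (m * m')⁻¹ := by group
    rw [e]
  · intro j a
    simp
  · intro s t _ _ hs ht j a
    rw [ht j a, hs j (t * a * t⁻¹)]
    have e : s * (t * a * t⁻¹) * s⁻¹ = s * t * a * (s * t)⁻¹ := by group
    rw [e]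
  · intro s _ hs j a
    rw [hs j (s⁻¹ * a * s⁻¹⁻¹)]
    have e : s * (s⁻¹ * a * s⁻¹⁻¹) * s⁻¹ = a := by group
    rw [e]

lemma tor_norm {j : ZMod 16} {m t : L} (hm : OctRep X j m) (ht : t ∈ OctTorus X) :
    m * t * m⁻¹ ∈ OctTorus X := by
  refine closure_induction (p := fun t _ => m * t * m⁻¹ ∈ OctTorus X) ?_ ?_ ?_ ?_ ht
  · rintro _ ⟨i, n, n', hn, hn', rfl⟩
    refine subset_closure ⟨oct.s j i, m * n * m⁻¹, m * n' * m⁻¹, rep_conj hm hn,
      rep_conj hm hn', ?_⟩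
    group
  · rw [mul_one, mul_inv_cancel]
    exact one_mem _
  · intro s t _ _ hs ht
    have e : m * (s * t) * m⁻¹ = (m * s * m⁻¹) * (m * t * m⁻¹) := by group
    rw [e]
    exact mul_mem hs ht
  · intro s _ hs
    have e : m * s⁻¹ * m⁻¹ = (m * s * m⁻¹)⁻¹ := by group
    rw [e]
    exact inv_mem hs

lemma central (hc : ∀ g : L, (∀ y, g * y = y * g) → g = 1) (hgen : closure {g | ∃ i, g ∈ X i} = ⊤)
    {g : L} (hg : ∀ j, ∀ a ∈ X j, g * a * g⁻¹ = a) : g = 1 := by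
  apply hc
  intro y
  have h1 : y ∈ centralizer ({g} : Set L) := by
    have h2 : (⊤ : Subgroup L) ≤ centralizer ({g} : Set L) := by
      rw [← hgen, closure_le]
      rintro a ⟨j, ha⟩
      rw [SetLike.mem_coe, mem_centralizer_singleton_iff]
      rw [mul_inv_eq_iff_eq_mul.1 (hg j a ha)]
    exact h2 (mem_top y)
  rw [mem_centralizer_singleton_iff] at h1
  exact h1.symm

/-- the root group data -/
lemma rd_of (hX : ∀ i, Good (OctTorus X) (X i))
    (hcomm : ∀ i j, 0 < (j - i).val → (j - i).val < 8 → ∀ a ∈ X i, ∀ b ∈ X j,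
      a * b * a⁻¹ * b⁻¹ ∈
        closure {g | ∃ k, 0 < (k - i).val ∧ (k - i).val < (j - i).val ∧ g ∈ X k})
    (hrep : ∀ i, ∀ a ∈ X i, a ≠ 1 → ∃ b ∈ X (i + 8), ∃ c ∈ X (i + 8), OctRep X i (b * a * c))
    (hopp : closure {g | ∃ i : ZMod 16, i.val < 8 ∧ g ∈ X i} ⊓
      closure {g | ∃ i : ZMod 16, 8 ≤ i.val ∧ g ∈ X i} = ⊥)
    (hgen : closure {g | ∃ i, g ∈ X i} = ⊤)
    (hc : ∀ g : L, (∀ y, g * y = y * g) → g = 1) :
    RD oct X (fun i => {m | OctRep X i m}) (OctTorus X) where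
  comm i j hij hij' a ha b hb := by
    have key : ∀ i j : ZMod 16, i ≠ j → i ≠ j + 8 →
        (0 < (j - i).val ∧ (j - i).val < 8) ∨ (0 < (i - j).val ∧ (i - j).val < 8) := by
      decide +kernel
    rcases key i j hij hij' with h1 | h1
    · have h2 := hcomm i j h1.1 h1.2 a ha b hb
      refine (Subgroup.closure_mono ?_) h2
      rintro g ⟨k, hk1, hk2, hg⟩
      exact ⟨k, Or.inl ⟨hk1, hk2, h1.2⟩, hg⟩
    · have h2 := inv_mem (hcomm j i h1.1 h1.2 b hb a ha)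
      have e : (b * a * b⁻¹ * a⁻¹)⁻¹ = a * b * a⁻¹ * b⁻¹ := by group
      rw [e] at h2
      refine (Subgroup.closure_mono ?_) h2
      rintro g ⟨k, hk1, hk2, hg⟩
      exact ⟨k, Or.inr ⟨hk1, hk2, h1.2⟩, hg⟩
  ne i := (hX i).ne
  dec i a ha ha1 := by
    obtain ⟨b, hb, c, hc', hm⟩ := hrep i a ha ha1
    refine ⟨_, hm, (b * a * c)⁻¹ * b⁻¹ * (b * a * c), ?_, c⁻¹, inv_mem hc', by group⟩
    have h1 := (rep_act' hm (i + 8) b⁻¹).1 (inv_mem hb)
    have e : oct.s i (i + 8) = i := by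
      change 2 * i + 8 - (i + 8) = i
      ring
    rwa [e] at h1
  mT i m hm m' hm' := subset_closure ⟨i, m, m', hm, hm', rfl⟩
  minv i m hm := rep_inv hm
  mconj i j m hm m' hm' := rep_conj hm hm'
  mact i j m hm a ha := (rep_act hm j a).1 ha
  tact t ht j a ha := (tor_act ht j a).1 ha
  tnorm j m hm t ht := tor_norm hm ht
  tcomm s hs t ht := by
    have h1 : (t * s)⁻¹ * (s * t) = 1 := by
      refine central hc hgen fun j a ha => ?_
      have h2 := (hX j).comm s hs t ht a ha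
      have e : (t * s)⁻¹ * (s * t) * a * ((t * s)⁻¹ * (s * t))⁻¹ =
          (t * s)⁻¹ * (s * t * a * (s * t)⁻¹) * (t * s) := by group
      rw [e, h2]
      group
    exact (inv_mul_eq_one.1 h1).symm
  gen := by
    rw [gX, ← hgen]
    congr 1
    ext g
    simp
  opp := by
    rw [gX, gX, ← hopp]
    congr 1
    congr 1
    ext g
    have : ∀ i : ZMod 16, ¬ oct.pos i ↔ 8 ≤ i.val := fun i => not_lt
    simp only [this]

lemma odd_of (hX : ∀ i, Good (OctTorus X) (X i)) (hgen : closure {g | ∃ i, g ∈ X i} = ⊤)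
    (hc : ∀ g : L, (∀ y, g * y = y * g) → g = 1) :
    ∀ t ∈ OctTorus X, ∀ k : ℕ, t ^ 2 ^ k = 1 → t = 1 := fun t ht k hk =>
  central hc hgen fun j a ha => (hX j).odd t ht k hk a ha

end

section
variable {F : Type v} [Field F] [Finite F] {L : Type u} [Group L] [Finite L]

/-- **the split BN-pair and rigidity** -/
theorem is2F4_main (h : Is2F4 F L) (hs : IsSimpleGroup L)
    (hc : ∀ g : L, (∀ y, g * y = y * g) → g = 1) : ∃ (B N U : Subgroup L) (S : Set L),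
      SplitBN 2 B N U S ∧ RigidBN 2 B N U S := by
  obtain ⟨θ, X, hθ, hne, hev, hod, hcomm, hrep, hopp, hgen⟩ := h
  have : Fact (Nat.Prime 2) := ⟨Nat.prime_two⟩
  have hX : ∀ i, Good (OctTorus X) (X i) := by
    intro i
    rcases Nat.mod_two_eq_zero_or_one i.val with h1 | h1
    · exact good_field (two_zero' hθ) (hev i h1)
    · exact good_suzuki hθ hne (hod i h1)
  have hRD := rd_of hX hcomm hrep hopp hgen hc
  have hn : ∀ i, ∃ m, OctRep X i m := by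
    intro i
    obtain ⟨a, ha, ha1⟩ := (hX i).ne
    obtain ⟨b, hb, c, hc', hm⟩ := hrep i a ha ha1
    exact ⟨_, hm⟩
  choose n hn using hn
  have hB := hRD.splitBN (n := n) (r := 2) hn (fun i => (hX i).pgrp) (odd_of hX hgen hc)
  refine ⟨_, _, _, _, hB, ?_⟩
  exact hRD.rigidBN (n := n) hn hB.toSB hs fun i hi f hf hT hfX => (hX (oct.neg i)).rigid f hf hT hfX

theorem _root_.Vale.Agent.P240.R2.H387.Is2F4.lie (h : Is2F4 F L) (hs : IsSimpleGroup L)
    (hc : ∀ g : L, (∀ y, g * y = y * g) → g = 1) : LieType 2 L := by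
  obtain ⟨B, N, U, S, hB, -⟩ := is2F4_main h hs hc
  exact ⟨hs, hc, B, N, U, S, hB⟩

theorem _root_.Vale.Agent.P240.R2.H387.Is2F4.rigid (h : Is2F4 F L) (hs : IsSimpleGroup L)
    (hc : ∀ g : L, (∀ y, g * y = y * g) → g = 1) : RigidLie 2 L := by
  obtain ⟨B, N, U, S, -, hB⟩ := is2F4_main h hs hc
  exact ⟨hs, hc, B, N, U, S, hB⟩

end

end Vale.Agent.P240.R2.H387.O
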