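import Vale.Agent.P240.R2.H387.O3
import Vale.Agent.P240.R2.H775.Sz5

/-!
`²F₄(q)`: final forms.
-/

set_option autoImplicit false
set_option linter.all false

namespace Vale.Agent.P240.R2.H387

open Subgroup Vale.Agent.P240.K Vale.Agent.P240.H195

universe u v w

section
variable {F : Type v} [Field F] [Finite F] {L : Type u} [Group L] [Finite L]

omit [Finite L] in
lemma centre_one (hs : IsSimpleGroup L) (hab : ∃ x y : L, x * y ≠ y * x) :
    ∀ g : L, (∀ y, g * y = y * g) → g = 1 := by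
  intro g hg
  rcases hs.eq_bot_or_eq_top_of_normal (center L) inferInstance with h | h
  · have h1 : g ∈ center L := mem_center_iff.2 fun y => (hg y).symm
    rw [h, mem_bot] at h1
    exact h1
  · exfalso
    obtain ⟨a, b, hab⟩ := hab
    have h1 : b ∈ center L := by rw [h]; exact mem_top b
    exact hab (mem_center_iff.1 h1 a)

/-- **groups of Lie type** -/
theorem Is2F4.lieType (h : Is2F4 F L) (hs : IsSimpleGroup L) (hab : ∃ x y : L, x * y ≠ y * x) :
    LieType 2 L := h.lie hs (centre_one hs hab)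

/-- **rigid** -/
theorem Is2F4.rigidLie (h : Is2F4 F L) (hs : IsSimpleGroup L) (hab : ∃ x y : L, x * y ≠ y * x) :
    RigidLie 2 L := h.rigid hs (centre_one hs hab)

theorem Is2F4.good_two {𝕜 : Type w} [Field 𝕜] {l : ℕ} (h : Is2F4 F L) (hs : IsSimpleGroup L)
    (hab : ∃ x y : L, x * y ≠ y * x) : GoodFactor 𝕜 2 l L := Or.inr (Or.inl (h.rigidLie hs hab))

/-- odd primes -/
theorem Is2F4.good_odd {𝕜 : Type w} [Field 𝕜] {p : ℕ} (hp : p.Prime) (hp2 : p ≠ 2)
    (h : Is2F4 F L) (hs : IsSimpleGroup L) (hab : ∃ x y : L, x * y ≠ y * x) :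
    GoodFactor 𝕜 p 2 L :=
  Or.inr (Or.inr (Or.inr (Or.inl ⟨2, Nat.prime_two,
    (h.lieType hs hab).autFree Nat.prime_two hp hp2, Or.inl rfl⟩)))

end

end Vale.Agent.P240.R2.H387
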