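import Vale.Agent.P240.R2.H387.O4

/-!
The characters of the torus on the root groups; semilinearity.
-/

set_option autoImplicit false
set_option linter.all false

namespace Vale.Agent.P240.R2.H387.O

open Subgroup Vale.Agent.P240.H195

section
variable {L : Type*} [Group L] {F : Type*} [Field F]

/-- the action of `T` on `X` through a character `κ` -/
structure KT (T X : Subgroup L) (N : ℕ) (π κ : L → F) : Prop where
  tu : ∀ t ∈ T, ∀ x ∈ X, t * x * t⁻¹ ∈ X
  add : ∀ x ∈ X, ∀ y ∈ X, π (x * y) = π x + π y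
  surj : ∀ a, ∃ x ∈ X, π x = a
  ker : ∀ x ∈ X, π x = 0 ↔ x ^ N = 1
  act : ∀ t ∈ T, ∀ x ∈ X, π (t * x * t⁻¹) = κ t * π x
  ne : ∀ t ∈ T, κ t ≠ 0
  one : ∀ t ∈ T, κ t = 1 → ∀ x ∈ X, t * x * t⁻¹ = x
  full : ∀ k, k ≠ 0 → ∃ t ∈ T, κ t = k
  inv : ∃ a ∈ X, a ≠ 1 ∧ a * a = 1 ∧ ∀ t ∈ T, t * a * t⁻¹ = a → κ t = 1
  rig : ∀ e : MulAut L, (∀ x ∈ X, e x ∈ X) → (∀ t ∈ T, e t = t) →
    (∀ x ∈ X, π (e x) = π x) → ∀ x ∈ X, e x = x

lemma kt_field (h2 : (2 : F) = 0) {T X : Subgroup L} (h : FieldGroup F T X) :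
    ∃ π κ : L → F, KT T X 1 π κ := by
  obtain ⟨z, hinj, hX, hadd, hact, hall⟩ := h
  have h0 : z 0 = 1 := by
    have h1 := hadd 0 0
    rw [add_zero] at h1
    exact mul_eq_left.1 h1.symm
  have e1 : ∀ g, ∃ a, g ∈ X → g = z a := by
    intro g
    by_cases hg : g ∈ X
    · obtain ⟨a, ha⟩ := (hX g).1 hg
      exact ⟨a, fun _ => ha⟩
    · exact ⟨0, fun h => absurd h hg⟩
  have e2 : ∀ t, ∃ μ : F, t ∈ T → μ ≠ 0 ∧ ∀ a, t * z a * t⁻¹ = z (μ * a) := by
    intro t
    by_cases ht : t ∈ T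
    · obtain ⟨μ, h1, h2⟩ := hact t ht
      exact ⟨μ, fun _ => ⟨h1, h2⟩⟩
    · exact ⟨0, fun h => absurd h ht⟩
  choose π hπ using e1
  choose κ hκ using e2
  have hz : ∀ a, z a ∈ X := fun a => (hX _).2 ⟨a, rfl⟩
  have hπz : ∀ a, π (z a) = a := fun a => (hinj (hπ _ (hz a))).symm
  refine ⟨π, κ, ?_, ?_, ?_, ?_, ?_, ?_, ?_, ?_, ?_, ?_⟩
  · intro t ht x hx
    rw [hπ x hx, (hκ t ht).2]
    exact hz _
  · intro x hx y hy
    rw [hπ x hx, hπ y hy, ← hadd, hπz, hπz, hπz]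
  · exact fun a => ⟨z a, hz a, hπz a⟩
  · intro x hx
    rw [pow_one]
    constructor
    · intro h3
      rw [hπ x hx, h3, h0]
    · rintro rfl
      rw [← h0, hπz]
  · intro t ht x hx
    conv_lhs => rw [hπ x hx, (hκ t ht).2, hπz]
  · exact fun t ht => (hκ t ht).1
  · intro t ht h1 x hx
    rw [hπ x hx, (hκ t ht).2, h1, one_mul]
  · intro k hk
    obtain ⟨t, ht, h1⟩ := hall k hk
    refine ⟨t, ht, ?_⟩
    have h3 := h1 1
    rw [(hκ t ht).2] at h3
    have h4 := hinj h3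
    rwa [mul_one, mul_one] at h4
  · refine ⟨z 1, hz 1, fun h1 => one_ne_zero (hinj (h1.trans h0.symm)), ?_, ?_⟩
    · rw [← hadd, ← h0]
      congr 1
      linear_combination h2
    · intro t ht h1
      rw [(hκ t ht).2, mul_one] at h1
      exact hinj h1
  · intro e he hT hlin x hx
    rw [hπ _ (he x hx), hlin x hx, ← hπ x hx]

lemma kt_suzuki {θ : F →+* F} (hθ : ∀ x, θ (θ x) = x ^ 2) (hne : ∃ x, θ x ≠ x)
    {T X : Subgroup L} (h : SuzukiGroup θ T X) : ∃ π κ : L → F, KT T X 2 π κ := by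
  have h2 := two_zero' hθ
  obtain ⟨z, hinj, hX, hmul, hact, hall⟩ := h
  have h0 : z 0 0 = 1 := by
    have h3 := hmul 0 0 0 0
    rw [add_zero, map_zero, mul_zero, add_zero] at h3
    exact mul_eq_left.1 h3
  have hsq : ∀ a b : F, z a b * z a b = z 0 (θ a * a) := by
    intro a b
    rw [hmul]
    congr 1
    · linear_combination a * h2
    · linear_combination b * h2
  have hroot : ∀ c : F, ∃ a : F, c = θ a * a := by
    intro c
    by_cases hc : c = 0
    · exact ⟨0, by rw [hc, mul_zero]⟩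
    · have hc' : θ c ≠ 0 := (map_ne_zero θ).2 hc
      refine ⟨θ c / c, ?_⟩
      rw [map_div₀, hθ]
      field_simp
  have e1 : ∀ g, ∃ a b, g ∈ X → g = z a b := by
    intro g
    by_cases hg : g ∈ X
    · obtain ⟨a, b, ha⟩ := (hX g).1 hg
      exact ⟨a, b, fun _ => ha⟩
    · exact ⟨0, 0, fun h => absurd h hg⟩
  have e2 : ∀ t, ∃ μ : F, t ∈ T → μ ≠ 0 ∧ ∀ a b, t * z a b * t⁻¹ = z (μ * a) (μ * θ μ * b) := by
    intro t
    by_cases ht : t ∈ T
    · obtain ⟨μ, h1, h2⟩ := hact t ht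
      exact ⟨μ, fun _ => ⟨h1, h2⟩⟩
    · exact ⟨0, fun h => absurd h ht⟩
  choose π ρ hπ using e1
  choose κ hκ using e2
  have hz : ∀ a b, z a b ∈ X := fun a b => (hX _).2 ⟨a, b, rfl⟩
  have hπz : ∀ a b, π (z a b) = a := fun a b => (hinj _ _ _ _ (hπ _ (hz a b))).1.symm
  refine ⟨π, κ, ?_, ?_, ?_, ?_, ?_, ?_, ?_, ?_, ?_, ?_⟩
  · intro t ht x hx
    rw [hπ x hx, (hκ t ht).2]
    exact hz _ _
  · intro x hx y hy
    rw [hπ x hx, hπ y hy, hmul, hπz, hπz, hπz]
  · exact fun a => ⟨z a 0, hz a 0, hπz a 0⟩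
  · intro x hx
    rw [sq]
    constructor
    · intro h3
      rw [hπ x hx, hsq, h3, mul_zero, h0]
    · intro h3
      rw [hπ x hx, hsq, ← h0] at h3
      have h4 := (hinj _ _ _ _ h3).2
      rcases mul_eq_zero.1 h4 with h5 | h5
      · exact (map_eq_zero θ).1 h5
      · exact h5
  · intro t ht x hx
    conv_lhs => rw [hπ x hx, (hκ t ht).2, hπz]
  · exact fun t ht => (hκ t ht).1
  · intro t ht h1 x hx
    rw [hπ x hx, (hκ t ht).2, h1, map_one, one_mul, one_mul, one_mul]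
  · intro k hk
    obtain ⟨t, ht, h1⟩ := hall k hk
    refine ⟨t, ht, ?_⟩
    have h3 := h1 1 0
    rw [(hκ t ht).2] at h3
    have h4 := (hinj _ _ _ _ h3).1
    rwa [mul_one, mul_one] at h4
  · refine ⟨z 0 1, hz 0 1, fun h1 => one_ne_zero (hinj _ _ _ _ (h1.trans h0.symm)).2, ?_, ?_⟩
    · rw [hsq, mul_zero, h0]
    · intro t ht h1
      rw [(hκ t ht).2, mul_zero, mul_one] at h1
      have h3 := (hinj _ _ _ _ h1).2
      have h4 := (hκ t ht).1
      have h5 : θ (κ t) = (κ t)⁻¹ := eq_inv_of_mul_eq_one_right h3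
      have h6 := congrArg θ h5
      rw [hθ, map_inv₀, h5, inv_inv] at h6
      have h7 : κ t * (κ t - 1) = 0 := by linear_combination h6
      rcases mul_eq_zero.1 h7 with h8 | h8
      · exact absurd h8 h4
      · exact sub_eq_zero.1 h8
  · intro e he hT hlin
    have hcen : ∀ b, e (z 0 b) = z 0 b := by
      intro b
      obtain ⟨a, rfl⟩ := hroot b
      have h3 := hlin (z a 0) (hz a 0)
      have h4 := hπ _ (he _ (hz a 0))
      rw [h3, hπz] at h4
      rw [← hsq a 0, map_mul, h4, hsq, hsq]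
    obtain ⟨δ, hδ⟩ : ∃ δ : F → F, ∀ a, e (z a 0) = z a (δ a) := by
      refine ⟨fun a => ρ (e (z a 0)), fun a => ?_⟩
      have h4 := hπ _ (he _ (hz a 0))
      rwa [hlin _ (hz a 0), hπz] at h4
    have hδT : ∀ a, a ≠ 0 → δ a = a * θ a * δ 1 := by
      intro a ha
      obtain ⟨t, ht, h3⟩ := hall a ha
      have h4 := h3 1 0
      rw [mul_one, mul_zero] at h4
      have h5 := congrArg e h4
      rw [map_mul, map_mul, map_inv, hT t ht, hδ, hδ, h3, mul_one] at h5
      exact (hinj _ _ _ _ h5).2.symm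
    have hδadd : ∀ a c, δ (a + c) = δ a + δ c := by
      intro a c
      have h3 : z a 0 * z c 0 = z (a + c) 0 * z 0 (θ a * c) := by
        rw [hmul, hmul]
        congr 1 <;> ring
      have h4 := congrArg e h3
      rw [map_mul, map_mul, hδ, hδ, hδ, hcen, hmul, hmul] at h4
      have h5 := (hinj _ _ _ _ h4).2
      linear_combination -h5
    have hδ0 : δ 0 = 0 := by
      have h3 := hδadd 0 0
      rw [add_zero] at h3
      linear_combination -h3
    have hδ1 : δ 1 = 0 := by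
      by_contra hd
      obtain ⟨x, hx⟩ := hne
      have hx0 : x ≠ 0 := by
        rintro rfl
        exact hx (map_zero θ)
      have hx1 : x + 1 ≠ 0 := by
        intro h3
        apply hx
        have h4 : x = 1 := by linear_combination h3 - h2
        rw [h4, map_one]
      have h3 := hδadd x 1
      rw [hδT _ hx1, hδT _ hx0, map_add, map_one] at h3
      have h4 : (θ x + x) * δ 1 = 0 := by linear_combination h3
      rcases mul_eq_zero.1 h4 with h5 | h5
      · exact hx (by linear_combination h5 - x * h2)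
      · exact hd h5
    have hδ' : ∀ a, δ a = 0 := by
      intro a
      by_cases ha : a = 0
      · rw [ha, hδ0]
      · rw [hδT a ha, hδ1, mul_zero]
    intro x hx
    rw [hπ x hx]
    have h1 : z (π x) (ρ x) = z (π x) 0 * z 0 (ρ x) := by
      rw [hmul]
      congr 1 <;> ring
    rw [h1, map_mul, hcen, hδ, hδ']

namespace KT

variable {T X : Subgroup L} {N : ℕ} {π κ : L → F} (h : KT T X N π κ)
include h

lemma mul {s t : L} (hs : s ∈ T) (ht : t ∈ T) : κ (s * t) = κ s * κ t := by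
  obtain ⟨x, hx, h1⟩ := h.surj 1
  have h2 := h.act _ (mul_mem hs ht) x hx
  have e : s * t * x * (s * t)⁻¹ = s * (t * x * t⁻¹) * s⁻¹ := by group
  rw [e, h.act s hs _ (h.tu t ht x hx), h.act t ht x hx, h1, mul_one, mul_one] at h2
  exact h2.symm

lemma map_one : κ 1 = 1 := by
  have h1 := h.mul (one_mem T) (one_mem T)
  rw [mul_one] at h1
  exact (mul_eq_left₀ (h.ne 1 (one_mem T))).1 h1.symm

lemma inv' {t : L} (ht : t ∈ T) : κ t⁻¹ = (κ t)⁻¹ := by
  have h1 := h.mul (inv_mem ht) ht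
  rw [inv_mul_cancel, h.map_one] at h1
  exact eq_inv_of_mul_eq_one_left h1.symm

/-- semilinear -/
lemma semi [Finite F] {e : MulAut L} (he : ∀ x ∈ X, e x ∈ X) (heT : ∀ t ∈ T, e t ∈ T) :
    ∃ σ : RingAut F, (∀ t ∈ T, κ (e t) = σ (κ t)) ∧
      ∃ k : F, k ≠ 0 ∧ ∀ x ∈ X, π (e x) = k * σ (π x) := by
  choose s hsX hs using h.surj
  obtain ⟨φ, hφ⟩ : ∃ φ : F → F, φ = fun a => π (e (s a)) := ⟨_, rfl⟩
  have hπ1 : π 1 = 0 := (h.ker 1 (one_mem X)).2 (one_pow N)
  have hπi : ∀ x ∈ X, π x⁻¹ = -π x := by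
    intro x hx
    have h1 := h.add x⁻¹ (inv_mem hx) x hx
    rw [inv_mul_cancel, hπ1] at h1
    linear_combination -h1
  have h1 : ∀ x ∈ X, π (e x) = φ (π x) := by
    intro x hx
    have h2 : π (x * (s (π x))⁻¹) = 0 := by
      rw [h.add x hx _ (inv_mem (hsX _)), hπi _ (hsX _), hs]
      ring
    rw [h.ker _ (mul_mem hx (inv_mem (hsX _)))] at h2
    have h3 := congrArg e h2
    rw [map_pow, MulEquiv.map_one, ← h.ker _ (he _ (mul_mem hx (inv_mem (hsX _)))), map_mul, map_inv,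
      h.add _ (he x hx) _ (inv_mem (he _ (hsX _))), hπi _ (he _ (hsX _))] at h3
    rw [hφ]
    linear_combination h3
  have hadd : ∀ a b, φ (a + b) = φ a + φ b := by
    intro a b
    have h2 := h1 _ (mul_mem (hsX a) (hsX b))
    rw [h.add _ (hsX a) _ (hsX b), hs, hs] at h2
    rw [← h2, map_mul, h.add _ (he _ (hsX a)) _ (he _ (hsX b)), h1 _ (hsX a), h1 _ (hsX b), hs, hs]
  have hmul : ∀ t ∈ T, ∀ a, φ (κ t * a) = κ (e t) * φ a := by
    intro t ht a
    have h3 := h1 _ (h.tu t ht _ (hsX a))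
    rw [h.act t ht _ (hsX a), hs] at h3
    rw [← h3, map_mul, map_mul, map_inv, h.act _ (heT t ht) _ (he _ (hsX a)), h1 _ (hsX a), hs]
  have hφ1 : φ 1 ≠ 0 := by
    intro h2
    have h3 : π (e (s 1)) = 0 := by rw [h1 _ (hsX 1), hs, h2]
    rw [h.ker _ (he _ (hsX 1)), ← map_pow] at h3
    have h4 : s 1 ^ N = 1 := e.injective (by rw [h3, MulEquiv.map_one])
    rw [← h.ker _ (hsX 1), hs] at h4
    exact one_ne_zero h4
  have hφ0 : φ 0 = 0 := by
    have h2 := hadd 0 0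
    rw [add_zero] at h2
    linear_combination -h2
  have hκ : ∀ t ∈ T, κ (e t) = φ (κ t) / φ 1 := by
    intro t ht
    have h2 := hmul t ht 1
    rw [mul_one] at h2
    rw [h2, mul_div_assoc, div_self hφ1, mul_one]
  let σ : F →+* F :=
    { toFun := fun a => φ a / φ 1
      map_one' := div_self hφ1
      map_zero' := by rw [hφ0, zero_div]
      map_add' := fun a b => by rw [hadd, add_div]
      map_mul' := fun a b => by
        by_cases ha : a = 0
        · rw [ha, zero_mul, hφ0, zero_div, zero_mul]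
        · obtain ⟨t, ht, rfl⟩ := h.full a ha
          rw [hmul t ht, hκ t ht]
          field_simp }
  have hσb : Function.Bijective σ := Finite.injective_iff_bijective.1 σ.injective
  refine ⟨RingEquiv.ofBijective σ hσb, fun t ht => hκ t ht, φ 1, hφ1, fun x hx => ?_⟩
  rw [h1 x hx]
  change φ (π x) = φ 1 * (φ (π x) / φ 1)
  field_simp

end KT

end

end Vale.Agent.P240.R2.H387.O
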