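import Vale.Agent.P240.R2.H387.O5
import Vale.Agent.P240.H195.FF

/-!
The torus of the groups with the root groups of `²F₄(q)`.
-/

set_option autoImplicit false
set_option linter.all false

namespace Vale.Agent.P240.R2.H387.O

open Subgroup Vale.Agent.P240.H195

section
variable {L : Type*} [Group L] {X : ZMod 16 → Subgroup L}

/-- the facts used below -/
structure HH (X : ZMod 16 → Subgroup L) : Prop where
  rd : RD oct X (fun i => {m | OctRep X i m}) (OctTorus X)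
  rep : ∀ i, ∀ a ∈ X i, a ≠ 1 → ∃ b ∈ X (i + 8), ∃ c ∈ X (i + 8), OctRep X i (b * a * c)
  odd : ∀ t ∈ OctTorus X, ∀ k : ℕ, t ^ 2 ^ k = 1 → t = 1
  cen : ∀ g : L, (∀ j, ∀ a ∈ X j, g * a * g⁻¹ = a) → g = 1

lemma add8 (i : ZMod 16) : i + 8 + 8 = i := by revert i; decide +kernel
lemma s8 (i : ZMod 16) : oct.s i (i + 8) = i := by revert i; decide +kernel
lemma s8' (i : ZMod 16) : oct.s (i + 8) i = i + 8 := by revert i; decide +kernel
lemma sii (i : ZMod 16) : oct.s i i = i + 8 := by revert i; decide +kernel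
lemma pos8 (i : ZMod 16) : oct.pos i ∧ ¬ oct.pos (i + 8) ∨ ¬ oct.pos i ∧ oct.pos (i + 8) := by
  revert i
  change ∀ i : ZMod 16, (i.val < 8 ∧ ¬ (i + 8).val < 8) ∨ (¬ i.val < 8 ∧ (i + 8).val < 8)
  decide +kernel

namespace HH

variable (h : HH X)
include h

lemma disj {i : ZMod 16} {x : L} (hx : x ∈ X i) (hx' : x ∈ X (i + 8)) : x = 1 := by
  rcases pos8 i with ⟨h1, h2⟩ | ⟨h1, h2⟩
  · exact h.rd.x_not_mem h2 hx' (mem_uu h1 hx)
  · exact h.rd.x_not_mem h1 hx (mem_uu h2 hx')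

/-- nontrivial elements of `X i` do not normalize `X (i + 8)` -/
lemma nn {i : ZMod 16} {δ : L} (hδ : δ ∈ X i) (hn : ∀ y ∈ X (i + 8), δ * y * δ⁻¹ ∈ X (i + 8)) :
    δ = 1 := by
  by_contra hne
  obtain ⟨b, hb, c, hc, hm⟩ := h.rep i δ hδ hne
  obtain ⟨y, hy, hy1⟩ := h.rd.ne (i + 8)
  have h1 := (rep_act hm _ _).1 hy
  rw [s8] at h1
  have h2 : b * δ * c * y * (b * δ * c)⁻¹ = b * (δ * (c * y * c⁻¹) * δ⁻¹) * b⁻¹ := by group
  have h3 : b * δ * c * y * (b * δ * c)⁻¹ ∈ X (i + 8) := by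
    rw [h2]
    exact mul_mem (mul_mem hb (hn _ (mul_mem (mul_mem hc hy) (inv_mem hc)))) (inv_mem hb)
  have h4 := h.disj h1 h3
  exact hy1 (conj_eq_one_iff.1 h4)

lemma nn' {i : ZMod 16} {δ : L} (hδ : δ ∈ X (i + 8)) (hn : ∀ y ∈ X i, δ * y * δ⁻¹ ∈ X i) :
    δ = 1 := h.nn hδ (by rw [add8]; exact hn)

/-- uniqueness -/
lemma uniq {i : ZMod 16} {a b c b' c' g : L} (ha : a ∈ X i) (hb : b ∈ X (i + 8))
    (hc : c ∈ X (i + 8)) (hm : OctRep X i (b * a * c)) (hb' : b' ∈ X (i + 8))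
    (hc' : c' ∈ X (i + 8)) (eg : g = b' * a * c') (h1 : ∀ y ∈ X i, g * y * g⁻¹ ∈ X (i + 8))
    (h2 : ∀ y ∈ X (i + 8), g * y * g⁻¹ ∈ X i) : b' = b ∧ c' = c := by
  obtain ⟨m, em⟩ : ∃ m, m = b * a * c := ⟨_, rfl⟩
  rw [← em] at hm
  have hγ : c⁻¹ * c' ∈ X (i + 8) := mul_mem (inv_mem hc) hc'
  have hβ : b' * b⁻¹ ∈ X (i + 8) := mul_mem hb' (inv_mem hb)
  have hδ : m * (c⁻¹ * c') * m⁻¹ ∈ X i := by
    have := (rep_act hm _ _).1 hγ
    rwa [s8] at this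
  have e1 : g = (b' * b⁻¹) * (m * (c⁻¹ * c') * m⁻¹) * m := by rw [eg, em]; group
  have m1 : ∀ y ∈ X (i + 8), m⁻¹ * y * m ∈ X i := fun y hy => by
    have := (rep_act' hm _ _).1 hy
    rwa [s8] at this
  have m2 : ∀ y ∈ X i, m⁻¹ * y * m ∈ X (i + 8) := fun y hy => by
    have := (rep_act' hm _ _).1 hy
    rwa [sii] at this
  have h3 : m * (c⁻¹ * c') * m⁻¹ = 1 := by
    refine h.nn hδ fun y hy => ?_
    have h4 := h1 _ (m1 y hy)
    have e2 : m * (c⁻¹ * c') * m⁻¹ * y * (m * (c⁻¹ * c') * m⁻¹)⁻¹ =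
        (b' * b⁻¹)⁻¹ * (g * (m⁻¹ * y * m) * g⁻¹) * (b' * b⁻¹) := by rw [e1]; group
    rw [e2]
    exact mul_mem (mul_mem (inv_mem hβ) h4) hβ
  have h5 : c⁻¹ * c' = 1 := conj_eq_one_iff.1 h3
  have h6 : b' * b⁻¹ = 1 := by
    refine h.nn' hβ fun y hy => ?_
    have h4 := h2 _ (m2 y hy)
    have e2 : b' * b⁻¹ * y * (b' * b⁻¹)⁻¹ = g * (m⁻¹ * y * m) * g⁻¹ := by
      rw [e1, h3]
      group
    rw [e2]
    exact h4
  exact ⟨mul_inv_eq_one.1 h6, (inv_mul_eq_one.1 h5).symm⟩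

lemma rep_ne {i : ZMod 16} {a b c : L} (hb : b ∈ X (i + 8)) (hc : c ∈ X (i + 8))
    (hm : OctRep X i (b * a * c)) : a ≠ 1 := by
  rintro rfl
  obtain ⟨y, hy, hy1⟩ := h.rd.ne (i + 8)
  have h1 := (rep_act hm _ _).1 hy
  rw [s8] at h1
  have h3 : b * 1 * c * y * (b * 1 * c)⁻¹ ∈ X (i + 8) := by
    rw [mul_one]
    exact mul_mem (mul_mem (mul_mem hb hc) hy) (inv_mem (mul_mem hb hc))
  have h4 := h.disj h1 h3
  exact hy1 (conj_eq_one_iff.1 h4)

/-- automorphisms that stabilize `X i` and `X (i + 8)` map representatives to representatives -/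
lemma map_rep {e : MulAut L} {i : ZMod 16} (h1 : ∀ a, a ∈ X i ↔ e a ∈ X i)
    (h2 : ∀ a, a ∈ X (i + 8) ↔ e a ∈ X (i + 8)) {a b c : L} (ha : a ∈ X i) (hb : b ∈ X (i + 8))
    (hc : c ∈ X (i + 8)) (hm : OctRep X i (b * a * c)) : OctRep X i (e b * e a * e c) := by
  have ha1 := h.rep_ne hb hc hm
  have hea : e a ≠ 1 := fun h3 => ha1 (e.injective (by rw [h3, map_one]))
  obtain ⟨b₁, hb₁, c₁, hc₁, hm₁⟩ := h.rep i (e a) ((h1 a).1 ha) hea
  have h3 := h.uniq ((h1 a).1 ha) hb₁ hc₁ hm₁ ((h2 b).1 hb) ((h2 c).1 hc) rfl ?_ ?_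
  · rw [h3.1, h3.2]
    exact hm₁
  · intro y hy
    have h4 : e (e⁻¹ y) = y := by rw [← MulAut.mul_apply, mul_inv_cancel, MulAut.one_apply]
    have h5 : e⁻¹ y ∈ X i := (h1 _).2 (by rw [h4]; exact hy)
    have h6 := (rep_act hm _ _).1 h5
    rw [sii] at h6
    have h7 := (h2 _).1 h6
    rwa [map_mul, map_mul, map_inv, map_mul, map_mul, h4] at h7
  · intro y hy
    have h4 : e (e⁻¹ y) = y := by rw [← MulAut.mul_apply, mul_inv_cancel, MulAut.one_apply]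
    have h5 : e⁻¹ y ∈ X (i + 8) := (h2 _).2 (by rw [h4]; exact hy)
    have h6 := (rep_act hm _ _).1 h5
    rw [s8] at h6
    have h7 := (h1 _).1 h6
    rwa [map_mul, map_mul, map_inv, map_mul, map_mul, h4] at h7

variable {F : Type*} [Field F]

/-- the involutory representative -/
lemma exists_n {i : ZMod 16} {N : ℕ} {π κ : L → F} (hk : KT (OctTorus X) (X i) N π κ) :
    ∃ n, OctRep X i n ∧ n * n = 1 ∧ (∀ t ∈ OctTorus X, κ t = 1 → n * t * n⁻¹ = t) ∧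
      ∀ t ∈ OctTorus X, κ (n * t * n⁻¹) = (κ t)⁻¹ := by
  obtain ⟨a, ha, ha1, haa, hinv⟩ := hk.inv
  obtain ⟨b, hb, c, hc, hm⟩ := h.rep i a ha ha1
  have hai : a⁻¹ = a := inv_eq_of_mul_eq_one_left haa
  have h1 := h.uniq (g := (b * a * c)⁻¹) ha hb hc hm (inv_mem hc) (inv_mem hb) (by
    rw [mul_inv_rev, mul_inv_rev, hai, mul_assoc]) (fun y hy => by
      have := (rep_act (rep_inv hm) _ _).1 hy
      rwa [sii] at this) (fun y hy => by
      have := (rep_act (rep_inv hm) _ _).1 hy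
      rwa [s8] at this)
  have hcb : c = b⁻¹ := h1.2.symm
  subst hcb
  obtain ⟨n, hn⟩ : ∃ n, n = b * a * b⁻¹ := ⟨_, rfl⟩
  have hmn : OctRep X i n := by rw [hn]; exact hm
  have hnn : n * n = 1 := by
    have e : n * n = b * (a * a) * b⁻¹ := by rw [hn]; group
    rw [e, haa]
    group
  have hT : ∀ t ∈ OctTorus X, n * t * n⁻¹ ∈ OctTorus X := fun t ht => tor_norm hmn ht
  have hW : ∀ t ∈ OctTorus X, κ t = 1 → n * t * n⁻¹ = t := by
    intro t ht h2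
    have h3 := hk.one t ht h2 a ha
    have hmt : OctRep X i (t * n * t⁻¹) := by
      refine ⟨⟨t * b * t⁻¹, (tor_act ht _ _).1 hb, t * a * t⁻¹, (tor_act ht _ _).1 ha,
        t * b⁻¹ * t⁻¹, (tor_act ht _ _).1 (inv_mem hb), by rw [hn]; group⟩, fun j g => ?_⟩
      rw [tor_act (inv_mem ht) j g, inv_inv, rep_act hmn, tor_act ht]
      have e : t * (n * (t⁻¹ * g * t) * n⁻¹) * t⁻¹ = t * n * t⁻¹ * g * (t * n * t⁻¹)⁻¹ := by group
      rw [e]
      exact Iff.rfl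
    have h4 := h.uniq (g := t * n * t⁻¹) ha hb hc hm ((tor_act ht _ _).1 hb)
      ((tor_act ht _ _).1 (inv_mem hb)) (by
        have e : t * n * t⁻¹ = (t * b * t⁻¹) * (t * a * t⁻¹) * (t * b⁻¹ * t⁻¹) := by rw [hn]; group
        rw [e, h3]) (fun y hy => by
        have := (rep_act hmt _ _).1 hy
        rwa [sii] at this) (fun y hy => by
        have := (rep_act hmt _ _).1 hy
        rwa [s8] at this)
    have h5 : t * n * t⁻¹ = n := by
      have e : t * n * t⁻¹ = (t * b * t⁻¹) * (t * a * t⁻¹) * (t * b⁻¹ * t⁻¹) := by rw [hn]; group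
      rw [e, h3, h4.1, h4.2, hn]
    have h6 : t * n = n * t := mul_inv_eq_iff_eq_mul.1 h5
    rw [← h6]
    group
  have hF : ∀ t ∈ OctTorus X, κ (n * t * n⁻¹) = κ t → κ t = 1 := by
    intro t ht h2
    have hφ := hT t ht
    obtain ⟨k, hkd⟩ : ∃ k, k = t * (n * t * n⁻¹)⁻¹ := ⟨_, rfl⟩
    have hkT : k ∈ OctTorus X := by rw [hkd]; exact mul_mem ht (inv_mem hφ)
    have h3 : κ k = 1 := by
      rw [hkd, hk.mul ht (inv_mem hφ), hk.inv' hφ, h2, mul_inv_cancel₀ (hk.ne t ht)]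
    have h4 := hW k hkT h3
    have h5 : n * k = k * n := mul_inv_eq_iff_eq_mul.1 h4
    have e1 : t * n * t⁻¹ = k * n := by rw [hkd]; group
    have h6 : (k * n) * (k * n) = 1 := by
      rw [← e1]
      have e : t * n * t⁻¹ * (t * n * t⁻¹) = t * (n * n) * t⁻¹ := by group
      rw [e, hnn]
      group
    have h7 : k ^ 2 ^ 1 = 1 := by
      rw [pow_one, sq]
      calc k * k = (k * n) * (n⁻¹ * (k * n)) * n⁻¹ := by group
        _ = (k * n) * (n⁻¹ * (n * k)) * n⁻¹ := by rw [h5]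
        _ = (k * n) * (k * n) * (n * n)⁻¹ := by group
        _ = 1 := by rw [h6, hnn]; group
    have h8 := h.odd k hkT 1 h7
    rw [h8, one_mul] at e1
    -- `t n t⁻¹ = n`
    apply hinv t ht
    obtain ⟨a', ha'⟩ : ∃ a', a' = t * a * t⁻¹ := ⟨_, rfl⟩
    have ha'X : a' ∈ X i := by rw [ha']; exact (tor_act ht _ _).1 ha
    obtain ⟨c, hcd⟩ : ∃ c, c = b⁻¹ * (t * b * t⁻¹) := ⟨_, rfl⟩
    have hcX : c ∈ X (i + 8) := by
      rw [hcd]
      exact mul_mem (inv_mem hb) ((tor_act ht _ _).1 hb)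
    have e2 : c * a' * c⁻¹ = a := by
      have e3 : c * a' * c⁻¹ = b⁻¹ * (t * n * t⁻¹) * b := by rw [hcd, ha', hn]; group
      rw [e3, e1, hn]
      group
    by_cases hc1 : c = 1
    · rw [hc1] at e2
      rw [← ha', ← e2]
      group
    · exfalso
      obtain ⟨x, hx, y, hy, hr⟩ := h.rep (i + 8) c hcX hc1
      rw [add8] at hx hy
      have h9 := (rep_act hr i (y⁻¹ * a' * y)).1 (mul_mem (mul_mem (inv_mem hy) ha'X) hy)
      rw [s8'] at h9
      have e4 : x * c * y * (y⁻¹ * a' * y) * (x * c * y)⁻¹ = x * a * x⁻¹ := by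
        rw [← e2]
        group
      rw [e4] at h9
      have h10 := h.disj (mul_mem (mul_mem hx ha) (inv_mem hx)) h9
      exact ha1 (conj_eq_one_iff.1 h10)
  refine ⟨n, hmn, hnn, hW, fun t ht => ?_⟩
  have hφ := hT t ht
  have h2 : n * (t * (n * t * n⁻¹)) * n⁻¹ = t * (n * t * n⁻¹) := by
    have hni : n⁻¹ = n := inv_eq_of_mul_eq_one_left hnn
    have e : n * (t * (n * t * n⁻¹)) * n⁻¹ = (n * t * n⁻¹) * ((n * n) * t * (n * n)⁻¹) := by group
    rw [e, hnn, h.rd.tcomm t ht _ hφ]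
    group
  have h3 := hF _ (mul_mem ht hφ) (by rw [h2])
  rw [hk.mul ht hφ] at h3
  exact eq_inv_of_mul_eq_one_right h3

end HH

end

end Vale.Agent.P240.R2.H387.O
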