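import Vale.Agent.P240.R2.H387.O6

/-!
The longest element inverts the torus; the torus is the full group of pairs of scalars.
-/

set_option autoImplicit false
set_option linter.all false

namespace Vale.Agent.P240.R2.H387.O

open Subgroup Vale.Agent.P240.H195

section
variable {F : Type*} [Field F] [Finite F]

/-- the automorphism group of `F` has odd order -/
lemma ringAut_odd {θ : F →+* F} (hθ : ∀ x, θ (θ x) = x ^ 2) {σ : RingAut F} (hσ : σ * σ = 1) :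
    σ = 1 := by
  have h2 := two_zero' hθ
  have : CharP F 2 := CharTwo.of_one_ne_zero_of_two_eq_zero one_ne_zero h2
  have : Fact (Nat.Prime 2) := ⟨Nat.prime_two⟩
  let Θ : RingAut F := RingEquiv.ofBijective θ (Finite.injective_iff_bijective.1 θ.injective)
  have hΘ : ∀ x, Θ x = θ x := fun x => rfl
  have hsq : ∀ x, (Θ * Θ) x = x ^ 2 ^ 1 := by
    intro x
    rw [RingAut.mul_apply, hΘ, hΘ, hθ, pow_one]
  have hgen : ∀ τ : RingAut F, ∃ k : ℕ, τ = (Θ * Θ) ^ k := by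
    intro τ
    obtain ⟨k, hk⟩ := ff_aut (r := 2) τ
    refine ⟨k, ?_⟩
    ext x
    rw [hk, ff_mul_pow k hsq, one_mul]
  obtain ⟨j, hj⟩ := hgen Θ
  obtain ⟨k, hk⟩ := hgen σ
  -- the order of `Θ` is odd
  have hc : ∀ m : ℕ, Θ ^ (2 * m) = 1 → Θ ^ m = 1 := by
    intro m hm
    have h1 : Θ ^ m = (Θ ^ (2 * m)) ^ j := by
      conv_lhs => rw [hj]
      rw [← sq, ← pow_mul, ← pow_mul, ← pow_mul]
      congr 1
      ring
    rw [h1, hm, one_pow]
  have h3 : σ = Θ ^ (2 * k) := by rw [hk, ← sq, ← pow_mul]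
  rw [h3] at hσ ⊢
  apply hc
  rw [← hσ, ← pow_add]
  congr 1
  ring

end

section
variable {L : Type*} [Group L] {X : ZMod 16 → Subgroup L} {F : Type*} [Field F] [Finite F]

/-- the word of the longest element -/
def l0 : List (ZMod 16) := [0, 7, 0, 7, 0, 7, 0, 7]

lemma l0_simp : ∀ i ∈ l0, oct.simp i := by
  intro i hi
  simp only [l0, List.mem_cons, List.mem_nil_iff, or_false] at hi
  change i = 0 ∨ i = 7
  tauto

lemma wl_l0 (j : ZMod 16) : wl oct l0 j = j + 8 := by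
  revert j
  change ∀ j : ZMod 16, l0.foldr oct.s j = j + 8
  decide +kernel

/-- the data of the torus -/
structure TT (F : Type*) [Field F] (X : ZMod 16 → Subgroup L) (n : ZMod 16 → L)
    (N : ZMod 16 → ℕ) (π κ : ZMod 16 → L → F) : Prop where
  hh : HH X
  kt : ∀ i, KT (OctTorus X) (X i) (N i) (π i) (κ i)
  rn : ∀ i, OctRep X i (n i)
  nn : ∀ i, n i * n i = 1
  nf : ∀ i, ∀ t ∈ OctTorus X, κ i t = 1 → n i * t * (n i)⁻¹ = t
  ni : ∀ i, ∀ t ∈ OctTorus X, κ i (n i * t * (n i)⁻¹) = (κ i t)⁻¹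
  odd : ∀ σ : RingAut F, σ * σ = 1 → σ = 1

namespace TT

variable {n : ZMod 16 → L} {N : ZMod 16 → ℕ} {π κ : ZMod 16 → L → F} (h : TT F X n N π κ)
include h

omit [Finite F] in
lemma conjT {g : L} (hg : ∃ l : List (ZMod 16), g = ml n l) {t : L} (ht : t ∈ OctTorus X) :
    g * t * g⁻¹ ∈ OctTorus X := by
  obtain ⟨l, rfl⟩ := hg
  exact h.hh.rd.ml_T (n := n) h.rn l ht

omit [Finite F] in
/-- the square of the longest element -/
lemma w_sq {t : L} (ht : t ∈ OctTorus X) :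
    ml n l0 * (ml n l0 * t * (ml n l0)⁻¹) * (ml n l0)⁻¹ = t := by
  have h1 : ml n (l0 ++ l0) ∈ OctTorus X := by
    refine h.hh.rd.ml_mem_T (n := n) h.rn _ (l0 ++ l0) rfl ?_ ?_
    · intro i hi
      rcases List.mem_append.1 hi with hi | hi <;> exact l0_simp i hi
    · intro j hj
      rw [wl_append, wl_l0, wl_l0, add8]
      exact hj
  rw [ml_append] at h1
  have h2 := h.hh.rd.tcomm _ h1 _ ht
  have e : ml n l0 * (ml n l0 * t * (ml n l0)⁻¹) * (ml n l0)⁻¹ =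
      (ml n l0 * ml n l0 * t) * (ml n l0 * ml n l0)⁻¹ := by group
  rw [e, h2]
  group

omit [Finite F] in
lemma w_act {j : ZMod 16} {a : L} (ha : a ∈ X j) : ml n l0 * a * (ml n l0)⁻¹ ∈ X (j + 8) := by
  have h1 := h.hh.rd.ml_act (n := n) h.rn l0 ha
  rwa [wl_l0] at h1

/-- the longest element inverts the characters -/
lemma w_char (i : ZMod 16) {t : L} (ht : t ∈ OctTorus X) :
    κ i (ml n l0 * t * (ml n l0)⁻¹) = (κ i t)⁻¹ := by
  obtain ⟨w, hw⟩ : ∃ w, w = ml n l0 := ⟨_, rfl⟩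
  have hwT : ∀ t ∈ OctTorus X, w * t * w⁻¹ ∈ OctTorus X := fun t ht => by
    rw [hw]; exact h.conjT ⟨l0, rfl⟩ ht
  have hwX : ∀ a ∈ X i, w * a * w⁻¹ ∈ X (i + 8) := fun a ha => by rw [hw]; exact h.w_act ha
  have hww : ∀ t ∈ OctTorus X, w * (w * t * w⁻¹) * w⁻¹ = t := fun t ht => by
    rw [hw]; exact h.w_sq ht
  obtain ⟨σ, hσ, -⟩ := (h.kt i).semi (e := MulAut.conj (n i * w)) (fun x hx => by
      rw [MulAut.conj_apply]
      have e : n i * w * x * (n i * w)⁻¹ = n i * (w * x * w⁻¹) * (n i)⁻¹ := by group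
      rw [e]
      have := (rep_act (h.rn i) _ _).1 (hwX x hx)
      rwa [s8] at this) (fun t ht => by
      rw [MulAut.conj_apply]
      have e : n i * w * t * (n i * w)⁻¹ = n i * (w * t * w⁻¹) * (n i)⁻¹ := by group
      rw [e]
      exact tor_norm (h.rn i) (hwT t ht))
  have h1 : ∀ t ∈ OctTorus X, κ i (w * t * w⁻¹) = (σ (κ i t))⁻¹ := by
    intro t ht
    rw [← hσ t ht, MulAut.conj_apply]
    have e : n i * w * t * (n i * w)⁻¹ = n i * (w * t * w⁻¹) * (n i)⁻¹ := by group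
    rw [e, h.ni i _ (hwT t ht), inv_inv]
  have h2 : σ * σ = 1 := by
    ext x
    rw [RingAut.mul_apply, RingAut.one_apply]
    by_cases hx : x = 0
    · rw [hx, map_zero, map_zero]
    · obtain ⟨t, ht, rfl⟩ := (h.kt i).full x hx
      have h3 := h1 _ (hwT t ht)
      rw [hww t ht, h1 t ht, map_inv₀, inv_inv] at h3
      exact h3.symm
  have h3 := h.odd σ h2
  rw [← hw, h1 t ht, h3, RingAut.one_apply]

omit [Finite F] in
/-- elements of the torus are determined by two characters -/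
lemma t_one {t : L} (ht : t ∈ OctTorus X) (h0 : κ 0 t = 1) (h7 : κ 7 t = 1) : t = 1 := by
  apply h.hh.cen
  have hn0 : n 0 * t = t * n 0 := mul_inv_eq_iff_eq_mul.1 (h.nf 0 t ht h0)
  have hn7 : n 7 * t = t * n 7 := mul_inv_eq_iff_eq_mul.1 (h.nf 7 t ht h7)
  intro j
  refine oct.gen (fun j => ∀ a ∈ X j, t * a * t⁻¹ = a) ?_ ?_ j
  · rintro i (rfl | rfl)
    · exact (h.kt 0).one t ht h0
    · exact (h.kt 7).one t ht h7
  · rintro i j hi hj a ha
    have hni : n i * t = t * n i := by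
      rcases hi with rfl | rfl
      · exact hn0
      · exact hn7
    have h1 := (rep_act' (h.rn i) (oct.s i j) a).1 ha
    rw [oct.s_s] at h1
    have h2 := hj _ h1
    have h3 : (n i)⁻¹ * (t * a * t⁻¹) * n i = t * ((n i)⁻¹ * a * n i) * t⁻¹ := by
      have e1 : (n i)⁻¹ * t = t * (n i)⁻¹ := by
        calc (n i)⁻¹ * t = (n i)⁻¹ * (t * n i) * (n i)⁻¹ := by group
          _ = (n i)⁻¹ * (n i * t) * (n i)⁻¹ := by rw [hni]
          _ = t * (n i)⁻¹ := by group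
      have e2 : t⁻¹ * n i = n i * t⁻¹ := by
        calc t⁻¹ * n i = t⁻¹ * (n i * t) * t⁻¹ := by group
          _ = t⁻¹ * (t * n i) * t⁻¹ := by rw [hni]
          _ = n i * t⁻¹ := by group
      calc (n i)⁻¹ * (t * a * t⁻¹) * n i = ((n i)⁻¹ * t) * a * (t⁻¹ * n i) := by group
        _ = (t * (n i)⁻¹) * a * (n i * t⁻¹) := by rw [e1, e2]
        _ = _ := by group
    rw [h2] at h3
    have h4 : n i * ((n i)⁻¹ * (t * a * t⁻¹) * n i) * (n i)⁻¹ =
        n i * ((n i)⁻¹ * a * n i) * (n i)⁻¹ := by rw [h3]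
    have e3 : n i * ((n i)⁻¹ * (t * a * t⁻¹) * n i) * (n i)⁻¹ = t * a * t⁻¹ := by group
    have e4 : n i * ((n i)⁻¹ * a * n i) * (n i)⁻¹ = a := by group
    rwa [e3, e4] at h4

/-- the longest element inverts the torus -/
lemma w_inv {t : L} (ht : t ∈ OctTorus X) : ml n l0 * t * (ml n l0)⁻¹ = t⁻¹ := by
  have hw := h.conjT ⟨l0, rfl⟩ ht
  have h1 : (ml n l0 * t * (ml n l0)⁻¹) * t = 1 := by
    apply h.t_one (mul_mem hw ht)
    · rw [(h.kt 0).mul hw ht, h.w_char 0 ht, inv_mul_cancel₀ ((h.kt 0).ne t ht)]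
    · rw [(h.kt 7).mul hw ht, h.w_char 7 ht, inv_mul_cancel₀ ((h.kt 7).ne t ht)]
  exact eq_inv_of_mul_eq_one_left h1

/-- an element fixed by the longest element is trivial -/
lemma eq_one_of_w {t : L} (ht : t ∈ OctTorus X) (hw : ml n l0 * t * (ml n l0)⁻¹ = t) : t = 1 := by
  rw [h.w_inv ht] at hw
  apply h.hh.odd t ht 1
  rw [pow_one, sq]
  conv_lhs =>
    arg 1
    rw [← hw]
  rw [inv_mul_cancel]

omit [Finite F] in
/-- the action of the longest element in terms of the two reflections -/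
lemma w_eq (t : L) : ml n l0 * t * (ml n l0)⁻¹ =
    n 0 * (n 7 * (n 0 * (n 7 * (n 0 * (n 7 * (n 0 * (n 7 * t * (n 7)⁻¹) * (n 0)⁻¹) * (n 7)⁻¹) *
      (n 0)⁻¹) * (n 7)⁻¹) * (n 0)⁻¹) * (n 7)⁻¹) * (n 0)⁻¹ := by
  have e : ml n l0 = n 0 * (n 7 * (n 0 * (n 7 * (n 0 * (n 7 * (n 0 * (n 7 * 1))))))) := rfl
  rw [e]
  group

/-- `x` is inverted by one of the reflections and fixed or inverted by the other one -/
lemma one_of_both {x : L} (hx : x ∈ OctTorus X) (h0 : n 0 * x * (n 0)⁻¹ = x⁻¹ ∨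
    n 0 * x * (n 0)⁻¹ = x) (h7 : n 7 * x * (n 7)⁻¹ = x⁻¹ ∨ n 7 * x * (n 7)⁻¹ = x) : x = 1 := by
  have i0 : ∀ y, n 0 * y⁻¹ * (n 0)⁻¹ = (n 0 * y * (n 0)⁻¹)⁻¹ := fun y => by group
  have i7 : ∀ y, n 7 * y⁻¹ * (n 7)⁻¹ = (n 7 * y * (n 7)⁻¹)⁻¹ := fun y => by group
  apply h.eq_one_of_w hx
  rw [h.w_eq]
  rcases h0 with h0 | h0 <;> rcases h7 with h7 | h7 <;>
    simp only [h0, h7, i0, i7, inv_inv]

end TT

end

end Vale.Agent.P240.R2.H387.O
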