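import Vale.Agent.P240.R2.H387.O7

/-!
The torus is the full group of pairs of scalars; automorphisms that stabilize all root groups.
-/

set_option autoImplicit false
set_option linter.all false

namespace Vale.Agent.P240.R2.H387.O

open Subgroup Vale.Agent.P240.H195

section
variable {L : Type*} [Group L] {X : ZMod 16 → Subgroup L} {F : Type*} [Field F] [Finite F]

/-- squares are injective in characteristic two -/
lemma sq_inj (h2 : (2 : F) = 0) {a b : F} (hab : a * a = b * b) : a = b := by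
  have h1 : (a - b) ^ 2 = 0 := by linear_combination hab + (b * b - a * b) * h2
  exact sub_eq_zero.1 (pow_eq_zero_iff two_ne_zero |>.1 h1)

namespace TT

variable {n : ZMod 16 → L} {N : ZMod 16 → ℕ} {π κ : ZMod 16 → L → F} (h : TT F X n N π κ)
include h

omit [Finite F] in
/-- the element `t φ(t)⁻¹` -/
lemma hh_mem (i : ZMod 16) {t : L} (ht : t ∈ OctTorus X) :
    t * (n i * t * (n i)⁻¹)⁻¹ ∈ OctTorus X :=
  mul_mem ht (inv_mem (tor_norm (h.rn i) ht))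

omit [Finite F] in
lemma hh_char (i : ZMod 16) {t : L} (ht : t ∈ OctTorus X) :
    κ i (t * (n i * t * (n i)⁻¹)⁻¹) = κ i t * κ i t := by
  have hφ := tor_norm (h.rn i) ht
  rw [(h.kt i).mul ht (inv_mem hφ), (h.kt i).inv' hφ, h.ni i t ht, inv_inv]

omit [Finite F] in
lemma hh_inv (i : ZMod 16) {t : L} (ht : t ∈ OctTorus X) :
    n i * (t * (n i * t * (n i)⁻¹)⁻¹) * (n i)⁻¹ = (t * (n i * t * (n i)⁻¹)⁻¹)⁻¹ := by
  have hni : (n i)⁻¹ = n i := inv_eq_of_mul_eq_one_left (h.nn i)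
  have hφ := tor_norm (h.rn i) ht
  have e : n i * (t * (n i * t * (n i)⁻¹)⁻¹) * (n i)⁻¹ =
      (n i * t * (n i)⁻¹) * ((n i * n i) * t⁻¹ * (n i * n i)⁻¹) := by group
  rw [e, h.nn i]
  group

/-- **all pairs of scalars occur** -/
theorem full2 (h2 : (2 : F) = 0) (a b : F) (ha : a ≠ 0) (hb : b ≠ 0) :
    ∃ t ∈ OctTorus X, κ 0 t = a ∧ κ 7 t = b := by
  have f0 : ∀ a : Fˣ, ∃ t ∈ OctTorus X, κ 0 t = a := fun a => (h.kt 0).full a a.ne_zero
  have f7 : ∀ a : Fˣ, ∃ t ∈ OctTorus X, κ 7 t = a := fun a => (h.kt 7).full a a.ne_zero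
  choose s hs hs' using f0
  choose u hu hu' using f7
  obtain ⟨A, hA, hAc, hAi⟩ : ∃ A : Fˣ → L, (∀ a, A a ∈ OctTorus X) ∧
      (∀ a, κ 0 (A a) = (a : F) * a) ∧ ∀ a, n 0 * A a * (n 0)⁻¹ = (A a)⁻¹ :=
    ⟨fun a => s a * (n 0 * s a * (n 0)⁻¹)⁻¹, fun a => h.hh_mem 0 (hs a), fun a => by
      rw [h.hh_char 0 (hs a), hs'], fun a => h.hh_inv 0 (hs a)⟩
  obtain ⟨B, hB, hBc, hBi⟩ : ∃ B : Fˣ → L, (∀ a, B a ∈ OctTorus X) ∧
      (∀ a, κ 7 (B a) = (a : F) * a) ∧ ∀ a, n 7 * B a * (n 7)⁻¹ = (B a)⁻¹ :=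
    ⟨fun a => u a * (n 7 * u a * (n 7)⁻¹)⁻¹, fun a => h.hh_mem 7 (hu a), fun a => by
      rw [h.hh_char 7 (hu a), hu'], fun a => h.hh_inv 7 (hu a)⟩
  let f : Fˣ × Fˣ → Fˣ × Fˣ := fun p =>
    (Units.mk0 (κ 0 (A p.1 * B p.2)) ((h.kt 0).ne _ (mul_mem (hA _) (hB _))),
      Units.mk0 (κ 7 (A p.1 * B p.2)) ((h.kt 7).ne _ (mul_mem (hA _) (hB _))))
  have hf : Function.Injective f := by
    rintro ⟨a, b⟩ ⟨a', b'⟩ hab
    have h0 : κ 0 (A a * B b) = κ 0 (A a' * B b') := congrArg Units.val (congrArg Prod.fst hab)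
    have h7 : κ 7 (A a * B b) = κ 7 (A a' * B b') := congrArg Units.val (congrArg Prod.snd hab)
    have hm := mul_mem (hA a) (hB b)
    have hm' := mul_mem (hA a') (hB b')
    have h3 : (A a * B b) * (A a' * B b')⁻¹ = 1 := by
      apply h.t_one (mul_mem hm (inv_mem hm'))
      · rw [(h.kt 0).mul hm (inv_mem hm'), (h.kt 0).inv' hm', h0,
          mul_inv_cancel₀ ((h.kt 0).ne _ hm')]
      · rw [(h.kt 7).mul hm (inv_mem hm'), (h.kt 7).inv' hm', h7,
          mul_inv_cancel₀ ((h.kt 7).ne _ hm')]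
    have h4 : A a * B b = A a' * B b' := mul_inv_eq_one.1 h3
    have h5 : (A a')⁻¹ * A a = B b' * (B b)⁻¹ := by
      calc (A a')⁻¹ * A a = (A a')⁻¹ * (A a * B b) * (B b)⁻¹ := by group
        _ = B b' * (B b)⁻¹ := by rw [h4]; group
    have hx : (A a')⁻¹ * A a ∈ OctTorus X := mul_mem (inv_mem (hA a')) (hA a)
    have h6 : (A a')⁻¹ * A a = 1 := by
      refine h.one_of_both hx (Or.inl ?_) (Or.inl ?_)
      · have e : n 0 * ((A a')⁻¹ * A a) * (n 0)⁻¹ =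
            (n 0 * A a' * (n 0)⁻¹)⁻¹ * (n 0 * A a * (n 0)⁻¹) := by group
        rw [e, hAi, hAi, mul_inv_rev, inv_inv]
        exact h.hh.rd.tcomm _ (hA a') _ (inv_mem (hA a))
      · rw [h5]
        have e : n 7 * (B b' * (B b)⁻¹) * (n 7)⁻¹ =
            (n 7 * B b' * (n 7)⁻¹) * (n 7 * B b * (n 7)⁻¹)⁻¹ := by group
        rw [e, hBi, hBi, mul_inv_rev, inv_inv]
        exact h.hh.rd.tcomm _ (inv_mem (hB b')) _ (hB b)
    have h7' : A a = A a' := (inv_mul_eq_one.1 h6).symm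
    have h8 : B b' = B b := by
      rw [h6] at h5
      exact mul_inv_eq_one.1 h5.symm
    have h9 : (a : F) = a' := by
      apply sq_inj h2
      have := congrArg (κ 0) h7'
      rwa [hAc, hAc] at this
    have h10 : (b : F) = b' := by
      apply sq_inj h2
      have := congrArg (κ 7) h8
      rw [hBc, hBc] at this
      exact this.symm
    rw [Units.ext h9, Units.ext h10]
  obtain ⟨p, hp⟩ := (Finite.injective_iff_surjective.1 hf) (Units.mk0 a ha, Units.mk0 b hb)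
  exact ⟨A p.1 * B p.2, mul_mem (hA _) (hB _), congrArg Units.val (congrArg Prod.fst hp),
    congrArg Units.val (congrArg Prod.snd hp)⟩

section
variable {e : MulAut L} (he : ∀ j a, a ∈ X j ↔ e a ∈ X j)
include he

omit h [Finite F] in
lemma rep_iff (i : ZMod 16) {m : L} (hm : OctRep X i m) : OctRep X i (e m) := by
  obtain ⟨⟨b, hb, a, ha, c, hc, e1⟩, h1⟩ := hm
  refine ⟨⟨e b, (he _ _).1 hb, e a, (he _ _).1 ha, e c, (he _ _).1 hc, by
    rw [e1, map_mul, map_mul]⟩, fun j g => ?_⟩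
  have h4 : e (e⁻¹ g) = g := by rw [← MulAut.mul_apply, mul_inv_cancel, MulAut.one_apply]
  have h5 : e m * g * (e m)⁻¹ = e (m * e⁻¹ g * m⁻¹) := by rw [map_mul, map_mul, map_inv, h4]
  rw [h5, ← he, ← h1 j, he j (e⁻¹ g), h4]

omit h [Finite F] in
lemma tor_iff {t : L} (ht : t ∈ OctTorus X) : e t ∈ OctTorus X := by
  refine closure_induction (p := fun t _ => e t ∈ OctTorus X) ?_ ?_ ?_ ?_ ht
  · rintro _ ⟨i, m, m', hm, hm', rfl⟩
    rw [map_mul]
    exact subset_closure ⟨i, _, _, rep_iff he i hm, rep_iff he i hm', rfl⟩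
  · rw [map_one]
    exact one_mem _
  · intro s t _ _ hs ht
    rw [map_mul]
    exact mul_mem hs ht
  · intro s _ hs
    rw [map_inv]
    exact inv_mem hs

omit [Finite F] in
/-- the reflections commute with the automorphism on the torus -/
lemma phi_comm (i : ZMod 16) {t : L} (ht : t ∈ OctTorus X) :
    e (n i * t * (n i)⁻¹) = n i * e t * (n i)⁻¹ := by
  have h1 : (n i)⁻¹ * e (n i) ∈ OctTorus X :=
    h.hh.rd.m_inv_m (h.rn i) (rep_iff he i (h.rn i))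
  have h2 := h.hh.rd.tcomm _ h1 _ (tor_iff he ht)
  rw [map_mul, map_mul, map_inv]
  have e1 : e (n i) * e t * (e (n i))⁻¹ = n i * ((n i)⁻¹ * e (n i) * e t) * ((n i)⁻¹ * e (n i))⁻¹ *
      (n i)⁻¹ := by group
  rw [e1, h2]
  group

/-- if the field automorphism on `X 0` is trivial, then `e` is trivial on the torus -/
theorem fixT (h2 : (2 : F) = 0) (h0 : ∀ t ∈ OctTorus X, κ 0 (e t) = κ 0 t) {t : L}
    (ht : t ∈ OctTorus X) : e t = t := by
  have heT : ∀ t ∈ OctTorus X, e t ∈ OctTorus X := fun t ht => tor_iff he ht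
  -- `x = e(t) t⁻¹` has trivial character `κ 0`
  have hx0 : ∀ t ∈ OctTorus X, n 0 * (e t * t⁻¹) * (n 0)⁻¹ = e t * t⁻¹ := by
    intro t ht
    apply h.nf 0 _ (mul_mem (heT t ht) (inv_mem ht))
    rw [(h.kt 0).mul (heT t ht) (inv_mem ht), (h.kt 0).inv' ht, h0 t ht,
      mul_inv_cancel₀ ((h.kt 0).ne t ht)]
  have hy : ∀ t ∈ OctTorus X, e (t * (n 7 * t * (n 7)⁻¹)⁻¹) = t * (n 7 * t * (n 7)⁻¹)⁻¹ := by
    intro t ht
    obtain ⟨y, hyd⟩ : ∃ y, y = t * (n 7 * t * (n 7)⁻¹)⁻¹ := ⟨_, rfl⟩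
    have hyT : y ∈ OctTorus X := by rw [hyd]; exact h.hh_mem 7 ht
    have h3 : n 7 * y * (n 7)⁻¹ = y⁻¹ := by rw [hyd]; exact h.hh_inv 7 ht
    have h4 : e y * y⁻¹ = 1 := by
      refine h.one_of_both (mul_mem (heT y hyT) (inv_mem hyT)) (Or.inr (hx0 y hyT)) (Or.inl ?_)
      have e1 : n 7 * (e y * y⁻¹) * (n 7)⁻¹ =
          (n 7 * e y * (n 7)⁻¹) * (n 7 * y * (n 7)⁻¹)⁻¹ := by group
      rw [e1, ← h.phi_comm he 7 hyT, h3, map_inv, inv_inv, mul_inv_rev, inv_inv]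
      exact h.hh.rd.tcomm _ (inv_mem (heT y hyT)) _ hyT
    rw [← hyd]
    exact mul_inv_eq_one.1 h4
  have h5 : e t * t⁻¹ = 1 := by
    refine h.one_of_both (mul_mem (heT t ht) (inv_mem ht)) (Or.inr (hx0 t ht)) (Or.inr ?_)
    have h6 := hy t ht
    rw [map_mul, map_inv, h.phi_comm he 7 ht] at h6
    -- `e t φ(e t)⁻¹ = t φ(t)⁻¹`
    have hφ := tor_norm (h.rn 7) ht
    have hφe := tor_norm (h.rn 7) (heT t ht)
    have e1 : n 7 * (e t * t⁻¹) * (n 7)⁻¹ =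
        (n 7 * e t * (n 7)⁻¹) * (n 7 * t * (n 7)⁻¹)⁻¹ := by group
    rw [e1]
    obtain ⟨p, hp⟩ : ∃ p, p = n 7 * e t * (n 7)⁻¹ := ⟨_, rfl⟩
    obtain ⟨q, hq⟩ : ∃ q, q = n 7 * t * (n 7)⁻¹ := ⟨_, rfl⟩
    rw [← hp] at h6 hφe ⊢
    rw [← hq] at h6 hφ ⊢
    have h7 : e t = t * q⁻¹ * p := mul_inv_eq_iff_eq_mul.1 h6
    have h8 := h.hh.rd.tcomm _ (mul_mem (inv_mem hφ) hφe) _ (inv_mem ht)
    have h9 := h.hh.rd.tcomm _ (inv_mem hφ) _ hφe
    calc p * q⁻¹ = q⁻¹ * p := h9.symm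
      _ = t * (t⁻¹ * (q⁻¹ * p)) := by group
      _ = t * ((q⁻¹ * p) * t⁻¹) := by rw [← h8]
      _ = e t * t⁻¹ := by rw [h7]; group
  exact mul_inv_eq_one.1 h5

/-- **an automorphism with trivial field automorphism is inner** -/
theorem inner (h2 : (2 : F) = 0) (h0 : ∀ t ∈ OctTorus X, κ 0 (e t) = κ 0 t) :
    e ∈ (MulAut.conj (G := L)).range := by
  have heT : ∀ t ∈ OctTorus X, e t = t := fun t ht => h.fixT he h2 h0 ht
  have hk : ∀ i, ∃ k : F, k ≠ 0 ∧ ∀ x ∈ X i, π i (e x) = k * π i x := by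
    intro i
    obtain ⟨σ, hσ, k, hk0, hk⟩ := (h.kt i).semi (fun x hx => (he i x).1 hx)
      (fun t ht => tor_iff he ht)
    have h3 : ∀ a, σ a = a := by
      intro a
      by_cases ha : a = 0
      · rw [ha, map_zero]
      · obtain ⟨t, ht, rfl⟩ := (h.kt i).full a ha
        rw [← hσ t ht, heT t ht]
    refine ⟨k, hk0, fun x hx => ?_⟩
    rw [hk x hx, h3]
  obtain ⟨k0, hk00, hk0⟩ := hk 0
  obtain ⟨k7, hk70, hk7⟩ := hk 7
  obtain ⟨t, ht, ht0, ht7⟩ := h.full2 h2 k0 k7 hk00 hk70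
  have ht1 : (MulAut.conj t)⁻¹ = MulAut.conj t⁻¹ := (map_inv _ _).symm
  obtain ⟨f, hf⟩ : ∃ f, f = (MulAut.conj t)⁻¹ * e := ⟨_, rfl⟩
  have hval : ∀ x, f x = t⁻¹ * e x * t := by
    intro x
    rw [hf, MulAut.mul_apply, ht1, MulAut.conj_apply, inv_inv]
  have hfX : ∀ j, ∀ a ∈ X j, f a ∈ X j := by
    intro j a ha
    rw [hval]
    have h3 := (tor_act (inv_mem ht) j (e a)).1 ((he j a).1 ha)
    rwa [inv_inv] at h3
  have hfT : ∀ s ∈ OctTorus X, f s = s := by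
    intro s hs
    rw [hval, heT s hs, h.hh.rd.tcomm _ (inv_mem ht) _ hs]
    group
  have hfix : ∀ i, oct.simp i → ∀ x ∈ X i, f x = x := by
    have key : ∀ i, ∀ k : F, κ i t = k → (∀ x ∈ X i, π i (e x) = k * π i x) →
        ∀ x ∈ X i, f x = x := by
      intro i k hki hkx
      refine (h.kt i).rig f (hfX i) hfT fun x hx => ?_
      have h3 := (h.kt i).act t ht (f x) (hfX i x hx)
      have e1 : t * f x * t⁻¹ = e x := by rw [hval]; group
      rw [e1, hkx x hx, hki] at h3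
      have hk0 : k ≠ 0 := by rw [← hki]; exact (h.kt i).ne t ht
      exact (mul_left_cancel₀ hk0 h3).symm
    rintro i (rfl | rfl)
    · exact key 0 k0 ht0 hk0
    · exact key 7 k7 ht7 hk7
  have hfi : ∀ j a, a ∈ X j ↔ f a ∈ X j := by
    intro j a
    rw [hval, he j a]
    have h3 := tor_act (inv_mem ht) j (e a)
    rwa [inv_inv] at h3
  -- representatives
  have hrep : ∀ i, oct.simp i → ∃ m, OctRep X i m ∧ f m = m := by
    intro i hi
    obtain ⟨a, ha, ha1⟩ := h.hh.rd.ne i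
    obtain ⟨b, hb, c, hc, hm⟩ := h.hh.rep i a ha ha1
    refine ⟨_, hm, ?_⟩
    have h3 := rep_iff hfi i hm
    have h4 : f (b * a * c) = f b * a * f c := by rw [map_mul, map_mul, hfix i hi a ha]
    have h5 := h.hh.uniq (g := f (b * a * c)) ha hb hc hm (hfX _ _ hb) (hfX _ _ hc) h4
      (fun y hy => by
        have := (rep_act h3 _ _).1 hy
        rwa [sii] at this) (fun y hy => by
        have := (rep_act h3 _ _).1 hy
        rwa [s8] at this)
    rw [h4, h5.1, h5.2]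
  have hall : ∀ j, ∀ x ∈ X j, f x = x := by
    intro j
    refine oct.gen (fun j => ∀ x ∈ X j, f x = x) hfix ?_ j
    intro i j hi hj x hx
    obtain ⟨m, hm, hfm⟩ := hrep i hi
    have h3 := (rep_act' hm (oct.s i j) x).1 hx
    rw [oct.s_s] at h3
    have h4 := hj _ h3
    have e1 : x = m * (m⁻¹ * x * m) * m⁻¹ := by group
    conv_lhs => rw [e1]
    rw [map_mul, map_mul, map_inv, hfm, h4]
    group
  have hf1 : f = 1 := by
    have h3 : (f.toMonoidHom.eqLocus (MonoidHom.id L)) = ⊤ := by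
      rw [eq_top_iff, ← h.hh.rd.gen, gX, closure_le]
      rintro a ⟨j, -, ha⟩
      exact hall j a ha
    ext y
    have h4 : y ∈ (f.toMonoidHom.eqLocus (MonoidHom.id L)) := h3 ▸ mem_top y
    exact h4
  refine ⟨t, ?_⟩
  rw [hf] at hf1
  exact inv_mul_eq_one.1 hf1

end

end TT

end

end Vale.Agent.P240.R2.H387.O
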