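import Vale.Agent.P240.R2.H387.O8
import Vale.Agent.P240.R2.H775.Rk3

/-!
`²F₄(q)`: the outer automorphism group is cyclic.
-/

set_option autoImplicit false
set_option linter.all false

namespace Vale.Agent.P240.R2.H387.O

open Subgroup Vale.Agent.P240.K Vale.Agent.P240.H195 Vale.Agent.P240.R2.H997
open Vale.Agent.P240.R2.H775.Rk (cyc_few)

universe u v

section
variable {L : Type u} [Group L] [Finite L] {X : ZMod 16 → Subgroup L} {F : Type v} [Field F]
  [Finite F] {n : ZMod 16 → L} {N : ZMod 16 → ℕ} {π κ : ZMod 16 → L → F}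

namespace TT

variable (h : TT F X n N π κ)
include h

omit [Finite F] in
lemma ww_mem : ml n l0 * ml n l0 ∈ OctTorus X := by
  have h1 : ml n (l0 ++ l0) ∈ OctTorus X := by
    refine h.hh.rd.ml_mem_T (n := n) h.rn _ (l0 ++ l0) rfl ?_ ?_
    · intro i hi
      rcases List.mem_append.1 hi with hi | hi <;> exact l0_simp i hi
    · intro j hj
      rw [wl_append, wl_l0, wl_l0, add8]
      exact hj
  rwa [ml_append] at h1

omit [Finite F] in
lemma w_mem : ml n l0 ∈ mm oct n (OctTorus X) := RD.ml_mem l0_simp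

omit [Finite F] in
lemma w_opp : ∀ y ∈ uu oct X, ml n l0 * y * (ml n l0)⁻¹ ∈ uu oct X → y = 1 := by
  intro y hy hny
  have h1 : ml n l0 * y * (ml n l0)⁻¹ ∈ um oct X := by
    refine gX_conj (fun i hi a ha => ?_) hy
    have h2 := h.w_act ha
    refine mem_um ?_ h2
    rcases pos8 i with h3 | h3
    · exact h3.2
    · exact absurd hi h3.1
  have h2 : ml n l0 * y * (ml n l0)⁻¹ ∈ uu oct X ⊓ um oct X := ⟨hny, h1⟩
  rw [show uu oct X ⊓ um oct X = ⊥ from h.hh.rd.opp, mem_bot] at h2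
  exact conj_eq_one_iff.1 h2

variable (hB : SB 2 (bb oct X (OctTorus X)) (mm oct n (OctTorus X)) (uu oct X) (ss oct n))
include hB

omit [Finite F] in
/-- the opposite root groups -/
lemma neg_index {e : MulAut L} (heB : am e (bb oct X (OctTorus X)) = bb oct X (OctTorus X))
    (heC : am e (cj (ml n l0) (bb oct X (OctTorus X))) = cj (ml n l0) (bb oct X (OctTorus X)))
    {i k : ZMod 16} (hi : oct.simp i) (hk : oct.simp k)
    (heP : am e (Par (bb oct X (OctTorus X)) (n i)) = Par (bb oct X (OctTorus X)) (n k)) :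
    ∀ y ∈ X (i + 8), e y ∈ X (k + 8) := by
  intro y hy
  obtain ⟨w, hw⟩ : ∃ w, w = ml n l0 := ⟨_, rfl⟩
  rw [← hw] at heC
  have hp := Nat.prime_two
  refine h.hh.rd.X_form (n := n) h.rn hp hB (g := w) (by rw [hw]; exact h.w_mem)
    (by rw [hw]; exact h.w_opp) hk ?_ ?_
  · rw [← heP]
    exact apply_mem_am (h.hh.rd.X_par (n := n) h.rn hi hy)
  · obtain ⟨f, hf⟩ : ∃ f, f = (MulAut.conj w)⁻¹ * e * MulAut.conj w := ⟨_, rfl⟩
    have hw1 : (MulAut.conj w)⁻¹ = MulAut.conj w⁻¹ := (map_inv _ _).symm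
    have hfB : am f (bb oct X (OctTorus X)) = bb oct X (OctTorus X) := by
      rw [hf, am_mul, am_mul, hw1, am_conj, am_conj, heC, ← cj_mul, inv_mul_cancel, cj_one]
    have h1 := h.hh.rd.X_opp (n := n) h.rn (g := w) (by rw [hw]; exact h.w_mem)
      (by rw [hw]; exact h.w_opp) (oct.simp_pos i hi) hy
    have h2 := hB.apply_U hp hfB h1
    have e1 : f (w⁻¹ * y * w) = w⁻¹ * e y * w := by
      rw [hf, MulAut.mul_apply, MulAut.mul_apply, hw1, MulAut.conj_apply, MulAut.conj_apply, inv_inv]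
      congr 2
      congr 1
      group
    rwa [e1] at h2

variable (hab : ∀ y ∈ X 8, y * y = 1) (hna : ∃ y ∈ X 15, y * y ≠ 1)
include hab hna

omit [Finite F] in
lemma stab_neg {e : MulAut L} (heB : am e (bb oct X (OctTorus X)) = bb oct X (OctTorus X))
    (heC : am e (cj (ml n l0) (bb oct X (OctTorus X))) = cj (ml n l0) (bb oct X (OctTorus X))) :
    (∀ y ∈ X 8, e y ∈ X 8) ∧ ∀ y ∈ X 15, e y ∈ X 15 := by
  have e08 : (0 : ZMod 16) + 8 = 8 := by decide +kernel
  have e78 : (7 : ZMod 16) + 8 = 15 := by decide +kernel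
  have hs0 : oct.simp 0 := Or.inl rfl
  have hs7 : oct.simp 7 := Or.inr rfl
  obtain ⟨y, hy, hy1⟩ := hna
  constructor
  · obtain ⟨s, ⟨k, hk, rfl⟩, h1⟩ := hB.am_par heB (⟨0, hs0, rfl⟩ : n 0 ∈ ss oct n)
    rcases hk with rfl | rfl
    · have h2 := h.neg_index hB heB heC hs0 hs0 h1
      rwa [e08] at h2
    · exfalso
      have heB' := am_inv_eq heB
      have heC' := am_inv_eq heC
      have h3 : am e⁻¹ (Par (bb oct X (OctTorus X)) (n 7)) =
          Par (bb oct X (OctTorus X)) (n 0) := by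
        rw [← h1, ← am_mul, inv_mul_cancel, am_one]
      have h2 := h.neg_index hB heB' heC' hs7 hs0 h3 y (by rw [e78]; exact hy)
      rw [e08] at h2
      have h4 := hab _ h2
      rw [← map_mul] at h4
      exact hy1 (e⁻¹.injective (by rw [h4, map_one]))
  · obtain ⟨s, ⟨k, hk, rfl⟩, h1⟩ := hB.am_par heB (⟨7, hs7, rfl⟩ : n 7 ∈ ss oct n)
    rcases hk with rfl | rfl
    · exfalso
      have h2 := h.neg_index hB heB heC hs7 hs0 h1 y (by rw [e78]; exact hy)
      rw [e08] at h2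
      have h4 := hab _ h2
      rw [← map_mul] at h4
      exact hy1 (e.injective (by rw [h4, map_one]))
    · have h2 := h.neg_index hB heB heC hs7 hs7 h1
      rwa [e78] at h2

omit [Finite F] in
lemma stab_pos {e : MulAut L} (heB : am e (bb oct X (OctTorus X)) = bb oct X (OctTorus X))
    (heC : am e (cj (ml n l0) (bb oct X (OctTorus X))) = cj (ml n l0) (bb oct X (OctTorus X))) :
    (∀ y ∈ X 0, e y ∈ X 0) ∧ ∀ y ∈ X 7, e y ∈ X 7 := by
  obtain ⟨w, hw⟩ : ∃ w, w = ml n l0 := ⟨_, rfl⟩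
  obtain ⟨f, hf⟩ : ∃ f, f = (MulAut.conj w)⁻¹ * e * MulAut.conj w := ⟨_, rfl⟩
  have hw1 : (MulAut.conj w)⁻¹ = MulAut.conj w⁻¹ := (map_inv _ _).symm
  have hww : w * w ∈ bb oct X (OctTorus X) := by
    rw [hw]
    exact T_le_b h.ww_mem
  have hcc : cj w⁻¹ (bb oct X (OctTorus X)) = cj w (bb oct X (OctTorus X)) := by
    have e1 : w⁻¹ = w * (w * w)⁻¹ := by group
    rw [e1, cj_mul, cj_self (inv_mem hww)]
  have hfB : am f (bb oct X (OctTorus X)) = bb oct X (OctTorus X) := by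
    rw [hf, am_mul, am_mul, hw1, am_conj, am_conj, hw, heC, ← cj_mul, inv_mul_cancel, cj_one]
  have hfC : am f (cj w (bb oct X (OctTorus X))) = cj w (bb oct X (OctTorus X)) := by
    rw [hf, am_mul, am_mul, hw1, am_conj, am_conj, ← cj_mul, cj_self hww, heB, hcc]
  rw [hw] at hfC
  obtain ⟨h8, h15⟩ := h.stab_neg hB hab hna hfB hfC
  have key : ∀ j : ZMod 16, (∀ y ∈ X (j + 8), f y ∈ X (j + 8)) → ∀ y ∈ X j, e y ∈ X j := by
    intro j hj y hy
    have h1 := h.hh.rd.ml_inv_act (n := n) h.rn l0 (j := j + 8) (a := y) (by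
      rw [wl_l0, add8]; exact hy)
    rw [← hw] at h1
    have h2 := hj _ h1
    have e1 : f (w⁻¹ * y * w) = w⁻¹ * e y * w := by
      rw [hf, MulAut.mul_apply, MulAut.mul_apply, hw1, MulAut.conj_apply, MulAut.conj_apply, inv_inv]
      congr 2
      congr 1
      group
    rw [e1] at h2
    have h3 := h.w_act h2
    rw [← hw, add8] at h3
    have e2 : w * (w⁻¹ * e y * w) * w⁻¹ = e y := by group
    rwa [e2] at h3
  refine ⟨key 0 ?_, key 7 ?_⟩
  · have e08 : (0 : ZMod 16) + 8 = 8 := by decide +kernel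
    rw [e08]
    exact h8
  · have e78 : (7 : ZMod 16) + 8 = 15 := by decide +kernel
    rw [e78]
    exact h15

omit [Finite F] in
/-- automorphisms that stabilize `B` and its opposite stabilize all root groups -/
lemma stab {e : MulAut L} (heB : am e (bb oct X (OctTorus X)) = bb oct X (OctTorus X))
    (heC : am e (cj (ml n l0) (bb oct X (OctTorus X))) = cj (ml n l0) (bb oct X (OctTorus X))) :
    ∀ j a, a ∈ X j ↔ e a ∈ X j := by
  have hinv : ∀ a, e⁻¹ (e a) = a := fun a => by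
    rw [← MulAut.mul_apply, inv_mul_cancel, MulAut.one_apply]
  have a1 := h.stab_neg hB hab hna heB heC
  have a2 := h.stab_pos hB hab hna heB heC
  have b1 := h.stab_neg hB hab hna (am_inv_eq heB) (am_inv_eq heC)
  have b2 := h.stab_pos hB hab hna (am_inv_eq heB) (am_inv_eq heC)
  have e08 : (0 : ZMod 16) + 8 = 8 := by decide +kernel
  have e78 : (7 : ZMod 16) + 8 = 15 := by decide +kernel
  have key : ∀ i, oct.simp i → (∀ a, a ∈ X i ↔ e a ∈ X i) ∧ ∀ a, a ∈ X (i + 8) ↔ e a ∈ X (i + 8) := by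
    rintro i (rfl | rfl)
    · refine ⟨fun a => ⟨a2.1 a, fun ha => ?_⟩, fun a => ?_⟩
      · have := b2.1 _ ha
        rwa [hinv] at this
      · rw [e08]
        refine ⟨a1.1 a, fun ha => ?_⟩
        have := b1.1 _ ha
        rwa [hinv] at this
    · refine ⟨fun a => ⟨a2.2 a, fun ha => ?_⟩, fun a => ?_⟩
      · have := b2.2 _ ha
        rwa [hinv] at this
      · rw [e78]
        refine ⟨a1.2 a, fun ha => ?_⟩
        have := b1.2 _ ha
        rwa [hinv] at this
  intro j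
  refine oct.gen (fun j => ∀ a, a ∈ X j ↔ e a ∈ X j) (fun i hi => (key i hi).1) ?_ j
  intro i j hi hj a
  obtain ⟨⟨b, hb, a', ha', c, hc, e1⟩, -⟩ := id (h.rn i)
  have hm := h.rn i
  rw [e1] at hm
  have h1 := h.hh.map_rep (key i hi).1 (key i hi).2 ha' hb hc hm
  rw [← map_mul, ← map_mul, ← e1] at h1
  have h2 : a ∈ X (oct.s i j) ↔ (n i)⁻¹ * a * n i ∈ X j := by
    rw [rep_act' (h.rn i) (oct.s i j) a, oct.s_s]
  have h3 : e a ∈ X (oct.s i j) ↔ (e (n i))⁻¹ * e a * e (n i) ∈ X j := by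
    rw [rep_act' h1 (oct.s i j) (e a), oct.s_s]
  rw [h2, h3, hj, map_mul, map_mul, map_inv]

end TT

/-- the relation between automorphisms and field automorphisms -/
def SR (X : ZMod 16 → Subgroup L) (κ : L → F) : Subgroup (MulAut L × RingAut F) where
  carrier := {x | ∃ (z : L) (e : MulAut L), x.1 = MulAut.conj z * e ∧ (∀ j a, a ∈ X j ↔ e a ∈ X j) ∧
    ∀ t ∈ OctTorus X, κ (e t) = x.2 (κ t)}
  mul_mem' := by
    rintro ⟨f, σ⟩ ⟨f', σ'⟩ ⟨z, e, hf, he, hk⟩ ⟨z', e', hf', he', hk'⟩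
    refine ⟨z * e z', e * e', ?_, ?_, ?_⟩
    · change f * f' = _
      change f = _ at hf
      change f' = _ at hf'
      rw [hf, hf']
      ext x
      simp only [MulAut.mul_apply, MulAut.conj_apply, map_mul, map_inv, mul_inv_rev, mul_assoc]
    · intro j a
      rw [MulAut.mul_apply, ← he, ← he']
    · intro t ht
      have h1 := hk _ (TT.tor_iff he' ht)
      have h2 := hk' t ht
      change _ = σ _ at h1
      change _ = σ' _ at h2
      change κ (e (e' t)) = σ (σ' (κ t))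
      rw [h1, h2]
  one_mem' := ⟨1, 1, by simp, fun j a => Iff.rfl, fun t ht => rfl⟩
  inv_mem' := by
    rintro ⟨f, σ⟩ ⟨z, e, hf, he, hk⟩
    change f = _ at hf
    have he' : ∀ j a, a ∈ X j ↔ e⁻¹ a ∈ X j := by
      intro j a
      have h2 : e (e⁻¹ a) = a := by rw [← MulAut.mul_apply, mul_inv_cancel, MulAut.one_apply]
      rw [he j (e⁻¹ a), h2]
    refine ⟨e⁻¹ z⁻¹, e⁻¹, ?_, he', ?_⟩
    · change f⁻¹ = _
      rw [hf]
      ext x
      simp only [mul_inv_rev, MulAut.mul_apply, MulAut.conj_apply, ← map_inv, inv_inv, map_mul]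
    · intro t ht
      have h1 := hk _ (TT.tor_iff he' ht)
      change _ = σ _ at h1
      have h2 : e (e⁻¹ t) = t := by rw [← MulAut.mul_apply, mul_inv_cancel, MulAut.one_apply]
      rw [h2] at h1
      change κ (e⁻¹ t) = σ⁻¹ (κ t)
      rw [h1, ← RingAut.mul_apply, inv_mul_cancel, RingAut.one_apply]

omit [Finite F] in
theorem TT.fewAut [Finite F] (h : TT F X n N π κ)
    (hB : SB 2 (bb oct X (OctTorus X)) (mm oct n (OctTorus X)) (uu oct X) (ss oct n))
    (hab : ∀ y ∈ X 8, y * y = 1) (hna : ∃ y ∈ X 15, y * y ≠ 1) (h2 : (2 : F) = 0) {q : ℕ}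
    (hq : q.Prime) : FewAut q L := by
  have : Fact q.Prime := ⟨hq⟩
  have hp := Nat.prime_two
  have hnI : (MulAut.conj (G := L)).range.Normal := normal_conj
  have key : ∀ f g : MulAut L, OutAut q f → OutAut q g →
      g ∈ zpowers f ⊔ (MulAut.conj (G := L)).range := by
    intro f g hf hg
    refine cyc_few (C := RingAut F) _ (SR X (κ 0)) ?_ ?_ hf.1 hg.1 hf.2
    · intro f
      obtain ⟨g, hg⟩ := hB.exists_conj hp f
      obtain ⟨e₀, he₀⟩ : ∃ e₀, e₀ = (MulAut.conj g)⁻¹ * f := ⟨_, rfl⟩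
      have he₀B : am e₀ (bb oct X (OctTorus X)) = bb oct X (OctTorus X) := by
        have e1 : (MulAut.conj g)⁻¹ = MulAut.conj g⁻¹ := (map_inv _ _).symm
        rw [he₀, am_mul, hg, e1, am_conj, ← cj_mul, inv_mul_cancel, cj_one]
      have hlong := hB.long_of_opp hp h.w_mem h.w_opp
      have hO : Opp (bb oct X (OctTorus X)) (ss oct n) (cj (ml n l0) (bb oct X (OctTorus X))) :=
        (hB.opp_iff hp hlong).2 ⟨1, one_mem _, by rw [one_mul]⟩
      obtain ⟨u, hu, hu'⟩ := (hB.opp_iff hp hlong).1 (opp_am hB he₀B hO)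
      obtain ⟨e, he⟩ : ∃ e, e = (MulAut.conj u)⁻¹ * e₀ := ⟨_, rfl⟩
      have hu1 : (MulAut.conj u)⁻¹ = MulAut.conj u⁻¹ := (map_inv _ _).symm
      have heB : am e (bb oct X (OctTorus X)) = bb oct X (OctTorus X) := by
        rw [he, am_mul, he₀B, hu1, am_conj, cj_self (inv_mem (uu_le hu))]
      have heC : am e (cj (ml n l0) (bb oct X (OctTorus X))) =
          cj (ml n l0) (bb oct X (OctTorus X)) := by
        rw [he, am_mul, hu', hu1, am_conj, ← cj_mul, inv_mul_cancel_left]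
      have hst := h.stab hB hab hna heB heC
      obtain ⟨σ, hσ, -⟩ := (h.kt 0).semi (fun x hx => (hst 0 x).1 hx) (fun t ht => tor_iff hst ht)
      refine ⟨σ, g * u, e, ?_, hst, hσ⟩
      change f = _
      rw [he, he₀, map_mul]
      group
    · rintro x ⟨z, e, hx, he, hk⟩
      change x = _ at hx
      rw [hx]
      exact mul_mem ⟨z, rfl⟩ (h.inner he h2 hk)
  exact ⟨fun f g h hf hg _ => Or.inl (key f g hf hg), Or.inl key⟩

end

section
variable {F : Type v} [Field F] [Finite F] {L : Type u} [Group L] [Finite L]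

/-- **few outer automorphisms** -/
theorem _root_.Vale.Agent.P240.R2.H387.Is2F4.fewAut (h : Is2F4 F L) (hs : IsSimpleGroup L)
    (hab : ∃ x y : L, x * y ≠ y * x) {q : ℕ} (hq : q.Prime) : FewAut q L := by
  have hc := centre_one hs hab
  obtain ⟨θ, X, hθ, hne, hev, hod, hcomm, hrep, hopp, hgen⟩ := h
  have : Fact (Nat.Prime 2) := ⟨Nat.prime_two⟩
  have h2 := two_zero' hθ
  have hX : ∀ i, Good (OctTorus X) (X i) := by
    intro i
    rcases Nat.mod_two_eq_zero_or_one i.val with h1 | h1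
    · exact good_field (two_zero' hθ) (hev i h1)
    · exact good_suzuki hθ hne (hod i h1)
  have hRD := rd_of hX hcomm hrep hopp hgen hc
  have hodd := odd_of hX hgen hc
  have hk : ∀ i, ∃ (N : ℕ) (π κ : L → F), KT (OctTorus X) (X i) N π κ := by
    intro i
    rcases Nat.mod_two_eq_zero_or_one i.val with h1 | h1
    · obtain ⟨π, κ, h3⟩ := kt_field h2 (hev i h1)
      exact ⟨1, π, κ, h3⟩
    · obtain ⟨π, κ, h3⟩ := kt_suzuki hθ hne (hod i h1)
      exact ⟨2, π, κ, h3⟩
  choose N π κ hkt using hk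
  have hh : HH X := ⟨hRD, hrep, hodd, fun g hg => central hc hgen hg⟩
  choose n hn1 hn2 hn3 hn4 using fun i => hh.exists_n (hkt i)
  have hT : TT F X n N π κ := ⟨hh, hkt, hn1, hn2, hn3, hn4, fun σ hσ => ringAut_odd hθ hσ⟩
  have hB := hRD.splitBN (n := n) (r := 2) hn1 (fun i => (hX i).pgrp) hodd
  refine hT.fewAut hB.toSB ?_ ?_ h2 hq
  · intro y hy
    obtain ⟨z, hinj, hX8, hadd, -, -⟩ := hev 8 (by decide +kernel)
    obtain ⟨a, rfl⟩ := (hX8 y).1 hy
    have h0 : z 0 = 1 := by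
      have h1 := hadd 0 0
      rw [add_zero] at h1
      exact mul_eq_left.1 h1.symm
    rw [← hadd, ← h0]
    congr 1
    linear_combination a * h2
  · obtain ⟨z, hinj, hX15, hmul, -, -⟩ := hod 15 (by decide +kernel)
    refine ⟨z 1 0, (hX15 _).2 ⟨1, 0, rfl⟩, fun h1 => ?_⟩
    have h0 : z 0 0 = 1 := by
      have h3 := hmul 0 0 0 0
      rw [add_zero, map_zero, mul_zero, add_zero] at h3
      exact mul_eq_left.1 h3
    rw [hmul, ← h0] at h1
    have h3 := (hinj _ _ _ _ h1).2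
    rw [map_one] at h3
    exact one_ne_zero (by linear_combination h3)

end

end Vale.Agent.P240.R2.H387.O
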