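import Vale.Agent.P240.R2.H387.M2

/-!
`0 < t (Fr K n)` for the hermitian form.
-/

set_option autoImplicit false

namespace Vale.Agent.P240.R2.H387

open Vale.Agent.P240.R2.AS

universe u

/-- hT1 -/
theorem t_pos_two {K : Type u} [Field K] [Fintype K] [StarRing K] {q : ℕ} (hq : 3 ≤ q)
    (hK : Nat.card K = q ^ 2) (hs : ∀ x : K, star x = x ^ q) {n : ℕ} (hn : 2 ≤ n) :
    0 < AS.t (AS.Fr K n) := by
  have h := stmtM2 K q hq hK hs n hn
  by_contra h0
  have h1 : AS.t (AS.Fr K n) = 0 := by omega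
  rw [h1, Nat.mul_zero] at h
  exact Nat.not_lt_zero _ h

end Vale.Agent.P240.R2.H387
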