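import Vale.Agent.P240.R2.H387.M2
import Vale.Agent.P240.R2.H281.SixF
import Vale.Agent.P240.R2.H281.SixG
import Vale.Agent.P240.R2.H775.GB4

/-!
Theorem 1 for every star: from the number of pairs per plane to the size of `t (Fr K n)`
(P240, AS; `p = 2` uses the trivial star on the fixed field).
-/

set_option autoImplicit false
set_option linter.unusedSectionVars false

open scoped Classical
open Matrix

namespace Vale.Agent.P240.R2.H387

universe u

noncomputable section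

variable {K : Type u} [Field K] [Fintype K] [StarRing K]

/-- at least `b` ordered pairs in every plane of `K ^ n` -/
def SixB (K : Type u) [Field K] [Fintype K] [StarRing K] (b n : ℕ) : Prop :=
  ∀ x y : AS.Ln K n, x.1 * y.1 = 0 →
    b ≤ (Finset.univ.filter (fun p : AS.Ln K n × AS.Ln K n =>
      p.1.1 * p.2.1 = 0 ∧ p.1.1 + p.2.1 = x.1 + y.1)).card

theorem sixB_six {n : ℕ} : SixB K 6 n ↔ Six K n := Iff.rfl

theorem SixB.mono {b b' n : ℕ} (h : SixB K b n) (hb : b' ≤ b) : SixB K b' n :=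
  fun x y hxy => hb.trans (h x y hxy)

/-- from the vector form of helper281 -/
theorem six_of_281 {n : ℕ} (h : H281.Six K n) : Six K n := by
  intro a b hab
  obtain ⟨x, hx, hax⟩ := a.2
  obtain ⟨y, hy, hby⟩ := b.2
  have hxy : star x ⬝ᵥ y = 0 := by
    have h1 : pr x * pr y = 0 := by
      have e : ∀ v : Fin n → K, star v ⬝ᵥ v = 1 → pr v = vecMulVec v (star v) := by
        intro v hv
        rw [pr, show hf v v = 1 from hv, inv_one, one_smul]
      rw [e x hx, e y hy, ← hax, ← hby]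
      exact hab
    have hx' : hf x x ≠ 0 := by rw [show hf x x = 1 from hx]; exact one_ne_zero
    have hy' : hf y y ≠ 0 := by rw [show hf y y = 1 from hy]; exact one_ne_zero
    exact (pr_mul_eq_zero hx' hy').1 h1
  obtain ⟨S, hS, hS'⟩ := h x y hx hy hxy
  refine hS.trans ?_
  refine (Finset.card_le_card (t := (Finset.univ.filter (fun p : AS.Ln K n × AS.Ln K n =>
    p.1.1 * p.2.1 = 0 ∧ p.1.1 + p.2.1 = a.1 + b.1)).image fun x => (x.1.1, x.2.1)) ?_).trans
    Finset.card_image_le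
  intro p hp
  obtain ⟨x', y', hx', hy', hxy', e1, e2, e3⟩ := hS' p hp
  rw [Finset.mem_image]
  refine ⟨(⟨p.1, x', hx', e1⟩, ⟨p.2, y', hy', e2⟩), ?_, rfl⟩
  rw [Finset.mem_filter]
  refine ⟨Finset.mem_univ _, ?_, ?_⟩
  · change p.1 * p.2 = 0
    have e : ∀ v : Fin n → K, star v ⬝ᵥ v = 1 → pr v = vecMulVec v (star v) := by
      intro v hv
      rw [pr, show hf v v = 1 from hv, inv_one, one_smul]
    have hx'' : hf x' x' ≠ 0 := by rw [show hf x' x' = 1 from hx']; exact one_ne_zero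
    have hy'' : hf y' y' ≠ 0 := by rw [show hf y' y' = 1 from hy']; exact one_ne_zero
    rw [e1, e2, ← e x' hx', ← e y' hy']
    exact (pr_mul_eq_zero hx'' hy'').2 hxy'
  · change p.1 + p.2 = a.1 + b.1
    rw [e1, e2, e3, hax, hby]

/-- good systems with `b` pairs per plane, any star -/
theorem goodB {b n : ℕ} (hb : SixB K b n) : H775.B.Good b n (AS.Fr K n) where
  len w hw := ((AS.mem_Fr K).1 hw).1
  nodup w hw := List.Nodup.of_map _ (mem_Fr_iff.1 hw).1.nodup
  perm w w' hp hw := mem_Fr_iff.2 ((mem_Fr_iff.1 hw).perm (hp.map _))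
  rect u u' g g' _ h1 h2 h3 := by
    rw [mem_Fr_iff, List.map_append] at h1 h2 h3 ⊢
    exact IsFr.rect h1 h2 h3
  pairs u x y h := by
    have h1 := mem_Fr_iff.1 h
    rw [List.map_append] at h1
    have h2 := (OW.append.1 h1.1).2.1
    have h3 : x.1 * y.1 = 0 := (OW.cons.1 h2).1 (toL y) (by simp)
    refine (hb x y h3).trans (Finset.card_le_card ?_)
    intro p hp
    obtain ⟨hp1, hp2⟩ := (Finset.mem_filter.1 hp).2
    simp only [Finset.mem_filter, Finset.mem_univ, true_and]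
    rw [mem_Fr_iff, List.map_append]
    refine h1.replace ?_ ?_
    · exact OW.cons.2 ⟨fun Q hQ => by rw [List.mem_singleton.1 hQ]; exact hp1,
        OW.cons.2 ⟨fun Q hQ => by simp at hQ, List.Pairwise.nil⟩⟩
    · simpa using hp2

/-- Theorem 1 with `b ≥ 4` pairs per plane, any star -/
theorem t_bigB {b n : ℕ} (hb : 4 ≤ b) (hn : 2 ≤ n) (h : ∀ N, SixB K b N) :
    (b - 4) * (AS.Fr K n).card < b * 2 ^ n * AS.t (AS.Fr K n) := by
  obtain ⟨k0, hk⟩ := H775.B.gsB b n hb hn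
  obtain ⟨g, hg, hw, hlt⟩ := hk (AS.Ln K k0) (AS.Fr K k0) k0 le_rfl (goodB (h k0))
    AS_Fr_nonempty
  obtain ⟨e1, e2⟩ := H472.m2b hg hw
  rwa [e1, e2] at hlt

/-- Theorem 1 with six pairs per plane, any star -/
theorem t_big_of_Six {n : ℕ} (hn : 2 ≤ n) (h : ∀ N, Six K N) :
    (AS.Fr K n).card < 3 * 2 ^ n * AS.t (AS.Fr K n) := by
  obtain ⟨k0, hk⟩ := H775.stmtM1 n hn
  obtain ⟨g, hg, hw, hlt⟩ := hk (AS.Ln K k0) (AS.Fr K k0) k0 le_rfl (good_of_Six (h k0))
    AS_Fr_nonempty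
  obtain ⟨e1, e2⟩ := H472.m2b hg hw
  rwa [e1, e2] at hlt

/-- `t > 0` with four pairs per plane, any star -/
theorem t_pos_of {n : ℕ} (hn : 2 ≤ n) (h : ∀ N, SixB K 4 N) : 0 < AS.t (AS.Fr K n) := by
  have h1 := t_bigB le_rfl hn h
  by_contra h2
  have h3 : AS.t (AS.Fr K n) = 0 := by omega
  rw [h3] at h1
  simp at h1

/-- hermitian case -/
theorem t_big_herm {q n : ℕ} (hq : 3 ≤ q) (hK : Nat.card K = q ^ 2)
    (hs : ∀ x : K, star x = x ^ q) (hn : 2 ≤ n) :
    (AS.Fr K n).card < 3 * 2 ^ n * AS.t (AS.Fr K n) :=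
  t_big_of_Six hn fun _ => Six_herm hq hK hs

/-- symmetric case: the orthogonal frames of lines of square value, `q ≥ 11` odd -/
theorem t_big_triv {n : ℕ} (hs : ∀ a : K, star a = a) (h2 : (2 : K) ≠ 0)
    (hq : 11 ≤ Nat.card K) (hn : 2 ≤ n) :
    (AS.Fr K n).card < 3 * 2 ^ n * AS.t (AS.Fr K n) :=
  t_big_of_Six hn fun N => six_of_281 (H281.six_triv hs h2 hq N)

end

end Vale.Agent.P240.R2.H387
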