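import Vale.Agent.P240.R2.H945.W.X3
import Vale.Agent.P240.R2.H775.RGen

/-!
Rigidity of the BN-pairs of groups given by twisted Chevalley relations.
-/

set_option autoImplicit false
set_option linter.all false

namespace Vale.Agent.P240.R2.H387.TW5

open Subgroup Vale.Agent.P240.H195 Vale.Agent.P240.R2.H945.W Vale.Agent.P240.R2.H945.W.TS
open Vale.Agent.P240.R2.H986.X (RC nn nl wl SS wl_neg)

universe u

section
variable {ι : Type*} {F : Type*} [Field F] {L : Type*} [Group L] {C : RC ι} {K : ι → Subfield F}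
  {x : ι → F → L}

/-- the opposite root group of a positive root is mapped into `U` by opposite elements -/
lemma X_opp (h : TS C K x) {n : L} (hn : n ∈ NN C K x)
    (hopp : ∀ y ∈ UU C K x, n * y * n⁻¹ ∈ UU C K x → y = 1) {i : ι} (hip : 0 < C.ht i) {c : F}
    (hc : c ∈ K i) : n⁻¹ * x (C.neg i) c * n ∈ UU C K x := by
  obtain ⟨l, hl⟩ := N_act h (inv_mem hn)
  have hpos : 0 < C.ht (wl C l (C.neg i)) := by
    by_contra hcon
    have h0 := C.ht_ne (wl C l (C.neg i))
    rw [wl_neg, C.ht_neg] at hcon h0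
    have h1 : 0 < C.ht (wl C l i) := by omega
    obtain ⟨φ, hφ, h2⟩ := hl i
    have h3 := h2 1 (one_mem _)
    rw [inv_inv] at h3
    have h4 : n⁻¹ * x i 1 * n ∈ UU C K x := by
      rw [h3]
      exact x_mem_UU h1 (by rw [h.K_wl]; exact hφ 1 (one_mem _))
    have h5 := hopp _ h4 (by
      have e : n * (n⁻¹ * x i 1 * n) * n⁻¹ = x i 1 := by group
      rw [e]
      exact x_mem_UU hip (one_mem _))
    have h6 : x i 1 = 1 := by
      have e : x i 1 = n * (n⁻¹ * x i 1 * n) * n⁻¹ := by group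
      rw [e, h5]
      group
    exact one_ne_zero (h.inj i 1 (one_mem _) h6)
  obtain ⟨φ, hφ, h2⟩ := hl (C.neg i)
  have h3 := h2 c (by rw [h.K_neg]; exact hc)
  rw [inv_inv] at h3
  rw [h3]
  refine x_mem_UU hpos ?_
  rw [h.K_wl]
  exact hφ c (by rw [h.K_neg]; exact hc)

end

section
variable {ι : Type*} {F : Type*} [Field F] {L : Type*} [Group L] {C : RC ι} {K : ι → Subfield F}
  {x : ι → F → L}

/-- **Rigidity** of the split BN-pair of twisted Chevalley relations over a finite field of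
characteristic `r`. -/
theorem rigidBN [Finite ι] [Finite F] [Finite L] (h : TS C K x) (hs : IsSimpleGroup L)
    (hc : ∀ g : L, (∀ y, g * y = y * g) → g = 1) (r : ℕ) [Fact r.Prime] [CharP F r] :
    RigidBN r (BB C K x) (NN C K x) (UU C K x) (SS C x) := by
  have hB := (splitBN h hc r).toSB
  obtain ⟨n₀, hn₀, hopp₀⟩ := hB.opp
  refine Vale.Agent.P240.R2.H775.RGen.rigid_of_pos hB hs ?_ hn₀ hopp₀ ?_
  · intro a haB haN b hbB hbN
    exact T_comm h hc (inf_mem h haB haN) (inf_mem h hbB hbN)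
  rintro s ⟨i, hi, rfl⟩
  have hip := C.simp_pos i hi
  refine ⟨K i, inferInstance, inferInstance, inferInstance, fun a => x i a.1, ?_, ?_, ?_, ?_, ?_, ?_⟩
  · intro a b hab
    exact Subtype.ext (h.x_inj a.2 b.2 hab)
  · intro a b
    exact h.add i a.1 b.1 a.2 b.2
  · intro a
    exact x_mem_UU hip a.2
  · intro a
    obtain ⟨φ, hφ, -, h1⟩ := n_act h i i
    rw [h1 a.1 a.2, C.s_self]
    exact X_opp h hn₀ hopp₀ hip (hφ a.1 a.2)
  · intro u hu
    obtain ⟨v, hv, c, hcK, e⟩ := U_dec h hi (inv_mem hu)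
    refine ⟨⟨-c, neg_mem hcK⟩, v⁻¹, inv_mem (Ui_le i hv), ?_, ?_⟩
    · change u = x i (-c) * v⁻¹
      rw [h.x_neg i hcK, ← mul_inv_rev, ← e, inv_inv]
    · exact Ui_le i (Ui_conj_n h hi (inv_mem hv))
  · intro a ha
    have ha0 : a.1 ≠ 0 := fun h0 => ha (Subtype.ext h0)
    refine ⟨_, TT_le_BB (h.h_mem a.2 ha0), TT_le (h.h_mem a.2 ha0), fun c => ?_⟩
    have h1 := h.h_self i a.2 ha0 c.2
    rw [h1, ← sq]
    rfl

/-- the general form of `StmtX5` for twisted relations -/
theorem rigidLie [Finite ι] [Finite F] [Finite L] (h : TS C K x) (hs : IsSimpleGroup L)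
    (hc : ∀ g : L, (∀ y, g * y = y * g) → g = 1) (r : ℕ) [Fact r.Prime] [CharP F r] :
    RigidLie r L := ⟨hs, hc, _, _, _, _, rigidBN h hs hc r⟩

theorem lieType [Finite ι] [Finite F] [Finite L] (h : TS C K x) (hs : IsSimpleGroup L)
    (hc : ∀ g : L, (∀ y, g * y = y * g) → g = 1) (r : ℕ) [Fact r.Prime] [CharP F r] :
    LieType r L := ⟨hs, hc, _, _, _, _, splitBN h hc r⟩

end

end Vale.Agent.P240.R2.H387.TW5
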