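import Vale.Agent.P240.R2.H715.SpStmts
import Vale.Agent.P240.R2.H687.A7
import Vale.Agent.P240.R2.H275.M4cB
import Vale.Agent.P240.R2.H281.T4
import Vale.Agent.P240.R2.H775.Top1

/-!
The module TX: a cycle of rank `m - 1` in `PO_m(q)`.
-/

set_option autoImplicit false

namespace Vale.Agent.P240.R2.H387

open Matrix Subgroup Vale.Agent.P240.R2.AS Vale.Agent.P240.K
open Vale.Agent.P240.R2.H715
open scoped Classical

universe u v w

attribute [local instance] ts

/-- a homomorphism on `GU` whose kernel consists of the scalars, on the quotient `PGU` -/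
theorem exists_lift {K : Type u} [Field K] [Fintype K] [StarRing K] {m : ℕ} {G : Type v} [Group G]
    (h2 : (2 : K) ≠ 0) (i : GU K m →* G)
    (hi : ∀ g, i g = 1 ↔ ∃ c : K, g.1 = c • (1 : Matrix (Fin m) (Fin m) K)) :
    ∃ j : PGU K m →* G, Function.Injective j ∧ ∀ g : GU K m, j (QuotientGroup.mk g) = i g := by
  have hne : (-1 : K) ≠ 1 := by
    intro h
    apply h2
    linear_combination -h
  have hs : (-1 : K) * star (-1) = 1 := by simp
  have hker : ∀ g : GU K m, g ∈ Subgroup.center (GU K m) ↔ i g = 1 := by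
    intro g
    rw [← QuotientGroup.eq_one_iff, H275.mk_one_iff hne hs, hi]
  refine ⟨QuotientGroup.lift _ i fun g hg => (hker g).1 hg, ?_, fun g => rfl⟩
  rw [injective_iff_map_eq_one]
  intro x
  refine QuotientGroup.induction_on x fun g hg => ?_
  rw [QuotientGroup.eq_one_iff]
  exact (hker g).2 hg

/-- the `Comb` data for the images of the elements `e W` -/
theorem comb_i {K : Type u} [Field K] [Fintype K] [StarRing K] {m : ℕ} {G : Type v} [Group G]
    (h2 : (2 : K) ≠ 0) (hm : 1 ≤ m) (i : GU K m →* G)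
    (hi : ∀ g, i g = 1 ↔ ∃ c : K, g.1 = c • (1 : Matrix (Fin m) (Fin m) K)) :
    Comb 2 m (AS.Fr K m) (fun u => i (eU (-1) (AS.sm u))) := by
  obtain ⟨j, hj, hji⟩ := exists_lift h2 i hi
  have hne : (-1 : K) ≠ 1 := by
    intro h
    apply h2
    linear_combination -h
  have : Fact (Nat.Prime 2) := ⟨Nat.prime_two⟩
  have h := H687.comb_map (H275.comb_eW (p := 2) (n := m) (by ring) hne (by simp) hm) j hj
  have he : (fun u => i (eU (-1) (AS.sm u))) = fun u : List (AS.Ln K m) => j (eW (-1) u) := by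
    funext u
    exact (hji _).symm
  rw [he]
  exact h

/-- **TX** -/
theorem stmtTX : StmtTX.{u, v, w} := by
  intro K _ _ h2 hq m hm G _ _ i hi
  have : Fact (Nat.Prime 2) := ⟨Nat.prime_two⟩
  have hc := comb_i h2 (by omega) i hi
  refine ⟨fun w hw => hc.card w hw, fun 𝕜 _ => ?_⟩
  have ht : 0 < AS.t (AS.Fr K m) := H281.t_pos_triv (fun a => rfl) h2 hq hm
  obtain ⟨w, hw, α, φ, h⟩ := H775.top_of_comb (by omega) hc ht 𝕜 i.range
    (fun u v _ => ⟨_, rfl⟩)
  exact ⟨w, hw, α, φ, h⟩

end Vale.Agent.P240.R2.H387
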